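import Vale.Agent.P192.H124.Hyp

/-!
# P192: acylindrical actions on hyperbolic graphs
-/

namespace Vale.Agent.P192

universe u v

/-- the balls of a symmetric generating set -/
def ballT {K : Type u} [Group K] (T : Set K) : ℕ → Set K
  | 0 => {1}
  | n + 1 => Set.image2 (fun a b => a * b) T (ballT T n)

section

variable {K : Type u} [Group K] {T : Set K}

theorem ballT_finite (hT : T.Finite) (n : ℕ) : (ballT T n).Finite := by
  induction n with
  | zero => exact Set.finite_singleton _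
  | succ n ih => exact hT.image2 _ ih

theorem ballT_mono (h1 : (1 : K) ∈ T) : Monotone (ballT T) :=
  monotone_nat_of_le_succ fun _ g hg => ⟨1, h1, g, hg, one_mul g⟩

theorem exists_mem_ballT (hTi : ∀ g ∈ T, g⁻¹ ∈ T) (hT : Subgroup.closure T = ⊤) (g : K) :
    ∃ n, g ∈ ballT T n := by
  have hg : g ∈ (Subgroup.closure T).toSubmonoid := by rw [hT]; trivial
  rw [Subgroup.closure_toSubmonoid] at hg
  have e : T ∪ T⁻¹ = T := by
    apply Set.union_eq_self_of_subset_right
    intro a ha
    have := hTi _ ha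
    rwa [inv_inv] at this
  rw [e] at hg
  induction hg using Submonoid.closure_induction_left with
  | one => exact ⟨0, rfl⟩
  | mul_left x hx y _ ih =>
    obtain ⟨n, hn⟩ := ih
    exact ⟨n + 1, x, hx, y, hn, rfl⟩

theorem exists_subset_ballT (h1 : (1 : K) ∈ T) (hTi : ∀ g ∈ T, g⁻¹ ∈ T)
    (hT : Subgroup.closure T = ⊤) (F : Finset K) : ∃ n, (F : Set K) ⊆ ballT T n := by
  classical
  induction F using Finset.induction_on with
  | empty => exact ⟨0, by simp⟩
  | insert a F _ ih =>
    obtain ⟨n, hn⟩ := ih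
    obtain ⟨m, hm⟩ := exists_mem_ballT hTi hT a
    refine ⟨max m n, ?_⟩
    rw [Finset.coe_insert]
    exact Set.insert_subset (ballT_mono h1 (le_max_left _ _) hm)
      (hn.trans (ballT_mono h1 (le_max_right _ _)))

end

/-- a finite symmetric generating set -/
theorem exists_symm_gen (K : Type u) [Group K] [hK : Group.FG K] : ∃ T : Set K, T.Finite ∧
    (1 : K) ∈ T ∧ (∀ g ∈ T, g⁻¹ ∈ T) ∧ Subgroup.closure T = ⊤ := by
  obtain ⟨T₀, hT₀⟩ := Group.fg_def.1 hK
  refine ⟨insert 1 ((T₀ : Set K) ∪ (fun g => g⁻¹) '' (T₀ : Set K)),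
    (T₀.finite_toSet.union (T₀.finite_toSet.image _)).insert _, Set.mem_insert _ _, ?_, ?_⟩
  · intro g hg
    rcases hg with rfl | hg | ⟨a, ha, rfl⟩
    · rw [inv_one]; exact Set.mem_insert _ _
    · exact Or.inr (Or.inr ⟨g, hg, rfl⟩)
    · exact Or.inr (Or.inl (by rw [inv_inv]; exact ha))
  · rw [eq_top_iff, ← hT₀]
    exact Subgroup.closure_mono fun g hg => Or.inr (Or.inl hg)

/-- **A finitely generated periodic group with an acylindrical action on a hyperbolic graph has
bounded orbits.** -/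
theorem Hyp.exists_bounded {V : Type v} {d : V → V → ℕ} {δ : ℕ} (hd : Hyp d δ) {K : Type u}
    [Group K] [MulAction K V] (hiso : ∀ (g : K) x y, d (g • x) (g • y) = d x y)
    (ht : ∀ g : K, IsOfFinOrder g) [Nonempty V] [hK : Group.FG K] (R N : ℕ)
    (hac : ∀ x y : V, R ≤ d x y →
      {g : K | d x (g • x) ≤ 17 * δ + 3 ∧ d y (g • y) ≤ 17 * δ + 3}.encard ≤ N) :
    ∃ (x : V) (r : ℕ), ∀ g : K, d x (g • x) ≤ r := by
  classical
  rcases finite_or_infinite K with hfin | hinf
  · -- finite groups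
    let x : V := Classical.arbitrary V
    obtain ⟨r, hr⟩ := Finite.exists_le (fun g : K => d x (g • x))
    exact ⟨x, r, hr⟩
  obtain ⟨T, hTf, h1, hTi, hTcl⟩ := exists_symm_gen K
  -- a coarse fixed point of every ball
  have hfix : ∀ n, ∃ x : V, ∀ g ∈ ballT T n, d x (g • x) ≤ 17 * δ + 3 := by
    intro n
    obtain ⟨x, hx⟩ := hd.exists_small hiso ht (ballT T n ∪ (fun g => g⁻¹) '' (ballT T n))
      (((ballT_finite hTf n)).union ((ballT_finite hTf n).image _)) (by
        rintro g (hg | ⟨a, ha, rfl⟩)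
        · exact Or.inr ⟨g, hg, rfl⟩
        · exact Or.inl (by rw [inv_inv]; exact ha))
    exact ⟨x, fun g hg => hx g (Or.inl hg)⟩
  choose x hx using hfix
  obtain ⟨F, hF⟩ := Infinite.exists_subset_card_eq K (N + 1)
  obtain ⟨n, hn⟩ := exists_subset_ballT h1 hTi hTcl F
  have hclose : ∀ m, n ≤ m → d (x n) (x m) < R := by
    intro m hm
    by_contra hR
    rw [not_lt] at hR
    have h2 := hac (x n) (x m) hR
    have h3 : (F : Set K) ⊆
        {g : K | d (x n) (g • x n) ≤ 17 * δ + 3 ∧ d (x m) (g • x m) ≤ 17 * δ + 3} :=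
      fun g hg => ⟨hx n g (hn hg), hx m g (ballT_mono h1 hm (hn hg))⟩
    have h4 := (Set.encard_le_encard h3).trans h2
    rw [Set.encard_coe_eq_coe_finsetCard, hF] at h4
    have h5 : N + 1 ≤ N := by exact_mod_cast h4
    omega
  refine ⟨x n, 2 * R + (17 * δ + 3), fun g => ?_⟩
  obtain ⟨m, hm⟩ := exists_mem_ballT hTi hTcl g
  have h2 := hx (max n m) g (ballT_mono h1 (le_max_right _ _) hm)
  have h3 := hclose (max n m) (le_max_left _ _)
  have h4 := hd.tri (x n) (x (max n m)) (g • x n)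
  have h5 := hd.tri (x (max n m)) (g • x (max n m)) (g • x n)
  have h6 : d (g • x (max n m)) (g • x n) = d (x n) (x (max n m)) := by
    rw [hiso, hd.symm]
  omega

/-- **Acylindrical actions on hyperbolic graphs**: if the subgroups with bounded orbits are in the
class, then so is the group. -/
theorem fpb_of_acylindrical {V : Type v} (A : SimpleGraph V) (hA : A.Connected) (δ : ℕ)
    (h4 : ∀ x y z w, A.dist x y + A.dist z w ≤
      max (A.dist x z + A.dist y w) (A.dist x w + A.dist y z) + 2 * δ)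
    {G : Type u} [Group G] [MulAction G V]
    (hadj : ∀ (g : G) (u v : V), A.Adj u v → A.Adj (g • u) (g • v))
    (hac : ∀ ε : ℕ, ∃ R N : ℕ, ∀ x y : V, R ≤ A.dist x y →
      {g : G | A.dist x (g • x) ≤ ε ∧ A.dist y (g • y) ≤ ε}.encard ≤ N)
    (hb : ∀ K : Subgroup G, (∃ (x : V) (r : ℕ), ∀ g ∈ K, A.dist x (g • x) ≤ r) → FPB K) :
    FPB G := by
  have hne : Nonempty V := hA.nonempty
  have hle : ∀ (g : G) (u v : V), A.dist (g • u) (g • v) ≤ A.dist u v := by
    intro g u v
    obtain ⟨p, hp⟩ := hA.exists_walk_length_eq_dist u v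
    let φ : A →g A := ⟨fun x => g • x, fun {a b} hab => hadj g a b hab⟩
    have := SimpleGraph.dist_le (p.map φ)
    rw [SimpleGraph.Walk.length_map, hp] at this
    exact this
  have hiso : ∀ (g : G) (u v : V), A.dist (g • u) (g • v) = A.dist u v := by
    intro g u v
    refine le_antisymm (hle g u v) ?_
    have := hle g⁻¹ (g • u) (g • v)
    rwa [inv_smul_smul, inv_smul_smul] at this
  intro Γ _ hΓ ht f
  obtain ⟨n, φ, hφ, -⟩ := id hΓ
  have hfg : Group.FG Γ := Group.fg_of_surjective hφ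
  have hr : Group.FG f.range := Group.fg_range f
  have hto : ∀ k : f.range, IsOfFinOrder k := by
    rintro ⟨_, y, rfl⟩
    have h1 : IsOfFinOrder (f y) := MonoidHom.isOfFinOrder f (ht y)
    exact (Submonoid.isOfFinOrder_coe (H := f.range.toSubmonoid) (x := ⟨f y, y, rfl⟩)).1 h1
  obtain ⟨R, N, hac⟩ := hac (17 * δ + 3)
  obtain ⟨x, r, hx⟩ := (hyp_dist hA h4).exists_bounded (K := f.range)
    (fun g x y => hiso (g : G) x y) hto R N (by
      intro x y hxy
      refine le_trans ?_ (hac x y hxy)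
      have h5 : (Subtype.val '' {g : f.range | A.dist x (g • x) ≤ 17 * δ + 3 ∧
          A.dist y (g • y) ≤ 17 * δ + 3}) ⊆
          {g : G | A.dist x (g • x) ≤ 17 * δ + 3 ∧ A.dist y (g • y) ≤ 17 * δ + 3} := by
        rintro _ ⟨g, hg, rfl⟩
        exact hg
      rw [← Subtype.val_injective.encard_image]
      exact Set.encard_le_encard h5)
  have hK : FPB f.range := hb f.range ⟨x, r, fun g hg => hx ⟨g, hg⟩⟩
  have hfin := hK Γ hΓ ht f.rangeRestrict
  rw [MonoidHom.range_eq_top.2 f.rangeRestrict_surjective] at hfin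
  exact Finite.of_equiv _ Subgroup.topEquiv.toEquiv

end Vale.Agent.P192
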