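import Vale.Agent.P192.H826.RaysA
import Vale.Agent.P192.H491.Sect

/-!
# P192: the tree of words as a self-similar structure over the letters
-/

namespace Vale.Agent.P192

variable {X : Type*}

/-- letters as words of length one -/
def letterEquiv (X : Type*) : X ≃ {v : List X // v.length = 1} where
  toFun x := ⟨[x], rfl⟩
  invFun v := v.1.head (List.length_pos_iff.1 (by rw [v.2]; exact Nat.one_pos))
  left_inv _ := rfl
  right_inv := by
    rintro ⟨v, hv⟩
    obtain ⟨x, rfl⟩ := List.length_eq_one_iff.1 hv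
    rfl

/-- the wreath recursion of the tree of words -/
def ssX (X : Type*) : SS (TreeAut X) X where
  σ := (letterEquiv X).symm.permCongrHom.toMonoidHom.comp (levelPerm X 1)
  sec g x := sect g [x]
  sec_mul g h x := by
    have e : [((letterEquiv X).symm.permCongrHom.toMonoidHom.comp (levelPerm X 1)) h x] =
        (h : Equiv.Perm (List X)) [x] := by
      change [(letterEquiv X).symm (levelPerm X 1 h (letterEquiv X x))] = _
      have h2 : letterEquiv X ((letterEquiv X).symm (levelPerm X 1 h (letterEquiv X x))) =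
        levelPerm X 1 h (letterEquiv X x) := Equiv.apply_symm_apply _ _
      exact congrArg Subtype.val h2
    rw [e]
    exact sect_mul g h [x]

theorem ssX_σ (g : TreeAut X) (x : X) : [(ssX X).σ g x] = (g : Equiv.Perm (List X)) [x] := by
  have h2 : letterEquiv X ((letterEquiv X).symm (levelPerm X 1 g (letterEquiv X x))) =
    levelPerm X 1 g (letterEquiv X x) := Equiv.apply_symm_apply _ _
  exact congrArg Subtype.val h2

theorem ssX_sec (g : TreeAut X) (x : X) : (ssX X).sec g x = sect g [x] := rfl

theorem ssX_secL (g : TreeAut X) (v : List X) : (ssX X).secL g v = sect g v := by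
  induction v generalizing g with
  | nil => exact (sect_nil g).symm
  | cons x v ih =>
    change (ssX X).secL (sect g [x]) v = sect g (x :: v)
    rw [ih, ← sect_append]
    rfl

theorem ssX_faithful : (ssX X).Faithful := by
  intro g hg
  have key : ∀ (w : List X) (g : TreeAut X), (∀ v, (ssX X).σ ((ssX X).secL g v) = 1) →
      (g : Equiv.Perm (List X)) w = w := by
    intro w
    induction w with
    | nil => exact fun g _ => ta_nil g
    | cons x w ih =>
      intro g hg
      have h1 : (g : Equiv.Perm (List X)) [x] = [x] := by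
        rw [← ssX_σ]
        have := hg []
        change (ssX X).σ g = 1 at this
        rw [this]
        rfl
      have h2 := sect_spec g [x] w
      rw [h1, ih (sect g [x]) (fun v => hg (x :: v))] at h2
      exact h2
  apply ta_ext
  intro w
  exact key w g hg

theorem ssX_st (g : TreeAut X) (ξ : ℕ → X) (n : ℕ) :
    (ssX X).st ξ n g = sect g ((List.range n).map ξ) := by
  induction n with
  | zero => exact (sect_nil g).symm
  | succ n ih =>
    rw [SS.st_succ, ih, ssX_sec, ← sect_append, List.range_succ, List.map_append]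
    rfl

theorem ssX_off (g : TreeAut X) (ξ : ℕ → X) : (ssX X).off ξ g =
    {k | ∃ n x, x ≠ ξ n ∧ k = sect g ((List.range n).map ξ ++ [x])} := by
  ext k
  constructor
  · rintro ⟨n, x, hx, rfl⟩
    exact ⟨n, x, hx, by rw [ssX_st, ssX_sec, sect_append]⟩
  · rintro ⟨n, x, hx, rfl⟩
    exact ⟨n, x, hx, by rw [ssX_st, ssX_sec, sect_append]⟩

/-! ### connectedness -/

open Classical in
/-- the automorphism moving the ray `ξ` to the ray `η` with trivial sections off the ray -/
noncomputable def mv : (ℕ → X) → (ℕ → X) → List X → List X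
  | _, _, [] => []
  | ξ, η, x :: w =>
    if x = ξ 0 then η 0 :: mv (shf ξ) (shf η) w else (Equiv.swap (ξ 0) (η 0) x) :: w

theorem mv_length (ξ η : ℕ → X) (w : List X) : (mv ξ η w).length = w.length := by
  induction w generalizing ξ η with
  | nil => rfl
  | cons x w ih =>
    unfold mv
    split_ifs
    · rw [List.length_cons, List.length_cons, ih]
    · rfl

theorem mv_mv (ξ η : ℕ → X) (w : List X) : mv η ξ (mv ξ η w) = w := by
  classical
  induction w generalizing ξ η with
  | nil => rfl
  | cons x w ih =>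
    by_cases h : x = ξ 0
    · have e : mv ξ η (x :: w) = η 0 :: mv (shf ξ) (shf η) w := by
        rw [mv, if_pos h]
      rw [e, mv, if_pos rfl, ih, h]
    · have e : mv ξ η (x :: w) = (Equiv.swap (ξ 0) (η 0) x) :: w := by
        rw [mv, if_neg h]
      have h2 : Equiv.swap (ξ 0) (η 0) x ≠ η 0 := by
        intro h3
        apply h
        have h4 := congrArg (Equiv.swap (ξ 0) (η 0)) h3
        rw [Equiv.swap_apply_right, Equiv.swap_apply_self] at h4
        exact h4
      rw [e, mv, if_neg h2, Equiv.swap_comm, Equiv.swap_apply_self]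

theorem mv_prefix (ξ η : ℕ → X) (v w : List X) : mv ξ η v <+: mv ξ η (v ++ w) := by
  classical
  induction v generalizing ξ η with
  | nil => exact List.nil_prefix
  | cons x v ih =>
    by_cases h : x = ξ 0
    · have e : ∀ u, mv ξ η (x :: u) = η 0 :: mv (shf ξ) (shf η) u := by
        intro u
        rw [mv, if_pos h]
      rw [List.cons_append, e, e]
      exact (List.prefix_cons_inj _).2 (ih _ _)
    · have e : ∀ u, mv ξ η (x :: u) = (Equiv.swap (ξ 0) (η 0) x) :: u := by
        intro u
        rw [mv, if_neg h]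
      rw [List.cons_append, e, e]
      exact (List.prefix_cons_inj _).2 (List.prefix_append _ _)

/-- the automorphism `mv` -/
noncomputable def mvT (ξ η : ℕ → X) : TreeAut X :=
  ⟨⟨mv ξ η, mv η ξ, mv_mv ξ η, mv_mv η ξ⟩, by
    refine ⟨mv_length ξ η, fun v w => ⟨?_, ?_⟩⟩
    · rintro ⟨t, ht⟩
      change mv ξ η v ++ t = mv ξ η w at ht
      have h := mv_prefix η ξ (mv ξ η v) t
      rw [ht, mv_mv, mv_mv] at h
      exact h
    · rintro ⟨t, rfl⟩
      exact mv_prefix ξ η v t⟩

theorem mvT_apply (ξ η : ℕ → X) (w : List X) :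
    (mvT ξ η : Equiv.Perm (List X)) w = mv ξ η w := rfl

theorem sect_mvT (ξ η : ℕ → X) : sect (mvT ξ η) [ξ 0] = mvT (shf ξ) (shf η) := by
  classical
  apply ta_ext
  intro w
  have h := sect_spec (mvT ξ η) [ξ 0] w
  have e : ∀ u, mv ξ η (ξ 0 :: u) = η 0 :: mv (shf ξ) (shf η) u := by
    intro u
    rw [mv, if_pos rfl]
  have e1 : (mvT ξ η : Equiv.Perm (List X)) ([ξ 0] ++ w) = η 0 :: mv (shf ξ) (shf η) w := e w
  have e2 : (mvT ξ η : Equiv.Perm (List X)) [ξ 0] = [η 0] := e []
  rw [e1, e2] at h
  exact (List.cons.inj h).2.symm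

theorem sect_mvT' (ξ η : ℕ → X) {x : X} (hx : x ≠ ξ 0) : sect (mvT ξ η) [x] = 1 := by
  classical
  apply ta_ext
  intro w
  have h := sect_spec (mvT ξ η) [x] w
  have e : ∀ u, mv ξ η (x :: u) = (Equiv.swap (ξ 0) (η 0) x) :: u := by
    intro u
    rw [mv, if_neg hx]
  have e1 : (mvT ξ η : Equiv.Perm (List X)) ([x] ++ w) = (Equiv.swap (ξ 0) (η 0) x) :: w := e w
  have e2 : (mvT ξ η : Equiv.Perm (List X)) [x] = [Equiv.swap (ξ 0) (η 0) x] := e []
  rw [e1, e2] at h
  exact (List.cons.inj h).2.symm

/-- iterated shift -/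
def shfN (ξ : ℕ → X) (n : ℕ) : ℕ → X := fun k => ξ (n + k)

theorem st_mvT (ξ η : ℕ → X) (n : ℕ) : (ssX X).st ξ n (mvT ξ η) = mvT (shfN ξ n) (shfN η n) := by
  induction n with
  | zero =>
    have h : ∀ ξ : ℕ → X, shfN ξ 0 = ξ := by
      intro ξ
      funext k
      change ξ (0 + k) = ξ k
      rw [Nat.zero_add]
    rw [h, h]
    rfl
  | succ n ih =>
    have h : ∀ ξ : ℕ → X, shf (shfN ξ n) = shfN ξ (n + 1) := by
      intro ξ
      funext k
      change ξ (n + (k + 1)) = ξ (n + 1 + k)
      congr 1
      omega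
    rw [SS.st_succ, ih, ssX_sec]
    have h2 := sect_mvT (shfN ξ n) (shfN η n)
    rw [h, h] at h2
    exact h2

/-- **Connectedness**: every ray can be moved to every ray by an automorphism with trivial
sections off the ray. -/
theorem ssX_conn (ξ η : ℕ → X) :
    ∃ g : TreeAut X, (ssX X).off ξ g ⊆ {1} ∧ (ssX X).ract g ξ = η := by
  refine ⟨mvT ξ η, ?_, ?_⟩
  · rintro _ ⟨n, x, hx, rfl⟩
    rw [st_mvT, ssX_sec]
    exact sect_mvT' _ _ hx
  · funext n
    have h := ssX_σ (mvT (shfN ξ n) (shfN η n)) (ξ n)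
    classical
    have e : (mvT (shfN ξ n) (shfN η n) : Equiv.Perm (List X)) [ξ n] = [η n] := by
      change mv (shfN ξ n) (shfN η n) (ξ n :: []) = _
      rw [mv, if_pos (show ξ n = shfN ξ n 0 from rfl)]
      rfl
    rw [e] at h
    change (ssX X).σ ((ssX X).st ξ n (mvT ξ η)) (ξ n) = η n
    rw [st_mvT]
    exact (List.cons.inj h).1

/-- the connecting element is in every `Vr` -/
theorem ssX_conn_Vr (H : Subgroup (TreeAut X)) (ξ η : ℕ → X) :
    ∃ g ∈ (ssX X).Vr H ξ, (ssX X).ract g ξ = η := by
  obtain ⟨g, h1, h2⟩ := ssX_conn ξ η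
  refine ⟨g, ⟨?_, (Set.finite_singleton _).subset h1⟩, h2⟩
  intro k hk
  rw [h1 hk]
  exact one_mem _

end Vale.Agent.P192
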