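import Vale.Agent.P192.H124.RayTri

/-!
# P192: relative polynomial activity, explicit form
-/

namespace Vale.Agent.P192

theorem finiteState_of {X : Type*} {g : TreeAut X}
    (h : {f : List X → List X | ∃ v, ∀ w, (g : Equiv.Perm (List X)) (v ++ w) =
      (g : Equiv.Perm (List X)) v ++ f w}.Finite) : FiniteState g := by
  have hinj : Function.Injective
      (fun s : TreeAut X => ((s : Equiv.Perm (List X)) : List X → List X)) := by
    intro a b hab
    exact ta_ext fun w => congrFun hab w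
  have h' := h.preimage (hinj.injOn (s := (fun s : TreeAut X =>
    ((s : Equiv.Perm (List X)) : List X → List X)) ⁻¹'
      {f : List X → List X | ∃ v, ∀ w, (g : Equiv.Perm (List X)) (v ++ w) =
        (g : Equiv.Perm (List X)) v ++ f w}))
  refine h'.subset ?_
  rintro _ ⟨v, rfl⟩
  exact ⟨v, fun w => sect_spec g v w⟩

theorem sect_eq_of {X : Type*} {g : TreeAut X} {v : List X} {k : Equiv.Perm (List X)}
    (h : ∀ w, (g : Equiv.Perm (List X)) (v ++ w) = (g : Equiv.Perm (List X)) v ++ k w) :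
    (sect g v : Equiv.Perm (List X)) = k := by
  apply Equiv.ext
  intro w
  have h2 := h w
  rw [sect_spec] at h2
  exact List.append_cancel_left h2

theorem mem_treeAut_of {X : Type*} (K : Subgroup (Equiv.Perm (List X)))
    (h1 : ∀ g ∈ K, ∀ w, (g w).length = w.length) (h2 : ∀ g ∈ K, ∀ v w, g v <+: g (v ++ w)) :
    K ≤ TreeAut X := by
  intro g hg
  refine ⟨h1 g hg, fun v w => ⟨?_, ?_⟩⟩
  · rintro ⟨t, ht⟩
    have h := h2 g⁻¹ (inv_mem hg) (g v) t
    rw [ht, inv_app, inv_app] at h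
    exact h
  · rintro ⟨t, rfl⟩
    exact h2 g hg v t

/-- **The relative theorem, explicit form.** -/
theorem rel_explicit (X : Type) [Finite X]
    (H : Subgroup (Equiv.Perm (List X))) (k1 : ∀ h ∈ H, ∀ w, (h w).length = w.length)
    (k2 : ∀ h ∈ H, ∀ v, ∃ k ∈ H, ∀ w, h (v ++ w) = h v ++ k w)
    (k3 : ∀ h ∈ H, {f : List X → List X | ∃ v, ∀ w, h (v ++ w) = h v ++ f w}.Finite)
    (k4 : FPB H)
    (Γ : Type) [Group Γ] (hfp : Group.IsFinitelyPresented Γ)
    (hΓ : ∀ x : Γ, IsOfFinOrder x) (S : Set Γ) (hS : Subgroup.closure S = ⊤)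
    (ρ : Γ →* Equiv.Perm (List X)) (h1 : ∀ g w, (ρ g w).length = w.length)
    (h2 : ∀ g v w, ρ g v <+: ρ g (v ++ w))
    (h3 : ∀ g ∈ S, {f : List X → List X | ∃ v, ∀ w, ρ g (v ++ w) = ρ g v ++ f w}.Finite)
    (h4 : ∀ g ∈ S, ∃ C k : ℕ, ∀ n, {v : List X | v.length = n ∧
      ¬ ∃ h ∈ H, ∀ w, ρ g (v ++ w) = ρ g v ++ h w}.ncard ≤ C * (n + 1) ^ k) :
    Finite ρ.range := by
  have hHT : H ≤ TreeAut X := mem_treeAut_of H k1 (fun h hh v w => by
    obtain ⟨k, -, hk⟩ := k2 h hh v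
    rw [hk]
    exact List.prefix_append _ _)
  have hρT : ρ.range ≤ TreeAut X := mem_treeAut_of ρ.range
    (by rintro _ ⟨g, rfl⟩; exact h1 g) (by rintro _ ⟨g, rfl⟩; exact h2 g)
  let K : Subgroup (TreeAut X) := H.subgroupOf (TreeAut X)
  have hK : ∀ g : TreeAut X, g ∈ K ↔ (g : Equiv.Perm (List X)) ∈ H := fun g => Iff.rfl
  have hcl : ∀ h ∈ K, ∀ v, sect h v ∈ K := by
    intro h hh v
    obtain ⟨k, hk, hk2⟩ := k2 h.1 hh v
    rw [hK, sect_eq_of hk2]
    exact hk
  have hfs : ∀ h ∈ K, FiniteState h := fun h hh => finiteState_of (k3 h.1 hh)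
  have hF : FPB K := by
    refine fpb_of_injective (H := H)
      (((TreeAut X).subtype.comp K.subtype).codRestrict H fun x => x.2) ?_ k4
    intro x y hxy
    have h5 := congrArg Subtype.val hxy
    exact Subtype.ext (Subtype.ext h5)
  have hfin := fpb_relAut K hcl hfs hF
  set ρ' : Γ →* TreeAut X := ρ.codRestrict (TreeAut X) (fun g => hρT ⟨g, rfl⟩) with hρ'
  have hpoly : ∀ g ∈ S, ρ' g ∈ RelAut K hcl := by
    intro g hg
    refine ⟨finiteState_of (h3 g hg), ?_⟩
    obtain ⟨C, k, hC⟩ := h4 g hg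
    refine ⟨C, k, fun n => ?_⟩
    refine le_trans (Set.ncard_le_ncard ?_ (words_finite n _)) (hC n)
    rintro v ⟨hv, hne⟩
    refine ⟨hv, ?_⟩
    rintro ⟨h, hh, he⟩
    apply hne
    rw [hK, sect_eq_of (g := ρ' g) (k := h) he]
    exact hh
  have hall : ∀ g, ρ' g ∈ RelAut K hcl := by
    intro g
    have hle : Subgroup.closure S ≤ (RelAut K hcl).comap ρ' :=
      (Subgroup.closure_le _).2 fun s hs => hpoly s hs
    rw [hS] at hle
    exact hle (Subgroup.mem_top g)
  have hfin' : Finite (ρ'.codRestrict (RelAut K hcl) hall).range :=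
    hfin Γ hfp hΓ (ρ'.codRestrict (RelAut K hcl) hall)
  have hsub : (ρ.range : Set (Equiv.Perm (List X))) ⊆
      (fun s : RelAut K hcl => ((s : TreeAut X) : Equiv.Perm (List X))) ''
        ((ρ'.codRestrict (RelAut K hcl) hall).range : Set (RelAut K hcl)) := by
    rintro _ ⟨g, rfl⟩
    exact ⟨ρ'.codRestrict (RelAut K hcl) hall g, ⟨g, rfl⟩, rfl⟩
  have hfin'' : ((ρ'.codRestrict (RelAut K hcl) hall).range : Set (RelAut K hcl)).Finite :=
    Set.toFinite _
  exact ((hfin''.image _).subset hsub).to_subtype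

end Vale.Agent.P192
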