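import Vale.Agent.P192.H124.RaysPoly

/-!
# P192: finite-state elements of relative polynomial activity have countably many singular rays
-/

namespace Vale.Agent.P192

variable {X : Type*}

/-- A finite-state element of relative polynomial activity outside of `H` has sections of smaller
rank at all letters, or off some ray. -/
theorem rank_lt_or [Finite X] {H : Subgroup (TreeAut X)} {g : TreeAut X} (hfs : FiniteState g)
    (hpa : RelActivity H g) (hg : g ∉ H) :
    (∀ x, rank (sect g [x]) < rank g) ∨
      ∃ xi : ℕ → X, ∀ n x, x ≠ xi n → rank (sect g ((List.range n).map xi ++ [x])) < rank g := by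
  by_cases hret : ∃ u : List X, u ≠ [] ∧ sect g u = g
  · right
    obtain ⟨u, hu, hgu⟩ := hret
    have hlen : 0 < u.length := List.length_pos_iff.2 hu
    refine ⟨fun n => u[n % u.length]'(Nat.mod_lt _ hlen), ?_⟩
    intro n x hx
    by_contra hlt
    obtain ⟨w, hw⟩ := exists_return hfs _ hlt
    rw [← sect_append] at hw
    set p := (List.range n).map (fun n => u[n % u.length]'(Nat.mod_lt _ hlen)) ++ [x] ++ w with hp
    have hcomm : u ++ p = p ++ u := by
      apply return_unique_rel H g hpa [] (by rw [sect_nil]; exact hg)
      · simp only [List.length_append]
        omega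
      · rw [sect_nil, sect_append, hgu, hw]
      · rw [sect_nil, sect_append, hw, hgu]
    have hn : n < p.length := by
      rw [hp]
      simp only [List.length_append, List.length_map, List.length_range, List.length_cons,
        List.length_nil]
      omega
    have h1 := getElem_of_comm u p hu hcomm n hn
    have h2 : p[n] = x := by
      have e : p[n]? = some x := by
        rw [hp, List.append_assoc, List.getElem?_append_right (by simp)]
        simp
      rw [List.getElem?_eq_getElem hn] at e
      exact Option.some.inj e
    exact hx (h2 ▸ h1)
  · left
    intro x
    by_contra hlt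
    obtain ⟨w, hw⟩ := exists_return hfs _ hlt
    rw [← sect_append] at hw
    exact hret ⟨[x] ++ w, by simp, hw⟩

theorem range_map_add (ξ : ℕ → X) (m k : ℕ) :
    (List.range (m + k)).map ξ = (List.range m).map ξ ++ (List.range k).map (fun i => ξ (m + i)) := by
  rw [List.range_add, List.map_append, List.map_map]
  rfl

/-- the rays along which all sections are outside of `H` -/
def exR (H : Subgroup (TreeAut X)) (g : TreeAut X) : Set (ℕ → X) :=
  {ξ | ∀ n, sect g ((List.range n).map ξ) ∉ H}

/-- **Finite-state elements of relative polynomial activity have countably many singular rays.** -/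
theorem relActivity_countable [Finite X] (H : Subgroup (TreeAut X)) (g : TreeAut X)
    (hfs : FiniteState g) (hpa : RelActivity H g) : (exR H g).Countable := by
  classical
  obtain ⟨r, hr⟩ : ∃ r, rank g = r := ⟨_, rfl⟩
  induction r using Nat.strong_induction_on generalizing g with
  | _ r ih =>
    have hlow : ∀ v, rank (sect g v) < rank g → (exR H (sect g v)).Countable := by
      intro v hv
      rw [hr] at hv
      exact ih _ hv (sect g v) (hfs.sect v) (hpa.sect v) rfl
    by_cases hg : g ∈ H
    · have : exR H g = ∅ := by
        rw [Set.eq_empty_iff_forall_notMem]
        intro ξ hξ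
        apply hξ 0
        change sect g [] ∈ H
        rw [sect_nil]
        exact hg
      rw [this]
      exact Set.countable_empty
    · -- rays through a given word
      have hword : ∀ (v : List X), rank (sect g v) < rank g →
          {ξ | ξ ∈ exR H g ∧ (List.range v.length).map ξ = v}.Countable := by
        intro v hv
        refine Set.MapsTo.countable_of_injOn (f := fun (ξ : ℕ → X) (i : ℕ) => ξ (v.length + i))
          (t := exR H (sect g v)) ?_ ?_ (hlow v hv)
        · rintro ξ ⟨hξ, hv⟩ k hk
          apply hξ (v.length + k)
          rw [range_map_add, hv, sect_append]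
          exact hk
        · rintro ξ ⟨-, hξ⟩ η ⟨-, hη⟩ h
          funext i
          by_cases hi : i < v.length
          · have h1 := hξ.trans hη.symm
            exact (List.map_inj_left.1 h1) i (List.mem_range.2 hi)
          · have h2 := congrFun h (i - v.length)
            simp only at h2
            rwa [Nat.add_sub_cancel' (not_lt.1 hi)] at h2
      rcases rank_lt_or hfs hpa hg with h | ⟨xi, h⟩
      · have hsub : exR H g ⊆ ⋃ x : X, {ξ | ξ ∈ exR H g ∧ (List.range [x].length).map ξ = [x]} := by
          intro ξ hξ
          exact Set.mem_iUnion.2 ⟨ξ 0, hξ, rfl⟩
        exact (Set.countable_iUnion fun x => hword [x] (h x)).mono hsub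
      · have hsub : exR H g ⊆ {xi} ∪ ⋃ p : {p : ℕ × X // p.2 ≠ xi p.1},
            {ξ | ξ ∈ exR H g ∧ (List.range ((List.range p.1.1).map xi ++ [p.1.2]).length).map ξ =
              (List.range p.1.1).map xi ++ [p.1.2]} := by
          intro ξ hξ
          by_cases hx : ξ = xi
          · exact Or.inl hx
          · right
            have hex : ∃ n, ξ n ≠ xi n := Function.ne_iff.1 hx
            refine Set.mem_iUnion.2 ⟨⟨(Nat.find hex, ξ (Nat.find hex)), Nat.find_spec hex⟩, hξ, ?_⟩
            simp only [List.length_append, List.length_map, List.length_range, List.length_cons,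
              List.length_nil, Nat.zero_add]
            rw [List.range_succ, List.map_append]
            congr 1
            apply List.map_congr_left
            intro i hi
            have h3 := Nat.find_min hex (List.mem_range.1 hi)
            exact not_not.1 h3
        refine ((Set.countable_singleton xi).union (Set.countable_iUnion fun p => ?_)).mono hsub
        exact hword _ (h p.1.1 p.1.2 p.2)

end Vale.Agent.P192
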