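import Vale.Agent.P192.H826.Countable
import Vale.Agent.P192.H124.RelCount
import Vale.Agent.P192.H124.RayExplicit
import Vale.Agent.P192.H124.Letter

/-!
# P192: the countable theorem, explicit form
-/

namespace Vale.Agent.P192

theorem ssX_off_finite {X : Type*} (g : TreeAut X) (ξ : ℕ → X)
    (h : {f : List X → List X | ∃ n x, x ≠ ξ n ∧ ∀ w,
      (g : Equiv.Perm (List X)) ((List.range n).map ξ ++ x :: w) =
        (g : Equiv.Perm (List X)) ((List.range n).map ξ ++ [x]) ++ f w}.Finite) :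
    ((ssX X).off ξ g).Finite := by
  have hinj : Function.Injective
      (fun s : TreeAut X => ((s : Equiv.Perm (List X)) : List X → List X)) := by
    intro a b hab
    exact ta_ext fun w => congrFun hab w
  refine (h.preimage (hinj.injOn (s := (fun s : TreeAut X =>
    ((s : Equiv.Perm (List X)) : List X → List X)) ⁻¹' _))).subset ?_
  rw [ssX_off]
  rintro _ ⟨n, x, hx, rfl⟩
  refine ⟨n, x, hx, fun w => ?_⟩
  have h := sect_spec g ((List.range n).map ξ ++ [x]) w
  rw [List.append_assoc] at h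
  exact h

/-- **The countable theorem for automorphisms of the tree of words.** -/
theorem fpb_cnt (X : Type*) [Finite X] (H : Subgroup (TreeAut X))
    (hcl : ∀ h ∈ H, ∀ x, (ssX X).sec h x ∈ H) (hfin : ∀ h ∈ H, ∀ ξ, ((ssX X).off ξ h).Finite)
    (hF : FPB H) : FPB ((ssX X).cnt H hcl) :=
  ((ssX X).goodR_cnt ssX_faithful ssX_conn ⟨hcl, hfin, hF⟩).fpb

/-- **The countable theorem, explicit form.** -/
theorem count_explicit (X : Type) [Finite X] (H : Subgroup (Equiv.Perm (List X)))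
    (k1 : ∀ h ∈ H, ∀ w, (h w).length = w.length)
    (k2 : ∀ h ∈ H, ∀ v, ∃ k ∈ H, ∀ w, h (v ++ w) = h v ++ k w)
    (k3 : ∀ h ∈ H, ∀ ξ : ℕ → X, {f : List X → List X | ∃ n x, x ≠ ξ n ∧ ∀ w,
      h ((List.range n).map ξ ++ x :: w) = h ((List.range n).map ξ ++ [x]) ++ f w}.Finite)
    (k4 : FPB H)
    (Γ : Type) [Group Γ] (hfp : Group.IsFinitelyPresented Γ)
    (hΓ : ∀ x : Γ, IsOfFinOrder x) (S : Set Γ) (hS : Subgroup.closure S = ⊤)
    (ρ : Γ →* Equiv.Perm (List X)) (h1 : ∀ g w, (ρ g w).length = w.length)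
    (h2 : ∀ g v w, ρ g v <+: ρ g (v ++ w))
    (h3 : ∀ g ∈ S,
      ((∀ ξ : ℕ → X, {f : List X → List X | ∃ n x, x ≠ ξ n ∧ ∀ w,
          ρ g ((List.range n).map ξ ++ x :: w) =
            ρ g ((List.range n).map ξ ++ [x]) ++ f w}.Finite) ∧
        {ξ : ℕ → X | ∀ n, ¬ ∃ h ∈ H, ∀ w,
          ρ g ((List.range n).map ξ ++ w) = ρ g ((List.range n).map ξ) ++ h w}.Countable) ∨
      ({f : List X → List X | ∃ v, ∀ w, ρ g (v ++ w) = ρ g v ++ f w}.Finite ∧
        ∃ C k : ℕ, ∀ n, {v : List X | v.length = n ∧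
          ¬ ∃ h ∈ H, ∀ w, ρ g (v ++ w) = ρ g v ++ h w}.ncard ≤ C * (n + 1) ^ k)) :
    Finite ρ.range := by
  have hHT : H ≤ TreeAut X := mem_treeAut_of H k1 (fun h hh v w => by
    obtain ⟨k, -, hk⟩ := k2 h hh v
    rw [hk]
    exact List.prefix_append _ _)
  have hρT : ρ.range ≤ TreeAut X := mem_treeAut_of ρ.range
    (by rintro _ ⟨g, rfl⟩; exact h1 g) (by rintro _ ⟨g, rfl⟩; exact h2 g)
  let K : Subgroup (TreeAut X) := H.subgroupOf (TreeAut X)
  have hK : ∀ g : TreeAut X, g ∈ K ↔ (g : Equiv.Perm (List X)) ∈ H := fun g => Iff.rfl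
  have hcl : ∀ h ∈ K, ∀ v, sect h v ∈ K := by
    intro h hh v
    obtain ⟨k, hk, hk2⟩ := k2 h.1 hh v
    rw [hK, sect_eq_of hk2]
    exact hk
  have hF : FPB K := by
    refine fpb_of_injective (H := H)
      (((TreeAut X).subtype.comp K.subtype).codRestrict H fun x => x.2) ?_ k4
    intro x y hxy
    have h5 := congrArg Subtype.val hxy
    exact Subtype.ext (Subtype.ext h5)
  have hcl' : ∀ h ∈ K, ∀ x, (ssX X).sec h x ∈ K := fun h hh x => hcl h hh [x]
  have hfin := fpb_cnt X K hcl' (fun h hh ξ => ssX_off_finite h ξ (k3 h.1 hh ξ)) hF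
  set ρ' : Γ →* TreeAut X := ρ.codRestrict (TreeAut X) (fun g => hρT ⟨g, rfl⟩) with hρ'
  have hval : ∀ g, ((ρ' g : TreeAut X) : Equiv.Perm (List X)) = ρ g := fun g => rfl
  have hgen : ∀ g ∈ S, ρ' g ∈ (ssX X).cnt K hcl' := by
    intro g hg
    rcases h3 g hg with ⟨ha, hb⟩ | ⟨ha, C, k, hC⟩
    · refine ⟨fun ξ => ssX_off_finite (ρ' g) ξ (ha ξ), hb.mono ?_⟩
      intro ξ hξ n
      rintro ⟨h, hh, he⟩
      apply hξ n
      rw [ssX_st, hK, sect_eq_of (g := ρ' g) (k := h) he]
      exact hh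
    · have hfs : FiniteState (ρ' g) := finiteState_of (g := ρ' g) ha
      have hpa : RelActivity K (ρ' g) := by
        refine ⟨C, k, fun n => ?_⟩
        refine le_trans (Set.ncard_le_ncard ?_ (words_finite n _)) (hC n)
        rintro v ⟨hv, hne⟩
        refine ⟨hv, ?_⟩
        rintro ⟨h, hh, he⟩
        apply hne
        rw [hK, sect_eq_of (g := ρ' g) (k := h) he]
        exact hh
      refine ⟨fun ξ => hfs.subset ?_, (relActivity_countable K (ρ' g) hfs hpa).mono ?_⟩
      · rw [ssX_off]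
        rintro _ ⟨n, x, -, rfl⟩
        exact ⟨_, rfl⟩
      · intro ξ hξ n
        have := hξ n
        rwa [ssX_st] at this
  have hall : ∀ g, ρ' g ∈ (ssX X).cnt K hcl' := by
    intro g
    have hle : Subgroup.closure S ≤ ((ssX X).cnt K hcl').comap ρ' :=
      (Subgroup.closure_le _).2 fun s hs => hgen s hs
    rw [hS] at hle
    exact hle (Subgroup.mem_top g)
  have hfin' : Finite (ρ'.codRestrict ((ssX X).cnt K hcl') hall).range :=
    hfin Γ hfp hΓ (ρ'.codRestrict ((ssX X).cnt K hcl') hall)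
  have hsub : (ρ.range : Set (Equiv.Perm (List X))) ⊆
      (fun s : (ssX X).cnt K hcl' => ((s : TreeAut X) : Equiv.Perm (List X))) ''
        ((ρ'.codRestrict ((ssX X).cnt K hcl') hall).range : Set ((ssX X).cnt K hcl')) := by
    rintro _ ⟨g, rfl⟩
    exact ⟨ρ'.codRestrict ((ssX X).cnt K hcl') hall g, ⟨g, rfl⟩, rfl⟩
  have hfin'' : ((ρ'.codRestrict ((ssX X).cnt K hcl') hall).range :
      Set ((ssX X).cnt K hcl')).Finite := Set.toFinite _
  exact ((hfin''.image _).subset hsub).to_subtype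

/-- **The maximal group, explicit form** (all rays, countable exceptional sets). -/
theorem rays_count_explicit (X : Type) [Finite X] (H : Subgroup (Equiv.Perm (List X)))
    (k1 : ∀ h ∈ H, ∀ w, (h w).length = w.length)
    (k2 : ∀ h ∈ H, ∀ v, ∃ k ∈ H, ∀ w, h (v ++ w) = h v ++ k w)
    (k3 : ∀ h ∈ H, ∀ ξ : ℕ → X, {f : List X → List X | ∃ n x, x ≠ ξ n ∧ ∀ w,
      h ((List.range n).map ξ ++ x :: w) = h ((List.range n).map ξ ++ [x]) ++ f w}.Finite)
    (k4 : FPB H) :
    ∃ R : Subgroup (Equiv.Perm (List X)), H ≤ R ∧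
      (∀ h ∈ R, ∀ w, (h w).length = w.length) ∧
      (∀ h ∈ R, ∀ v, ∃ k ∈ R, ∀ w, h (v ++ w) = h v ++ k w) ∧
      (∀ h ∈ R, ∀ ξ : ℕ → X, {f : List X → List X | ∃ n x, x ≠ ξ n ∧ ∀ w,
        h ((List.range n).map ξ ++ x :: w) = h ((List.range n).map ξ ++ [x]) ++ f w}.Finite) ∧
      FPB R ∧
      ∀ g : Equiv.Perm (List X), (∀ w, (g w).length = w.length) →
        (∀ v w, g v <+: g (v ++ w)) →
        (∀ ξ : ℕ → X, {f : List X → List X | ∃ n x, x ≠ ξ n ∧ ∀ w,
          g ((List.range n).map ξ ++ x :: w) = g ((List.range n).map ξ ++ [x]) ++ f w}.Finite) →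
        {ξ : ℕ → X | ∀ n, ¬ ∃ k ∈ R, ∀ w,
          g ((List.range n).map ξ ++ w) = g ((List.range n).map ξ) ++ k w}.Countable → g ∈ R := by
  have hHT : H ≤ TreeAut X := mem_treeAut_of H k1 (fun h hh v w => by
    obtain ⟨k, -, hk⟩ := k2 h hh v
    rw [hk]
    exact List.prefix_append _ _)
  rcases isEmpty_or_nonempty X with hX | hX
  · -- only the empty word
    have hone : ∀ g : Equiv.Perm (List X), g = 1 := by
      intro g
      apply Equiv.ext
      intro w
      have h1 : ∀ w : List X, w = [] := by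
        intro w
        cases w with
        | nil => rfl
        | cons x w => exact hX.elim x
      rw [h1 (g w), h1 w]
      rfl
    refine ⟨H, le_rfl, k1, k2, k3, k4, ?_⟩
    intro g _ _ _ _
    rw [hone g]
    exact one_mem _
  let K : Subgroup (TreeAut X) := H.subgroupOf (TreeAut X)
  have hK : ∀ g : TreeAut X, g ∈ K ↔ (g : Equiv.Perm (List X)) ∈ H := fun g => Iff.rfl
  have hcl : ∀ h ∈ K, ∀ v, sect h v ∈ K := by
    intro h hh v
    obtain ⟨k, hk, hk2⟩ := k2 h.1 hh v
    rw [hK, sect_eq_of hk2]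
    exact hk
  have hF : FPB K := by
    refine fpb_of_injective (H := H)
      (((TreeAut X).subtype.comp K.subtype).codRestrict H fun x => x.2) ?_ k4
    intro x y hxy
    have h5 := congrArg Subtype.val hxy
    exact Subtype.ext (Subtype.ext h5)
  have hG : (ssX X).GoodR K :=
    ⟨fun h hh x => hcl h hh [x], fun h hh ξ => ssX_off_finite h ξ (k3 h.1 hh ξ), hF⟩
  obtain ⟨R, hR, hKR, hmax⟩ := (ssX X).rays_max_of (fun K hK => by
    obtain ⟨K', h1, h2, -, h3⟩ := (ssX X).rays ssX_faithful ssX_conn hK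
    exact ⟨K', h1, h2, h3⟩) hG
  have hRc : ∀ h ∈ R, ∀ v, sect h v ∈ R := by
    intro h hh v
    rw [← ssX_secL]
    exact (ssX X).secL_mem hR.closed v hh
  have hRm : ∀ g : TreeAut X, (g : Equiv.Perm (List X)) ∈ R.map (TreeAut X).subtype ↔ g ∈ R := by
    intro g
    constructor
    · rintro ⟨g', hg', he⟩
      have : g' = g := Subtype.ext he
      rwa [← this]
    · intro hg
      exact ⟨g, hg, rfl⟩
  refine ⟨R.map (TreeAut X).subtype, ?_, ?_, ?_, ?_, ?_, ?_⟩
  · intro h hh
    exact ⟨⟨h, hHT hh⟩, hKR hh, rfl⟩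
  · rintro _ ⟨h, hh, rfl⟩ w
    exact ta_length h w
  · rintro _ ⟨h, hh, rfl⟩ v
    exact ⟨_, ⟨sect h v, hRc h hh v, rfl⟩, fun w => sect_spec h v w⟩
  · rintro _ ⟨h, hh, rfl⟩ ξ
    refine ((hR.fin hh ξ).image
      (fun s : TreeAut X => ((s : Equiv.Perm (List X)) : List X → List X))).subset ?_
    rintro f ⟨n, x, hx, hf⟩
    refine ⟨sect h ((List.range n).map ξ ++ [x]), ?_, ?_⟩
    · rw [ssX_off]
      exact ⟨n, x, hx, rfl⟩
    · funext w
      have h1 := sect_spec h ((List.range n).map ξ ++ [x]) w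
      rw [List.append_assoc] at h1
      have h2 := hf w
      change (h : Equiv.Perm (List X)) ((List.range n).map ξ ++ x :: w) = _ at h2
      have h3 := h1.symm.trans h2
      exact List.append_cancel_left h3
  · exact fpb_of_equiv ((R.equivMapOfInjective (TreeAut X).subtype
      (TreeAut X).subtype_injective).symm) hR.fpb
  · intro g g1 g2 g3 g4
    have hgT : g ∈ TreeAut X := by
      refine ⟨g1, fun v w => ⟨?_, ?_⟩⟩
      · rintro ⟨t, ht⟩
        have hlen : v.length ≤ w.length := by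
          have := congrArg List.length ht
          rw [List.length_append, g1, g1] at this
          omega
        have h3 : g (w.take v.length) <+: g w := by
          have := g2 (w.take v.length) (w.drop v.length)
          rwa [List.take_append_drop] at this
        have h4 : g v = g (w.take v.length) := by
          have h5 : g v <+: g w := ⟨t, ht⟩
          have h6 : (g v).length = (g (w.take v.length)).length := by
            rw [g1, g1, List.length_take, min_eq_left hlen]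
          exact (List.prefix_of_prefix_length_le h5 h3 h6.le).eq_of_length h6
        rw [g.injective h4]
        exact List.take_prefix _ _
      · rintro ⟨t, rfl⟩
        exact g2 v t
    let g' : TreeAut X := ⟨g, hgT⟩
    refine ⟨g', ?_, rfl⟩
    refine (ssX X).mem_of_countable hR.closed ((ssX X).up_le_max hR hmax)
      (fun ξ k hk => hmax k ξ hk.1 hk.2) (g := g')
      (fun ξ => ssX_off_finite g' ξ (g3 ξ)) (g4.mono ?_)
    intro ξ hξ n
    rintro ⟨h, hh, he⟩
    apply hξ n
    rw [ssX_st, ← hRm, sect_eq_of (g := g') (k := h) he]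
    exact hh

end Vale.Agent.P192
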