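import Vale.Agent.P192.H124.CountExplicit

/-!
# P192: the countable theorem, group form
-/

namespace Vale.Agent.P192

theorem ssX_off_finite' {X : Type*} (g : TreeAut X) (ξ : ℕ → X) (h : ((ssX X).off ξ g).Finite) :
    {f : List X → List X | ∃ n x, x ≠ ξ n ∧ ∀ w,
      (g : Equiv.Perm (List X)) ((List.range n).map ξ ++ x :: w) =
        (g : Equiv.Perm (List X)) ((List.range n).map ξ ++ [x]) ++ f w}.Finite := by
  refine (h.image (fun s : TreeAut X => ((s : Equiv.Perm (List X)) : List X → List X))).subset ?_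
  rintro f ⟨n, x, hx, hf⟩
  refine ⟨sect g ((List.range n).map ξ ++ [x]), ?_, ?_⟩
  · rw [ssX_off]
    exact ⟨n, x, hx, rfl⟩
  · funext w
    have h1 := sect_spec g ((List.range n).map ξ ++ [x]) w
    rw [List.append_assoc] at h1
    exact List.append_cancel_left (h1.symm.trans (hf w))

theorem mem_treeAut_of' {X : Type*} {g : Equiv.Perm (List X)} (g1 : ∀ w, (g w).length = w.length)
    (g2 : ∀ v w, g v <+: g (v ++ w)) : g ∈ TreeAut X := by
  refine ⟨g1, fun v w => ⟨?_, ?_⟩⟩
  · rintro ⟨t, ht⟩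
    have hlen : v.length ≤ w.length := by
      have := congrArg List.length ht
      rw [List.length_append, g1, g1] at this
      omega
    have h3 : g (w.take v.length) <+: g w := by
      have := g2 (w.take v.length) (w.drop v.length)
      rwa [List.take_append_drop] at this
    have h4 : g v = g (w.take v.length) := by
      have h5 : g v <+: g w := ⟨t, ht⟩
      have h6 : (g v).length = (g (w.take v.length)).length := by
        rw [g1, g1, List.length_take, min_eq_left hlen]
      exact (List.prefix_of_prefix_length_le h5 h3 h6.le).eq_of_length h6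
    rw [g.injective h4]
    exact List.take_prefix _ _
  · rintro ⟨t, rfl⟩
    exact g2 v t

/-- **The countable theorem, group form.** -/
theorem count_group (X : Type) [Finite X] (H : Subgroup (Equiv.Perm (List X)))
    (k2 : ∀ h ∈ H, ∀ v, ∃ k ∈ H, ∀ w, h (v ++ w) = h v ++ k w)
    (k3 : ∀ h ∈ H, ∀ ξ : ℕ → X, {f : List X → List X | ∃ n x, x ≠ ξ n ∧ ∀ w,
      h ((List.range n).map ξ ++ x :: w) = h ((List.range n).map ξ ++ [x]) ++ f w}.Finite)
    (k4 : FPB H) :
    ∃ C : Subgroup (Equiv.Perm (List X)), FPB C ∧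
      (∀ g ∈ C, ∀ v, ∃ k ∈ C, ∀ w, g (v ++ w) = g v ++ k w) ∧
      ∀ g : Equiv.Perm (List X), g ∈ C ↔
        (∀ w, (g w).length = w.length) ∧ (∀ v w, g v <+: g (v ++ w)) ∧
        (∀ ξ : ℕ → X, {f : List X → List X | ∃ n x, x ≠ ξ n ∧ ∀ w,
          g ((List.range n).map ξ ++ x :: w) = g ((List.range n).map ξ ++ [x]) ++ f w}.Finite) ∧
        {ξ : ℕ → X | ∀ n, ¬ ∃ k ∈ H, ∀ w,
          g ((List.range n).map ξ ++ w) = g ((List.range n).map ξ) ++ k w}.Countable := by
  let K : Subgroup (TreeAut X) := H.subgroupOf (TreeAut X)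
  have hK : ∀ g : TreeAut X, g ∈ K ↔ (g : Equiv.Perm (List X)) ∈ H := fun g => Iff.rfl
  have hcl : ∀ h ∈ K, ∀ v, sect h v ∈ K := by
    intro h hh v
    obtain ⟨k, hk, hk2⟩ := k2 h.1 hh v
    rw [hK, sect_eq_of hk2]
    exact hk
  have hF : FPB K := by
    refine fpb_of_injective (H := H)
      (((TreeAut X).subtype.comp K.subtype).codRestrict H fun x => x.2) ?_ k4
    intro x y hxy
    have h5 := congrArg Subtype.val hxy
    exact Subtype.ext (Subtype.ext h5)
  have hcl' : ∀ h ∈ K, ∀ x, (ssX X).sec h x ∈ K := fun h hh x => hcl h hh [x]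
  have hfin := fpb_cnt X K hcl' (fun h hh ξ => ssX_off_finite h ξ (k3 h.1 hh ξ)) hF
  refine ⟨((ssX X).cnt K hcl').map (TreeAut X).subtype, ?_, ?_, ?_⟩
  · exact fpb_of_equiv ((((ssX X).cnt K hcl').equivMapOfInjective (TreeAut X).subtype
      (TreeAut X).subtype_injective).symm) hfin
  · rintro _ ⟨g, hg, rfl⟩ v
    refine ⟨_, ⟨sect g v, ?_, rfl⟩, fun w => sect_spec g v w⟩
    rw [← ssX_secL]
    exact (ssX X).secL_mem ((ssX X).cnt_sec hcl') v hg
  · intro g
    constructor
    · rintro ⟨g', hg', rfl⟩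
      refine ⟨ta_length g', fun v w => (ta_prefix g' _ _).2 (List.prefix_append v w), ?_, ?_⟩
      · intro ξ
        exact ssX_off_finite' g' ξ (hg'.1 ξ)
      · refine hg'.2.mono ?_
        intro ξ hξ n hn
        apply hξ n
        rw [ssX_st] at hn
        exact ⟨_, hn, fun w => sect_spec g' _ w⟩
    · rintro ⟨g1, g2, g3, g4⟩
      let g' : TreeAut X := ⟨g, mem_treeAut_of' g1 g2⟩
      refine ⟨g', ⟨fun ξ => ssX_off_finite g' ξ (g3 ξ), g4.mono ?_⟩, rfl⟩
      intro ξ hξ n
      rintro ⟨h, hh, he⟩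
      apply hξ n
      rw [ssX_st, hK, sect_eq_of (g := g') (k := h) he]
      exact hh

end Vale.Agent.P192
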