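import Vale.Agent.P192.H124.Glue

/-!
# P192: the flux of a path through two equal cuts
-/

namespace Vale.Agent.P192

open Classical

namespace GD

variable {Γ : Type} [Group Γ] {Ω : Type} [MulAction Γ Ω] {S : Set Γ} (D : GD Γ Ω S)

/-- indicator function -/
noncomputable def ind (A : Set Ω) (v : Ω) : ℤ := if v ∈ A then 1 else 0

theorem ind_pos {A : Set Ω} {v : Ω} (h : v ∈ A) : ind A v = 1 := if_pos h

theorem ind_neg {A : Set Ω} {v : Ω} (h : v ∉ A) : ind A v = 0 := if_neg h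

theorem mem_of_down (h1 : (1 : Γ) ∈ S) (hi : ∀ s ∈ S, s⁻¹ ∈ S) {v u : Ω}
    (h : ∃ s ∈ S, s • v = u) (hP : ind D.P u ≠ ind D.P v) : v ∈ D.B ∧ u ∈ D.B := by
  obtain ⟨s, hs, rfl⟩ := h
  by_cases h : v ∈ D.P
  · have h' : s • v ∉ D.P := fun h' => hP (by rw [ind_pos h, ind_pos h'])
    have h2 := D.down v h s hs h'
    have h3 := h2 1 h1
    have h4 := h2 s⁻¹ (hi s hs)
    rw [one_smul] at h3
    rw [inv_smul_smul] at h4
    exact ⟨h4, h3⟩
  · have h' : s • v ∈ D.P := by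
      by_contra h'
      exact hP (by rw [ind_neg h, ind_neg h'])
    have h2 := D.down (s • v) h' s⁻¹ (hi s hs) (by rwa [inv_smul_smul])
    have h3 := h2 1 h1
    have h4 := h2 s hs
    rw [one_smul, inv_smul_smul] at h3
    rw [inv_smul_smul] at h4
    exact ⟨h3, h4⟩

theorem mem_of_up (h1 : (1 : Γ) ∈ S) (hi : ∀ s ∈ S, s⁻¹ ∈ S) {v u : Ω}
    (h : ∃ s ∈ S, s • v = u) (hQ : ind D.Q u ≠ ind D.Q v) : v ∈ D.B' ∧ u ∈ D.B' := by
  obtain ⟨s, hs, rfl⟩ := h
  by_cases h : v ∈ D.Q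
  · have h' : s • v ∉ D.Q := fun h' => hQ (by rw [ind_pos h, ind_pos h'])
    have h2 := D.up (s • v) h' s⁻¹ (hi s hs) (by rwa [inv_smul_smul])
    have h3 := h2 1 h1
    have h4 := h2 s hs
    rw [one_smul, inv_smul_smul] at h3
    rw [inv_smul_smul] at h4
    exact ⟨h3, h4⟩
  · have h' : s • v ∈ D.Q := by
      by_contra h'
      exact hQ (by rw [ind_neg h, ind_neg h'])
    have h2 := D.up v h s hs h'
    have h3 := h2 1 h1
    have h4 := h2 s⁻¹ (hi s hs)
    rw [one_smul] at h3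
    rw [inv_smul_smul] at h4
    exact ⟨h4, h3⟩

theorem ind_side {v : Ω} (hv : v ∈ D.B) : ind D.Q (D.θ v) = ind D.P v := by
  by_cases h : v ∈ D.P
  · rw [ind_pos h, ind_pos ((D.side v hv).1 h)]
  · rw [ind_neg h, ind_neg (fun h' => h ((D.side v hv).2 h'))]

/-- **The flux argument**: there is no injective path through two equal cuts with equal traces. -/
theorem no_path (h1 : (1 : Γ) ∈ S) (hi : ∀ s ∈ S, s⁻¹ ∈ S) (H : Ω → ℤ)
    (hH1 : ∀ ω, ω ∈ D.P → ω ∉ D.Q → ∀ s ∈ S, H (s • ω) = H ω)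
    (hH2 : ∀ v ∈ D.B, H (D.θ v) = H v + 1)
    (l : ℕ) (p : ℕ → Ω) (hstep : ∀ m < l, ∃ s ∈ S, s • p m = p (m + 1))
    (hinj : ∀ m < l, ∀ m' < l, p m = p m' → m = m')
    (h0 : p 0 ∉ D.P) (hl : p l ∈ D.Q)
    (hE : ∀ v ∈ D.B, ∀ u ∈ D.B, (∃ m < l, p m = v ∧ p (m + 1) = u) ↔
      (∃ m < l, p m = D.θ v ∧ p (m + 1) = D.θ u)) : False := by
  set E : Finset (Ω × Ω) := (Finset.range l).image (fun m => (p m, p (m + 1))) with hEdef
  have hEm : ∀ e : Ω × Ω, e ∈ E ↔ ∃ m < l, p m = e.1 ∧ p (m + 1) = e.2 := by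
    intro e
    rw [hEdef, Finset.mem_image]
    constructor
    · rintro ⟨m, hm, rfl⟩
      exact ⟨m, Finset.mem_range.1 hm, rfl, rfl⟩
    · rintro ⟨m, hm, h2, h3⟩
      exact ⟨m, Finset.mem_range.2 hm, Prod.ext h2 h3⟩
  have hsum : ∀ g : Ω × Ω → ℤ, ∑ e ∈ E, g e = ∑ m ∈ Finset.range l, g (p m, p (m + 1)) := by
    intro g
    rw [hEdef]
    apply Finset.sum_image
    intro m hm m' hm' h
    exact hinj m (Finset.mem_range.1 hm) m' (Finset.mem_range.1 hm') (congrArg Prod.fst h)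
  have hEs : ∀ e ∈ E, ∃ s ∈ S, s • e.1 = e.2 := by
    intro e he
    obtain ⟨m, hm, h2, h3⟩ := (hEm e).1 he
    rw [← h2, ← h3]
    exact hstep m hm
  -- the flux through the two cuts is the same
  have hPQ : ∑ e ∈ E, (ind D.P e.2 - ind D.P e.1) * H e.1 =
      ∑ e ∈ E, (ind D.Q e.2 - ind D.Q e.1) * H e.1 := by
    rw [← sub_eq_zero, ← Finset.sum_sub_distrib, hsum]
    have hterm : ∀ m ∈ Finset.range l, (ind D.P (p (m + 1)) - ind D.P (p m)) * H (p m) -
        (ind D.Q (p (m + 1)) - ind D.Q (p m)) * H (p m) =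
        (ind D.P (p (m + 1)) - ind D.Q (p (m + 1))) * H (p (m + 1)) -
          (ind D.P (p m) - ind D.Q (p m)) * H (p m) := by
      intro m hm
      obtain ⟨s, hs, h2⟩ := hstep m (Finset.mem_range.1 hm)
      by_cases h3 : p m ∈ D.P ∧ p m ∉ D.Q
      · have h4 : H (p (m + 1)) = H (p m) := by
          rw [← h2]
          exact hH1 _ h3.1 h3.2 s hs
        rw [h4]
        ring
      · by_cases h5 : p (m + 1) ∈ D.P ∧ p (m + 1) ∉ D.Q
        · have h4 : H (p m) = H (p (m + 1)) := by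
            have h6 : p m = s⁻¹ • p (m + 1) := by
              rw [← h2, inv_smul_smul]
            rw [h6]
            exact hH1 _ h5.1 h5.2 _ (hi s hs)
          rw [h4]
          ring
        · have key : ∀ v : Ω, ¬ (v ∈ D.P ∧ v ∉ D.Q) → ind D.P v - ind D.Q v = 0 := by
            intro v hv
            by_cases h : v ∈ D.Q
            · rw [ind_pos h, ind_pos (D.QP v h), sub_self]
            · rw [ind_neg h, ind_neg (fun h' => hv ⟨h', h⟩), sub_self]
          have h6 := key _ h3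
          have h7 := key _ h5
          rw [h6, h7]
          have h8 : ind D.P (p m) = ind D.Q (p m) := by linarith
          have h9 : ind D.P (p (m + 1)) = ind D.Q (p (m + 1)) := by linarith
          rw [h8, h9]
          ring
    rw [Finset.sum_congr rfl hterm, Finset.sum_range_sub
      (fun m => (ind D.P (p m) - ind D.Q (p m)) * H (p m))]
    rw [ind_pos hl, ind_pos (D.QP _ hl), ind_neg h0, ind_neg (fun h => h0 (D.QP _ h))]
    ring
  -- restricting to the crossing edges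
  have hPf : ∑ e ∈ E, (ind D.P e.2 - ind D.P e.1) * (H e.1 + 1) =
      ∑ e ∈ E with ind D.P e.2 ≠ ind D.P e.1, (ind D.P e.2 - ind D.P e.1) * (H e.1 + 1) := by
    refine (Finset.sum_filter_of_ne ?_).symm
    intro e _ he h
    exact he (by rw [h, sub_self, zero_mul])
  have hQf : ∑ e ∈ E, (ind D.Q e.2 - ind D.Q e.1) * H e.1 =
      ∑ e ∈ E with ind D.Q e.2 ≠ ind D.Q e.1, (ind D.Q e.2 - ind D.Q e.1) * H e.1 := by
    refine (Finset.sum_filter_of_ne ?_).symm
    intro e _ he h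
    exact he (by rw [h, sub_self, zero_mul])
  have hbij : ∑ e ∈ E with ind D.P e.2 ≠ ind D.P e.1, (ind D.P e.2 - ind D.P e.1) * (H e.1 + 1) =
      ∑ e ∈ E with ind D.Q e.2 ≠ ind D.Q e.1, (ind D.Q e.2 - ind D.Q e.1) * H e.1 := by
    refine Finset.sum_nbij' (fun e => (D.θ e.1, D.θ e.2)) (fun e => (D.θ' e.1, D.θ' e.2))
      ?_ ?_ ?_ ?_ ?_
    · intro e he
      obtain ⟨he1, he2⟩ := Finset.mem_filter.1 he
      obtain ⟨hb1, hb2⟩ := D.mem_of_down h1 hi (hEs e he1) he2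
      refine Finset.mem_filter.2 ⟨?_, ?_⟩
      · rw [hEm]
        exact (hE _ hb1 _ hb2).1 ((hEm e).1 he1)
      · dsimp only
        rw [D.ind_side hb1, D.ind_side hb2]
        exact he2
    · intro e he
      obtain ⟨he1, he2⟩ := Finset.mem_filter.1 he
      obtain ⟨hb1, hb2⟩ := D.mem_of_up h1 hi (hEs e he1) he2
      have hc1 := D.θB' _ hb1
      have hc2 := D.θB' _ hb2
      refine Finset.mem_filter.2 ⟨?_, ?_⟩
      · rw [hEm]
        refine (hE _ hc1 _ hc2).2 ?_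
        rw [D.right _ hb1, D.right _ hb2]
        exact (hEm e).1 he1
      · dsimp only
        rw [← D.ind_side hc1, ← D.ind_side hc2, D.right _ hb1, D.right _ hb2]
        exact he2
    · intro e he
      obtain ⟨he1, he2⟩ := Finset.mem_filter.1 he
      obtain ⟨hb1, hb2⟩ := D.mem_of_down h1 hi (hEs e he1) he2
      exact Prod.ext (D.left _ hb1) (D.left _ hb2)
    · intro e he
      obtain ⟨he1, he2⟩ := Finset.mem_filter.1 he
      obtain ⟨hb1, hb2⟩ := D.mem_of_up h1 hi (hEs e he1) he2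
      exact Prod.ext (D.right _ hb1) (D.right _ hb2)
    · intro e he
      obtain ⟨he1, he2⟩ := Finset.mem_filter.1 he
      obtain ⟨hb1, hb2⟩ := D.mem_of_down h1 hi (hEs e he1) he2
      dsimp only
      rw [D.ind_side hb1, D.ind_side hb2, hH2 _ hb1]
  have hone : ∑ e ∈ E, (ind D.P e.2 - ind D.P e.1) = 1 := by
    rw [hsum, Finset.sum_range_sub (fun m => ind D.P (p m)), ind_pos (D.QP _ hl), ind_neg h0,
      sub_zero]
  have hadd : ∑ e ∈ E, (ind D.P e.2 - ind D.P e.1) * (H e.1 + 1) =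
      ∑ e ∈ E, (ind D.P e.2 - ind D.P e.1) * H e.1 + 1 := by
    have h := Finset.sum_add_distrib (s := E) (f := fun e => (ind D.P e.2 - ind D.P e.1) * H e.1)
      (g := fun e => ind D.P e.2 - ind D.P e.1)
    rw [hone] at h
    rw [← h]
    exact Finset.sum_congr rfl (fun e _ => by ring)
  rw [hPf, hbij, ← hQf, ← hPQ] at hadd
  linarith

end GD

end Vale.Agent.P192
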