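import Vale.Agent.P192.H124.Pigeon

/-!
# P192: the cuts along a geodesic of a forest
-/

namespace Vale.Agent.P192

open Classical

section within

variable {V : Type} {A : SimpleGraph V}

/-- distance at most `r` -/
def Wi (A : SimpleGraph V) (r : ℕ) (u v : V) : Prop := ∃ w : A.Walk u v, w.length ≤ r

theorem Wi_iff {r : ℕ} {u v : V} : A.edist u v ≤ r ↔ Wi A r u v := by
  constructor
  · intro h
    obtain ⟨p, hp⟩ := SimpleGraph.exists_walk_of_edist_ne_top
      (ne_top_of_le_ne_top (ENat.natCast_ne_top r) h)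
    refine ⟨p, ?_⟩
    rw [← hp] at h
    exact_mod_cast h
  · rintro ⟨w, hw⟩
    exact (SimpleGraph.edist_le w).trans (by exact_mod_cast hw)

theorem Wi.symm {r : ℕ} {u v : V} (h : Wi A r u v) : Wi A r v u := by
  obtain ⟨w, hw⟩ := h
  exact ⟨w.reverse, by rwa [SimpleGraph.Walk.length_reverse]⟩

theorem Wi.trans {r s : ℕ} {u v w : V} (h : Wi A r u v) (h' : Wi A s v w) :
    Wi A (r + s) u w := by
  obtain ⟨p, hp⟩ := h
  obtain ⟨q, hq⟩ := h'
  exact ⟨p.append q, by rw [SimpleGraph.Walk.length_append]; omega⟩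

theorem Wi.mono {r s : ℕ} {u v : V} (h : Wi A r u v) (hrs : r ≤ s) : Wi A s u v := by
  obtain ⟨p, hp⟩ := h
  exact ⟨p, hp.trans hrs⟩

end within

section geod

variable {V : Type} {A : SimpleGraph V} {a b : V} (w : A.Walk a b)

/-- reachable without the `i`-th edge -/
def Rr (i : ℕ) (x y : V) : Prop :=
  (A.deleteEdges {s(w.getVert i, w.getVert (i + 1))}).Reachable x y

variable (hw : w.IsPath)

include hw

theorem adj_del {i j : ℕ} (hi : i < w.length) (hj : j < w.length) (hij : j ≠ i) :
    (A.deleteEdges {s(w.getVert i, w.getVert (i + 1))}).Adj (w.getVert j)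
      (w.getVert (j + 1)) := by
  rw [SimpleGraph.deleteEdges_adj]
  refine ⟨w.adj_getVert_succ hj, fun h => ?_⟩
  rw [Set.mem_singleton_iff, Sym2.eq_iff] at h
  have inj := hw.getVert_injOn
  rcases h with ⟨h, -⟩ | ⟨h, h'⟩
  · exact hij (inj (show j ≤ w.length by omega) (show i ≤ w.length by omega) h)
  · have e1 := inj (show j ≤ w.length by omega) (show i + 1 ≤ w.length by omega) h
    have e2 := inj (show j + 1 ≤ w.length by omega) (show i ≤ w.length by omega) h'
    omega

theorem Rr_low {i : ℕ} (hi : i < w.length) (c d : ℕ) (hcd : c ≤ d) (hd : d ≤ i) :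
    Rr w i (w.getVert c) (w.getVert d) := by
  induction d, hcd using Nat.le_induction with
  | base => exact SimpleGraph.Reachable.refl _
  | succ d hcd ih =>
    exact (ih (by omega)).trans (adj_del w hw hi (by omega) (by omega)).reachable

theorem Rr_high {i : ℕ} (hi : i < w.length) (c d : ℕ) (hc : i + 1 ≤ c) (hcd : c ≤ d)
    (hd : d ≤ w.length) : Rr w i (w.getVert c) (w.getVert d) := by
  induction d, hcd using Nat.le_induction with
  | base => exact SimpleGraph.Reachable.refl _
  | succ d hcd ih =>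
    exact (ih (by omega)).trans (adj_del w hw hi (by omega) (by omega)).reachable

omit hw in
theorem not_Rr (hA : A.IsAcyclic) {i : ℕ} (hi : i < w.length) :
    ¬ Rr w i (w.getVert i) (w.getVert (i + 1)) :=
  SimpleGraph.isBridge_iff.1
    (SimpleGraph.isAcyclic_iff_forall_adj_isBridge.1 hA (w.adj_getVert_succ hi))

omit hw in
theorem mem_support_of_not_Rr {i : ℕ} {x y : V} (w' : A.Walk x y) (h : ¬ Rr w i x y) :
    w.getVert i ∈ w'.support := by
  by_contra h2
  apply h
  have h3 : s(w.getVert i, w.getVert (i + 1)) ∉ w'.edges := fun h4 =>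
    h2 (w'.fst_mem_support_of_mem_edges h4)
  exact ⟨w'.toDeleteEdge _ h3⟩

omit hw in
theorem Wi_of_not_Rr {i r : ℕ} {x y : V} (h : Wi A r x y) (h' : ¬ Rr w i x y) :
    Wi A r x (w.getVert i) ∧ Wi A r (w.getVert i) y := by
  obtain ⟨w', hw'⟩ := h
  have h2 := mem_support_of_not_Rr w w' h'
  exact ⟨⟨w'.takeUntil _ h2, (w'.length_takeUntil_le_length h2).trans hw'⟩,
    ⟨w'.dropUntil _ h2, (w'.length_dropUntil_le_length h2).trans hw'⟩⟩

omit hw in
theorem Wi_seg (c d : ℕ) (hcd : c ≤ d) (hd : d ≤ w.length) :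
    Wi A (d - c) (w.getVert c) (w.getVert d) := by
  induction d, hcd using Nat.le_induction with
  | base => exact ⟨SimpleGraph.Walk.nil, Nat.zero_le _⟩
  | succ d hcd ih =>
    have h2 : Wi A 1 (w.getVert d) (w.getVert (d + 1)) :=
      ⟨(w.adj_getVert_succ (by omega)).toWalk, le_refl _⟩
    exact ((ih (by omega)).trans h2).mono (by omega)

omit hw in
theorem le_of_Wi (hd : w.length = A.dist a b) {i j ρ : ℕ} (hij : i ≤ j) (hj : j ≤ w.length)
    (h : Wi A ρ (w.getVert i) (w.getVert j)) : j ≤ i + ρ := by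
  have h1 := Wi_seg w 0 i (Nat.zero_le _) (by omega)
  have h2 := Wi_seg w j w.length hj (le_refl _)
  rw [SimpleGraph.Walk.getVert_zero] at h1
  rw [SimpleGraph.Walk.getVert_length] at h2
  obtain ⟨w', hw'⟩ := (h1.trans h).trans h2
  have h3 := A.dist_le w'
  omega

/-- nested -/
theorem Rr_nested (hA : A.IsAcyclic) {i j : ℕ} (hij : i < j) (hj : j < w.length) {u : V}
    (h : Rr w j (w.getVert (j + 1)) u) : Rr w i (w.getVert (i + 1)) u := by
  have h' := (SimpleGraph.reachable_iff_reflTransGen _ _).1 h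
  induction h' with
  | refl => exact Rr_high w hw (by omega) _ _ (le_refl _) (by omega) (by omega)
  | tail hab hbc ih =>
    rename_i x y
    have hx : Rr w j (w.getVert (j + 1)) x := (SimpleGraph.reachable_iff_reflTransGen _ _).2 hab
    have h2 := ih hx
    rw [SimpleGraph.deleteEdges_adj] at hbc
    by_cases h3 : s(x, y) = s(w.getVert i, w.getVert (i + 1))
    · exfalso
      have h4 : Rr w j x (w.getVert j) := by
        rw [Sym2.eq_iff] at h3
        rcases h3 with ⟨h3, -⟩ | ⟨h3, -⟩
        · rw [h3]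
          exact Rr_low w hw hj _ _ (by omega) (le_refl _)
        · rw [h3]
          exact Rr_low w hw hj _ _ (by omega) (le_refl _)
      exact not_Rr w hA hj (hx.trans h4).symm
    · refine SimpleGraph.Reachable.trans h2 (SimpleGraph.Adj.reachable ?_)
      rw [SimpleGraph.deleteEdges_adj]
      exact ⟨hbc.1, h3⟩

theorem not_Rr_of_near (hA : A.IsAcyclic) (hd : w.length = A.dist a b) {i j ρ : ℕ}
    (hij : i + ρ < j) (hj : j < w.length) {u : V} (h : Wi A ρ (w.getVert i) u) :
    ¬ Rr w j (w.getVert (j + 1)) u := by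
  intro h2
  have h3 : ¬ Rr w j (w.getVert i) u := by
    intro h3
    have h4 : Rr w j (w.getVert i) (w.getVert j) :=
      Rr_low w hw hj _ _ (by omega) (le_refl _)
    exact not_Rr w hA hj (((h2.trans h3.symm).trans h4).symm)
  have h5 := (Wi_of_not_Rr w h h3).1
  have := le_of_Wi w hd (by omega) (by omega) h5
  omega

theorem Rr_of_near (hd : w.length = A.dist a b) {i j ρ : ℕ}
    (hij : i + ρ < j) (hj : j < w.length) {u : V} (h : Wi A ρ (w.getVert j) u) :
    Rr w i (w.getVert (i + 1)) u := by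
  by_contra h2
  have h3 : ¬ Rr w i (w.getVert j) u := by
    intro h3
    have h4 : Rr w i (w.getVert (i + 1)) (w.getVert j) :=
      Rr_high w hw (by omega) _ _ (le_refl _) (by omega) (by omega)
    exact h2 (h4.trans h3)
  have h5 := (Wi_of_not_Rr w h h3).1.symm
  have := le_of_Wi w hd (by omega) (by omega) h5
  omega

end geod

end Vale.Agent.P192
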