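import Vale.Agent.P192.H124.TriPres

/-!
# P192: gluing the slab between two equal cuts
-/

namespace Vale.Agent.P192

open Classical

theorem perm_app_inv {Γ X : Type} [Group Γ] (F : Γ →* Equiv.Perm X) (a : Γ) (w : X) :
    F a (F a⁻¹ w) = w := by
  rw [← Equiv.Perm.mul_apply, ← map_mul, mul_inv_cancel, map_one]
  rfl

theorem perm_inv_app {Γ X : Type} [Group Γ] (F : Γ →* Equiv.Perm X) (a : Γ) (w : X) :
    F a⁻¹ (F a w) = w := by
  rw [← Equiv.Perm.mul_apply, ← map_mul, inv_mul_cancel, map_one]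
  rfl

/-- two cuts `P ⊇ Q` of a `Γ`-set with isomorphic neighbourhoods `B`, `B'` -/
structure GD (Γ : Type) [Group Γ] (Ω : Type) [MulAction Γ Ω] (S : Set Γ) where
  P : Set Ω
  Q : Set Ω
  B : Set Ω
  B' : Set Ω
  θ : Ω → Ω
  θ' : Ω → Ω
  θB : ∀ v ∈ B, θ v ∈ B'
  θB' : ∀ v ∈ B', θ' v ∈ B
  left : ∀ v ∈ B, θ' (θ v) = v
  right : ∀ v ∈ B', θ (θ' v) = v
  QP : ∀ v ∈ Q, v ∈ P
  BQ : ∀ v ∈ B, v ∉ Q
  BP : ∀ v ∈ B', v ∈ P
  side : ∀ v ∈ B, (v ∈ P ↔ θ v ∈ Q)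
  up : ∀ ω, ω ∉ Q → ∀ t ∈ S, t • ω ∈ Q → ∀ s ∈ S, s • t • ω ∈ B'
  down : ∀ ω ∈ P, ∀ t ∈ S, t • ω ∉ P → ∀ s ∈ S, s • t • ω ∈ B
  equi : ∀ v ∈ B, ∀ s ∈ S, (s • v ∈ B ∨ s • θ v ∈ B') → s • v ∈ B ∧ θ (s • v) = s • θ v

namespace GD

variable {Γ : Type} [Group Γ] {Ω : Type} [MulAction Γ Ω] {S : Set Γ} (D : GD Γ Ω S)

/-- normal form -/
noncomputable def nrm (k : ℤ) (u : Ω) : ℤ × Ω :=
  if u ∈ D.Q then (k + 1, D.θ' u) else if u ∈ D.P then (k, u) else (k - 1, D.θ u)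

theorem nrm_Q {k : ℤ} {u : Ω} (h : u ∈ D.Q) : D.nrm k u = (k + 1, D.θ' u) := if_pos h

theorem nrm_D {k : ℤ} {u : Ω} (h : u ∉ D.Q) (h' : u ∈ D.P) : D.nrm k u = (k, u) :=
  (if_neg h).trans (if_pos h')

theorem nrm_L {k : ℤ} {u : Ω} (h : u ∉ D.P) : D.nrm k u = (k - 1, D.θ u) :=
  (if_neg (fun h' => h (D.QP u h'))).trans (if_neg h)

theorem nrm_shift {v : Ω} (hv : v ∈ D.B) (k : ℤ) : D.nrm (k + 1) v = D.nrm k (D.θ v) := by
  by_cases h : v ∈ D.P
  · rw [D.nrm_D (D.BQ v hv) h, D.nrm_Q ((D.side v hv).1 h), D.left v hv]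
  · rw [D.nrm_L h, D.nrm_D (fun h' => h ((D.side v hv).2 h')) (D.BP _ (D.θB v hv)),
      add_sub_cancel_right]

theorem nrm_add (k j : ℤ) (u : Ω) :
    D.nrm (k + j) u = ((D.nrm k u).1 + j, (D.nrm k u).2) := by
  by_cases h : u ∈ D.Q
  · rw [D.nrm_Q h, D.nrm_Q h]
    exact Prod.ext (by dsimp only; ring) rfl
  · by_cases h' : u ∈ D.P
    · rw [D.nrm_D h h', D.nrm_D h h']
    · rw [D.nrm_L h', D.nrm_L h']
      exact Prod.ext (by dsimp only; ring) rfl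

/-- the action before the verification -/
noncomputable def act (g : Γ) (z : ℤ × Ω) : ℤ × Ω := D.nrm z.1 (g • z.2)

/-- the glued space -/
def X : Set (ℤ × Ω) := {z | z.2 ∈ D.P ∧ z.2 ∉ D.Q}

theorem act_mem (h1 : (1 : Γ) ∈ S) {t : Γ} (ht : t ∈ S) {z : ℤ × Ω} (hz : z ∈ D.X) :
    D.act t z ∈ D.X := by
  by_cases h : t • z.2 ∈ D.Q
  · have h2 := D.up z.2 hz.2 t ht h 1 h1
    rw [one_smul] at h2
    have h3 : D.θ' (t • z.2) ∈ D.B := D.θB' _ h2
    have h4 : D.act t z = (z.1 + 1, D.θ' (t • z.2)) := D.nrm_Q h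
    rw [h4]
    exact ⟨(D.side _ h3).2 (by rwa [D.right _ h2]), D.BQ _ h3⟩
  · by_cases h' : t • z.2 ∈ D.P
    · have h4 : D.act t z = (z.1, t • z.2) := D.nrm_D h h'
      rw [h4]
      exact ⟨h', h⟩
    · have h2 := D.down z.2 hz.1 t ht h' 1 h1
      rw [one_smul] at h2
      have h4 : D.act t z = (z.1 - 1, D.θ (t • z.2)) := D.nrm_L h'
      rw [h4]
      exact ⟨D.BP _ (D.θB _ h2), fun h5 => h' ((D.side _ h2).2 h5)⟩

theorem act_one {z : ℤ × Ω} (hz : z ∈ D.X) : D.act 1 z = z := by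
  have h : D.act 1 z = D.nrm z.1 z.2 := by
    unfold act
    rw [one_smul]
  rw [h, D.nrm_D hz.2 hz.1]

theorem act_act (h1 : (1 : Γ) ∈ S) {s t : Γ} (hs : s ∈ S) (ht : t ∈ S) {z : ℤ × Ω}
    (hz : z ∈ D.X) : D.act s (D.act t z) = D.act (s * t) z := by
  have e : D.act (s * t) z = D.nrm z.1 (s • t • z.2) := by
    unfold act
    rw [mul_smul]
  rw [e]
  by_cases h : t • z.2 ∈ D.Q
  · have h2 := D.up z.2 hz.2 t ht h 1 h1
    rw [one_smul] at h2
    have h5 := D.up z.2 hz.2 t ht h s hs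
    have h3 : D.θ' (t • z.2) ∈ D.B := D.θB' _ h2
    have h4 : D.act t z = (z.1 + 1, D.θ' (t • z.2)) := D.nrm_Q h
    rw [h4]
    obtain ⟨h6, h7⟩ := D.equi _ h3 s hs (Or.inr (by rwa [D.right _ h2]))
    rw [D.right _ h2] at h7
    change D.nrm (z.1 + 1) (s • D.θ' (t • z.2)) = _
    rw [D.nrm_shift h6, h7]
  · by_cases h' : t • z.2 ∈ D.P
    · have h4 : D.act t z = (z.1, t • z.2) := D.nrm_D h h'
      rw [h4]
      rfl
    · have h2 := D.down z.2 hz.1 t ht h' 1 h1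
      rw [one_smul] at h2
      have h5 := D.down z.2 hz.1 t ht h' s hs
      have h4 : D.act t z = (z.1 - 1, D.θ (t • z.2)) := D.nrm_L h'
      rw [h4]
      obtain ⟨h6, h7⟩ := D.equi _ h2 s hs (Or.inl h5)
      change D.nrm (z.1 - 1) (s • D.θ (t • z.2)) = _
      rw [← h7, ← D.nrm_shift h6, sub_add_cancel]

/-- the permutation of a generator -/
noncomputable def gen' (h1 : (1 : Γ) ∈ S) (hi : ∀ s ∈ S, s⁻¹ ∈ S) (s : Γ) (hs : s ∈ S) :
    Equiv.Perm D.X where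
  toFun z := ⟨D.act s z, D.act_mem h1 hs z.2⟩
  invFun z := ⟨D.act s⁻¹ z, D.act_mem h1 (hi s hs) z.2⟩
  left_inv z := Subtype.ext (by
    change D.act s⁻¹ (D.act s z) = z
    rw [D.act_act h1 (hi s hs) hs z.2, inv_mul_cancel, D.act_one z.2])
  right_inv z := Subtype.ext (by
    change D.act s (D.act s⁻¹ z) = z
    rw [D.act_act h1 hs (hi s hs) z.2, mul_inv_cancel, D.act_one z.2])

/-- the shift -/
def sh (k : ℤ) (z : D.X) : D.X := ⟨(z.1.1 + k, z.1.2), z.2⟩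

theorem sh_sh (k j : ℤ) (z : D.X) : D.sh k (D.sh j z) = D.sh (j + k) z :=
  Subtype.ext (Prod.ext (add_assoc _ _ _) rfl)

/-- the action of `Γ` on the glued space -/
theorem exists_hom (h1 : (1 : Γ) ∈ S) (hi : ∀ s ∈ S, s⁻¹ ∈ S) (hcl : Subgroup.closure S = ⊤)
    (hext : ∀ (G : Type) [Group G] (f : Γ → G),
      (∀ s ∈ S, ∀ t ∈ S, s * t ∈ S → f (s * t) = f s * f t) →
      ∃ F : Γ →* G, ∀ s ∈ S, F s = f s) :
    ∃ F : Γ →* Equiv.Perm D.X, (∀ s ∈ S, ∀ z : D.X, ((F s z : D.X) : ℤ × Ω) = D.act s z) ∧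
      ∀ g k z, F g (D.sh k z) = D.sh k (F g z) := by
  obtain ⟨F, hF⟩ := hext (Equiv.Perm D.X) (fun s => if hs : s ∈ S then D.gen' h1 hi s hs else 1)
    (by
      intro s hs t ht hst
      rw [dif_pos hs, dif_pos ht, dif_pos hst]
      ext1 z
      exact Subtype.ext (D.act_act h1 hs ht z.2).symm)
  have hF1 : ∀ s ∈ S, ∀ z : D.X, ((F s z : D.X) : ℤ × Ω) = D.act s z := by
    intro s hs z
    rw [hF s hs, dif_pos hs]
    rfl
  refine ⟨F, hF1, ?_⟩
  intro g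
  have hg : g ∈ Subgroup.closure S := by rw [hcl]; trivial
  induction hg using Subgroup.closure_induction with
  | mem s hs =>
    intro k z
    apply Subtype.ext
    rw [hF1 s hs]
    change D.nrm (z.1.1 + k) (s • z.1.2) = ((F s z).1.1 + k, (F s z).1.2)
    rw [hF1 s hs, D.nrm_add]
    rfl
  | one =>
    intro k z
    rw [map_one]
    rfl
  | mul a b _ _ ha hb =>
    intro k z
    rw [map_mul]
    change F a (F b (D.sh k z)) = D.sh k (F a (F b z))
    rw [hb, ha]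
  | inv a _ ha =>
    intro k z
    have h := ha k (F a⁻¹ z)
    rw [perm_app_inv] at h
    rw [← h, perm_inv_app]

/-- the invariant height function -/
theorem exists_height (h1 : (1 : Γ) ∈ S) (hi : ∀ s ∈ S, s⁻¹ ∈ S) (hcl : Subgroup.closure S = ⊤)
    (hext : ∀ (G : Type) [Group G] (f : Γ → G),
      (∀ s ∈ S, ∀ t ∈ S, s * t ∈ S → f (s * t) = f s * f t) →
      ∃ F : Γ →* G, ∀ s ∈ S, F s = f s) (ht : ∀ x : Γ, IsOfFinOrder x) :
    ∃ H : Ω → ℤ, (∀ ω, ω ∈ D.P → ω ∉ D.Q → ∀ s ∈ S, H (s • ω) = H ω) ∧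
      ∀ v ∈ D.B, H (D.θ v) = H v + 1 := by
  obtain ⟨F, hF, hsh⟩ := D.exists_hom h1 hi hcl hext
  -- freeness
  have hfree : ∀ (g : Γ) (k j : ℤ) (r : D.X), F g (D.sh k r) = D.sh j r → k = j := by
    intro g k j r h
    have hpow : ∀ n : ℕ, F (g ^ n) (D.sh k r) = D.sh (k + n * (j - k)) r := by
      intro n
      induction n with
      | zero =>
        rw [pow_zero, map_one]
        simp
      | succ n ih =>
        rw [pow_succ', map_mul]
        change F g (F (g ^ n) (D.sh k r)) = _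
        rw [ih]
        have e : D.sh (k + n * (j - k)) r = D.sh (n * (j - k)) (D.sh k r) := by
          rw [D.sh_sh]
        rw [e, hsh, h, D.sh_sh]
        congr 1
        push_cast
        ring
    obtain ⟨n, hn, hn1⟩ := isOfFinOrder_iff_pow_eq_one.1 (ht g)
    have h2 := hpow n
    rw [hn1, map_one] at h2
    have h3 : (D.sh k r).1.1 = (D.sh (k + n * (j - k)) r).1.1 := by
      rw [← h2]
      rfl
    have h4 : r.1.1 + k = r.1.1 + (k + n * (j - k)) := h3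
    have h5 : (n : ℤ) * (j - k) = 0 := by linarith
    rcases mul_eq_zero.1 h5 with h6 | h6
    · exact absurd (by exact_mod_cast h6) hn.ne'
    · linarith
  let st : Setoid D.X :=
    { r := fun z w => ∃ g k, F g (D.sh k z) = w
      iseqv :=
        { refl := fun z => ⟨1, 0, by rw [map_one]; exact Subtype.ext (Prod.ext (add_zero _) rfl)⟩
          symm := by
            rintro z w ⟨g, k, h⟩
            refine ⟨g⁻¹, -k, ?_⟩
            rw [hsh, ← h, perm_inv_app, D.sh_sh, add_neg_cancel]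
            exact Subtype.ext (Prod.ext (add_zero _) rfl)
          trans := by
            rintro z w u ⟨g, k, h⟩ ⟨g', k', h'⟩
            refine ⟨g' * g, k + k', ?_⟩
            rw [map_mul, ← D.sh_sh]
            change F g' (F g _) = _
            rw [hsh, h, h'] } }
  let rep : D.X → D.X := fun z => Quotient.out (Quotient.mk st z)
  have hrep : ∀ z, ∃ k : ℤ, ∃ g, F g (D.sh k (rep z)) = z := by
    intro z
    obtain ⟨g, k, h⟩ := Quotient.mk_out (s := st) z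
    exact ⟨k, g, h⟩
  choose H₀ hH₀ using hrep
  have hrep_eq : ∀ z w : D.X, (∃ g k, F g (D.sh k z) = w) → rep z = rep w := by
    intro z w h
    change Quotient.out (Quotient.mk st z) = Quotient.out (Quotient.mk st w)
    rw [Quotient.sound (s := st) h]
  have huniq : ∀ z w : D.X, ∀ (g g' : Γ) (k : ℤ), F g (D.sh k (rep z)) = w → rep z = rep w →
      H₀ w = k := by
    intro z w g g' k h he
    obtain ⟨g2, h2⟩ := hH₀ w
    rw [← he] at h2
    refine (hfree (g2⁻¹ * g) k (H₀ w) (rep z) ?_).symm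
    rw [map_mul]
    change F g2⁻¹ (F g _) = _
    have h3 := perm_inv_app F g2 (D.sh (H₀ w) (rep z))
    rw [h2] at h3
    rw [h, h3]
  have hinv : ∀ g z, H₀ (F g z) = H₀ z := by
    intro g z
    obtain ⟨g1, h⟩ := hH₀ z
    have he : rep z = rep (F g z) :=
      hrep_eq _ _ ⟨g, 0, by
        congr 1
        exact Subtype.ext (Prod.ext (add_zero _) rfl)⟩
    refine huniq z (F g z) (g * g1) 1 (H₀ z) ?_ he
    rw [map_mul]
    change F g (F g1 _) = _
    rw [h]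
  have hshift : ∀ z k, H₀ (D.sh k z) = H₀ z + k := by
    intro z k
    obtain ⟨g1, h⟩ := hH₀ z
    have he : rep z = rep (D.sh k z) := hrep_eq _ _ ⟨1, k, by rw [map_one]; rfl⟩
    refine huniq z (D.sh k z) g1 1 (H₀ z + k) ?_ he
    rw [← D.sh_sh, hsh, h]
  refine ⟨fun ω => if h : D.nrm 0 ω ∈ D.X then H₀ ⟨_, h⟩ else 0, ?_, ?_⟩
  · intro ω hP hQ s hs
    have hz : ((0 : ℤ), ω) ∈ D.X := ⟨hP, hQ⟩
    have h2 : D.nrm 0 ω = (0, ω) := D.nrm_D hQ hP
    have h3 : D.nrm 0 (s • ω) = D.act s (0, ω) := rfl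
    have h4 : D.nrm 0 (s • ω) ∈ D.X := by
      rw [h3]
      exact D.act_mem h1 hs hz
    have h5 : D.nrm 0 ω ∈ D.X := by
      rw [h2]
      exact hz
    dsimp only
    rw [dif_pos h4, dif_pos h5]
    have h6 : (⟨_, h4⟩ : D.X) = F s ⟨_, h5⟩ := by
      apply Subtype.ext
      rw [hF s hs]
      change D.nrm 0 (s • ω) = D.act s (D.nrm 0 ω)
      rw [h2]
      rfl
    rw [h6, hinv]
  · intro v hv
    have h2 : D.nrm 0 v ∈ D.X := by
      by_cases h : v ∈ D.P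
      · rw [D.nrm_D (D.BQ v hv) h]
        exact ⟨h, D.BQ v hv⟩
      · rw [D.nrm_L h]
        exact ⟨D.BP _ (D.θB v hv), fun h' => h ((D.side v hv).2 h')⟩
    have h3 : D.nrm 0 (D.θ v) = ((D.nrm 0 v).1 + 1, (D.nrm 0 v).2) := by
      rw [← D.nrm_shift hv, D.nrm_add]
    have h4 : D.nrm 0 (D.θ v) ∈ D.X := by
      rw [h3]
      exact h2
    dsimp only
    rw [dif_pos h4, dif_pos h2, ← hshift]
    congr 1
    exact Subtype.ext h3

end GD

end Vale.Agent.P192
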