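import Vale.Agent.P192.H663.Calc

/-!
# P192: groups acting on hyperbolic graphs

Finitely generated periodic groups acting on a hyperbolic graph such that the balls contain boundedly
many points of the orbits have a finite orbit.
-/

namespace Vale.Agent.P192

universe u v w

/-- a discrete geodesic metric with the four point condition -/
structure Hyp {V : Type v} (d : V → V → ℕ) (δ : ℕ) : Prop where
  self : ∀ x, d x x = 0
  symm : ∀ x y, d x y = d y x
  tri : ∀ x y z, d x z ≤ d x y + d y z
  geod : ∀ x y t, t ≤ d x y → ∃ m, d x m = t ∧ d m y = d x y - t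
  four : ∀ x y z w, d x y + d z w ≤ d x z + d y w + 2 * δ ∨ d x y + d z w ≤ d x w + d y z + 2 * δ

namespace Hyp

variable {V : Type v} {d : V → V → ℕ} {δ : ℕ} (hd : Hyp d δ) {K : Type u} [Group K]
  [MulAction K V] (hiso : ∀ (g : K) x y, d (g • x) (g • y) = d x y)

include hd hiso

/-- an element of finite order does not translate -/
theorem sq_le {g : K} (hg : IsOfFinOrder g) (x : V) :
    d x (g • g • x) ≤ d x (g • x) + 2 * δ := by
  by_contra hlt
  rw [not_le] at hlt
  have hpow : ∀ n : ℕ, ∀ y : V, g ^ (n + 1) • y = g • g ^ n • y := by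
    intro n y
    rw [← mul_smul, ← pow_succ']
  have key : ∀ n : ℕ, d x (g ^ n • x) ≤ d x (g ^ (n + 1) • x) ∧
      (1 ≤ n → d x (g ^ n • x) < d x (g ^ (n + 1) • x)) := by
    intro n
    induction n with
    | zero =>
      refine ⟨?_, fun h => absurd h (by omega)⟩
      rw [pow_zero, one_smul, hd.self]
      exact Nat.zero_le _
    | succ n ih =>
      have h := hd.four x (g • g • x) (g • x) (g ^ (n + 2) • x)
      have e1 : d (g • x) (g ^ (n + 2) • x) = d x (g ^ (n + 1) • x) := by
        rw [hpow (n + 1), hiso]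
      have e2 : d (g • g • x) (g ^ (n + 2) • x) = d x (g ^ n • x) := by
        rw [hpow (n + 1), hpow n, hiso, hiso]
      have e3 : d (g • g • x) (g • x) = d x (g • x) := by
        rw [hiso, hd.symm]
      rw [e1, e2, e3] at h
      have h1 := ih.1
      have goal : d x (g ^ (n + 1) • x) < d x (g ^ (n + 2) • x) := by
        rcases h with h | h
        · omega
        · omega
      exact ⟨goal.le, fun _ => goal⟩
  obtain ⟨m, hm, hgm⟩ := (isOfFinOrder_iff_pow_eq_one).1 hg
  have h2 : ∀ n : ℕ, 1 ≤ n → d x (g ^ (n + 1) • x) ≠ 0 := by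
    intro n hn
    have := (key n).2 hn
    omega
  have h3 : g ^ (m + m) = 1 := by rw [pow_add, hgm, one_mul]
  obtain ⟨n, hn⟩ : ∃ n, m + m = n + 1 ∧ 1 ≤ n := ⟨m + m - 1, by omega, by omega⟩
  apply h2 n hn.2
  rw [← hn.1, h3, one_smul, hd.self]

/-- two elements of a periodic group: an ultrametric inequality -/
theorem dist_le (ht : ∀ g : K, IsOfFinOrder g) (s h : K) (x : V) :
    d (s • x) (h • x) ≤ max (d x (s • x)) (d x (h • x)) + 5 * δ := by
  have inv1 : ∀ g : K, d x (g⁻¹ • x) = d x (g • x) := by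
    intro g
    rw [← hiso g x, smul_inv_smul, hd.symm]
  have u1 : ∀ g : K, d (g • x) (g⁻¹ • x) ≤ d x (g • x) + 2 * δ := by
    intro g
    have h1 := hd.sq_le hiso (ht g) x
    have e : d (g • x) (g⁻¹ • x) = d x (g • g • x) := by
      rw [← hiso g (g • x), smul_inv_smul, hd.symm]
    rw [e]
    exact h1
  have e1 : d (s⁻¹ • x) (h • x) = d x ((s * h) • x) := by
    rw [← hiso s, smul_inv_smul, mul_smul]
  have e2 : d (s • x) ((s * h) • x) = d x (h • x) := by
    rw [mul_smul, hiso]
  have e3 : d ((s * h)⁻¹ • x) (h⁻¹ • x) = d x (s • x) := by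
    rw [mul_inv_rev, mul_smul, hiso, hd.symm, inv1]
  have hs := u1 s
  have hh := u1 h
  have hsh := u1 (s * h)
  have i1 := hd.four (s • x) (h • x) x (s⁻¹ • x)
  have i2 := hd.four (s • x) (h • x) x (h⁻¹ • x)
  have i3 := hd.four (s • x) (h⁻¹ • x) x ((s * h) • x)
  have i4 := hd.four ((s * h) • x) (h⁻¹ • x) x ((s * h)⁻¹ • x)
  rw [hd.symm (s • x) x, hd.symm (h • x) (s⁻¹ • x), e1, hd.symm (h • x) x, inv1] at i1
  rw [hd.symm (s • x) x, hd.symm (h • x) (h⁻¹ • x), hd.symm (h • x) x, inv1] at i2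
  rw [hd.symm (s • x) x, hd.symm (h⁻¹ • x) ((s * h) • x), hd.symm (h⁻¹ • x) x, inv1, e2] at i3
  rw [hd.symm ((s * h) • x) x, hd.symm (h⁻¹ • x) ((s * h)⁻¹ • x), hd.symm (h⁻¹ • x) x, inv1,
    inv1, e3] at i4
  rw [hd.symm (h⁻¹ • x) (h • x)] at i2
  generalize d x (s • x) = a at *
  generalize d x (h • x) = b at *
  generalize d (s • x) (h • x) = c at *
  generalize d x ((s * h) • x) = e at *
  generalize d (s • x) (h⁻¹ • x) = f at *
  generalize d ((s * h) • x) (h⁻¹ • x) = p at *
  omega

/-- the translation lengths of a finite symmetric set at a minimal point -/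
theorem exists_small (ht : ∀ g : K, IsOfFinOrder g) [Nonempty V] (S : Set K) (hS : S.Finite)
    (hSi : ∀ g ∈ S, g⁻¹ ∈ S) : ∃ x : V, ∀ g ∈ S, d x (g • x) ≤ 17 * δ + 3 := by
  classical
  -- the maximal displacement
  rcases S.eq_empty_or_nonempty with h0 | hne
  · exact ⟨Classical.arbitrary V, fun g hg => by rw [h0] at hg; exact absurd hg (Set.notMem_empty g)⟩
  have hmax : ∀ x : V, ∃ s ∈ S, ∀ g ∈ S, d x (g • x) ≤ d x (s • x) := fun x =>
    Set.exists_max_image S (fun g => d x (g • x)) hS hne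
  choose s hs hsm using hmax
  obtain ⟨x, hx⟩ : ∃ x : V, ∀ y : V, d x (s x • x) ≤ d y (s y • y) := by
    have h1 : (Set.range (fun x : V => d x (s x • x))).Nonempty := Set.range_nonempty _
    obtain ⟨x, hx⟩ := Nat.sInf_mem h1
    refine ⟨x, fun y => ?_⟩
    have h2 : sInf (Set.range (fun x : V => d x (s x • x))) ≤ d y (s y • y) :=
      Nat.sInf_le ⟨y, rfl⟩
    exact hx.le.trans h2
  refine ⟨x, fun g hg => (hsm x g hg).trans ?_⟩
  by_contra hlt
  rw [not_le] at hlt
  set L := d x (s x • x) with hL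
  obtain ⟨m, hm1, hm2⟩ := hd.geod x (s x • x) (3 * δ + 1) (by omega)
  have hm := hx m
  -- the displacement at `m`
  have key : ∀ h ∈ S, d (h • x) m ≤ max (8 * δ + 1) (d x (h • x) - (3 * δ + 1)) + 2 * δ := by
    intro h hh
    have h1 := hd.dist_le hiso ht (s x) h x
    have h2 := hd.four (h • x) m x (s x • x)
    have h3 := hsm x h hh
    have h4 := hd.symm (h • x) x
    have h5 := hd.symm (h • x) (s x • x)
    have h6 := hd.symm m x
    rw [h4, h5, h6, hm2, hm1] at h2
    omega
  have hb := hsm x (s m) (hs m)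
  have k1 := key (s m) (hs m)
  have k2 := key (s m)⁻¹ (hSi _ (hs m))
  have e1 : d ((s m)⁻¹ • x) m = d (s m • m) x := by
    rw [← hiso (s m), smul_inv_smul, hd.symm]
  have e2 : d x ((s m)⁻¹ • x) = d x (s m • x) := by
    rw [← hiso (s m) x, smul_inv_smul, hd.symm]
  rw [e1, e2] at k2
  have f := hd.four m (s m • m) x (s m • x)
  have e3 : d (s m • m) (s m • x) = 3 * δ + 1 := by
    rw [hiso, hd.symm, hm1]
  have e4 := hd.symm m x
  have e5 := hd.symm m (s m • x)
  rw [e3, e4, hm1, e5] at f
  have f2 := hd.tri m x (s m • m)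
  have f3 := hd.tri x (s m • x) (s m • m)
  have e6 : d (s m • x) (s m • m) = 3 * δ + 1 := by rw [hiso, hm1]
  rw [e6] at f3
  rw [e4, hm1] at f2
  omega

omit hd hiso in
/-- the orbit of a point under a finitely generated group is finite if the balls contain at most
`N` points of it -/
theorem finite_orbit_of [Group.FG K] (N : ℕ) (T : Set K) (h1 : (1 : K) ∈ T)
    (hTi : ∀ g ∈ T, g⁻¹ ∈ T) (hT : Subgroup.closure T = ⊤) (B : ℕ → Set K)
    (hB0 : B 0 = {1}) (hB : ∀ n, B (n + 1) = Set.image2 (fun a b => a * b) T (B n))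
    (x : V) (hfin : ((fun g : K => g • x) '' B N).Finite)
    (hcard : ((fun g : K => g • x) '' B N).ncard ≤ N) : (MulAction.orbit K x).Finite := by
  set O : ℕ → Set V := fun j => (fun g : K => g • x) '' B j with hO
  have hBm : ∀ n, B n ⊆ B (n + 1) := by
    intro n g hg
    rw [hB]
    exact ⟨1, h1, g, hg, one_mul g⟩
  have hBmono : Monotone B := monotone_nat_of_le_succ hBm
  have hOmono : Monotone O := fun a b hab => Set.image_mono (hBmono hab)
  have hOfin : ∀ j, j ≤ N → (O j).Finite := fun j hj => hfin.subset (hOmono hj)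
  have hex : ∃ j, j < N ∧ O j = O (j + 1) := by
    by_contra hcon
    have hstrict : ∀ j, j < N → O j ≠ O (j + 1) := fun j hj h => hcon ⟨j, hj, h⟩
    have hc : ∀ j, j ≤ N → j + 1 ≤ (O j).ncard := by
      intro j
      induction j with
      | zero =>
        intro _
        have : O 0 = {x} := by
          rw [hO]
          simp only
          rw [hB0, Set.image_singleton, one_smul]
        rw [this, Set.ncard_singleton]
      | succ j ih =>
        intro hj
        have h2 := ih (by omega)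
        have h3 : O j ⊂ O (j + 1) :=
          (hOmono (Nat.le_succ j)).ssubset_of_ne (hstrict j (by omega))
        have h4 := Set.ncard_lt_ncard h3 (hOfin _ hj)
        omega
    have := hc N le_rfl
    have h5 : (O N).ncard ≤ N := hcard
    omega
  obtain ⟨j, hj, hjj⟩ := hex
  have hinv : ∀ s ∈ T, ∀ y ∈ O j, s • y ∈ O j := by
    rintro s hs _ ⟨g, hg, rfl⟩
    rw [hjj]
    refine ⟨s * g, ?_, mul_smul s g x⟩
    rw [hB]
    exact ⟨s, hs, g, hg, rfl⟩
  have hall : ∀ g ∈ Subgroup.closure T, ∀ y ∈ O j, g • y ∈ O j ∧ g⁻¹ • y ∈ O j := by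
    intro g hg
    induction hg using Subgroup.closure_induction with
    | mem s hs => exact fun y hy => ⟨hinv s hs y hy, hinv _ (hTi s hs) y hy⟩
    | one => exact fun y hy => by rw [inv_one, one_smul]; exact ⟨hy, hy⟩
    | mul a b _ _ ha hb =>
      intro y hy
      refine ⟨?_, ?_⟩
      · rw [mul_smul]
        exact (ha _ (hb y hy).1).1
      · rw [mul_inv_rev, mul_smul]
        exact (hb _ (ha y hy).2).2
    | inv a _ ha =>
      intro y hy
      rw [inv_inv]
      exact ⟨(ha y hy).2, (ha y hy).1⟩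
  have hx : x ∈ O j := by
    refine hOmono (Nat.zero_le j) ⟨1, ?_, one_smul K x⟩
    rw [hB0]
    rfl
  refine (hOfin j hj.le).subset ?_
  rintro _ ⟨g, rfl⟩
  exact (hall g (by rw [hT]; trivial) x hx).1

/-- **A finitely generated periodic group acting on a hyperbolic graph with uniformly locally finite
orbits has a finite orbit.** -/
theorem exists_finite_orbit (ht : ∀ g : K, IsOfFinOrder g) [Nonempty V] [hK : Group.FG K] (N : ℕ)
    (hN : ∀ x : V, (MulAction.orbit K x ∩ {y | d x y ≤ 17 * δ + 3}).Finite ∧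
      (MulAction.orbit K x ∩ {y | d x y ≤ 17 * δ + 3}).ncard ≤ N) :
    ∃ x : V, (MulAction.orbit K x).Finite := by
  obtain ⟨T₀, hT₀⟩ := Group.fg_def.1 hK
  set T : Set K := insert 1 ((T₀ : Set K) ∪ (fun g => g⁻¹) '' (T₀ : Set K)) with hTdef
  have hTfin : T.Finite := (T₀.finite_toSet.union (T₀.finite_toSet.image _)).insert _
  have h1 : (1 : K) ∈ T := Set.mem_insert _ _
  have hTi : ∀ g ∈ T, g⁻¹ ∈ T := by
    intro g hg
    rcases hg with rfl | hg | ⟨a, ha, rfl⟩
    · rw [inv_one]; exact h1
    · exact Or.inr (Or.inr ⟨g, hg, rfl⟩)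
    · exact Or.inr (Or.inl (by rw [inv_inv]; exact ha))
  have hTcl : Subgroup.closure T = ⊤ := by
    rw [eq_top_iff, ← hT₀]
    exact Subgroup.closure_mono fun g hg => Or.inr (Or.inl hg)
  let B : ℕ → Set K := fun n => Nat.rec {1} (fun _ b => Set.image2 (fun a b => a * b) T b) n
  have hBfin : ∀ n, (B n).Finite := by
    intro n
    induction n with
    | zero => exact Set.finite_singleton _
    | succ n ih => exact hTfin.image2 _ ih
  obtain ⟨x, hx⟩ := hd.exists_small hiso ht (B N ∪ (fun g => g⁻¹) '' (B N))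
    ((hBfin N).union ((hBfin N).image _)) (by
      rintro g (hg | ⟨a, ha, rfl⟩)
      · exact Or.inr ⟨g, hg, rfl⟩
      · exact Or.inl (by rw [inv_inv]; exact ha))
  have hsub : (fun g : K => g • x) '' B N ⊆
      MulAction.orbit K x ∩ {y | d x y ≤ 17 * δ + 3} := by
    rintro _ ⟨g, hg, rfl⟩
    exact ⟨⟨g, rfl⟩, hx g (Or.inl hg)⟩
  exact ⟨x, finite_orbit_of N T h1 hTi hTcl B rfl (fun _ => rfl) x ((hN x).1.subset hsub)
    ((Set.ncard_le_ncard hsub (hN x).1).trans (hN x).2)⟩

end Hyp

/-- **Groups acting on hyperbolic graphs**, metric form. -/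
theorem fpb_of_hyp {V : Type v} [Nonempty V] {d : V → V → ℕ} {δ : ℕ} (hd : Hyp d δ)
    {G : Type u} [Group G] [MulAction G V] (hiso : ∀ (g : G) x y, d (g • x) (g • y) = d x y)
    (N : ℕ) (hN : ∀ x : V, (MulAction.orbit G x ∩ {y | d x y ≤ 17 * δ + 3}).Finite ∧
      (MulAction.orbit G x ∩ {y | d x y ≤ 17 * δ + 3}).ncard ≤ N)
    (hst : ∀ x : V, FPB (MulAction.stabilizer G x)) : FPB G := by
  intro Γ _ hΓ ht f
  obtain ⟨n, φ, hφ, -⟩ := id hΓ
  have hfg : Group.FG Γ := Group.fg_of_surjective hφ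
  have hr : Group.FG f.range := Group.fg_range f
  have hto : ∀ k : f.range, IsOfFinOrder k := by
    rintro ⟨_, y, rfl⟩
    have h1 : IsOfFinOrder (f y) := MonoidHom.isOfFinOrder f (ht y)
    exact (Submonoid.isOfFinOrder_coe (H := f.range.toSubmonoid) (x := ⟨f y, y, rfl⟩)).1 h1
  have hsub : ∀ x : V, MulAction.orbit f.range x ∩ {y | d x y ≤ 17 * δ + 3} ⊆
      MulAction.orbit G x ∩ {y | d x y ≤ 17 * δ + 3} := by
    rintro x _ ⟨⟨k, rfl⟩, hy⟩
    exact ⟨⟨(k : G), rfl⟩, hy⟩
  obtain ⟨x, hx⟩ := hd.exists_finite_orbit (K := f.range) (fun g x y => hiso (g : G) x y) hto N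
    (fun x => ⟨(hN x).1.subset (hsub x),
      (Set.ncard_le_ncard (hsub x) (hN x).1).trans (hN x).2⟩)
  have hfinO : Finite (MulAction.orbit f.range x) := hx.to_subtype
  have hK : FPB f.range := by
    refine fpb_ext (MulAction.toPermHom f.range (MulAction.orbit f.range x)) (fpb_of_finite _) ?_
    have hfix : ∀ k : (MulAction.toPermHom f.range (MulAction.orbit f.range x)).ker,
        ((k : f.range) : G) • x = x := by
      intro k
      have h2 := k.2
      rw [MonoidHom.mem_ker] at h2
      have h3 := congrArg (fun e : Equiv.Perm (MulAction.orbit f.range x) =>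
        ((e ⟨x, MulAction.mem_orbit_self x⟩ : MulAction.orbit f.range x) : V)) h2
      exact h3
    refine fpb_of_injective (H := MulAction.stabilizer G x)
      ((f.range.subtype.comp (Subgroup.subtype _)).codRestrict (MulAction.stabilizer G x)
        (fun k => MulAction.mem_stabilizer_iff.2 (hfix k))) ?_ (hst x)
    intro a b hab
    have h4 := congrArg Subtype.val hab
    exact Subtype.ext (Subtype.ext h4)
  have hfin := hK Γ hΓ ht f.rangeRestrict
  rw [MonoidHom.range_eq_top.2 f.rangeRestrict_surjective] at hfin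
  exact Finite.of_equiv _ Subgroup.topEquiv.toEquiv

/-- the metric of a connected graph with the four point condition -/
theorem hyp_dist {V : Type v} {A : SimpleGraph V} (hA : A.Connected) {δ : ℕ}
    (h4 : ∀ x y z w, A.dist x y + A.dist z w ≤
      max (A.dist x z + A.dist y w) (A.dist x w + A.dist y z) + 2 * δ) :
    Hyp (fun x y => A.dist x y) δ where
  self := fun x => SimpleGraph.dist_self
  symm := fun x y => A.dist_comm
  tri := fun x y z => hA.dist_triangle
  geod := by
    intro x y t ht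
    obtain ⟨p, hp⟩ := hA.exists_walk_length_eq_dist x y
    refine ⟨p.getVert t, ?_⟩
    have h1 : A.dist x (p.getVert t) ≤ t := by
      have := SimpleGraph.dist_le (p.take t)
      rw [SimpleGraph.Walk.take_length] at this
      omega
    have h2 : A.dist (p.getVert t) y ≤ A.dist x y - t := by
      have := SimpleGraph.dist_le (p.drop t)
      rw [SimpleGraph.Walk.drop_length, hp] at this
      exact this
    have h3 := hA.dist_triangle (u := x) (v := p.getVert t) (w := y)
    refine ⟨?_, ?_⟩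
    · omega
    · omega
  four := by
    intro x y z w
    have := h4 x y z w
    omega

/-- **Groups acting on hyperbolic graphs.** -/
theorem fpb_of_hyperbolic {V : Type v} (A : SimpleGraph V) (hA : A.Connected) (δ : ℕ)
    (h4 : ∀ x y z w, A.dist x y + A.dist z w ≤
      max (A.dist x z + A.dist y w) (A.dist x w + A.dist y z) + 2 * δ)
    {G : Type u} [Group G] [MulAction G V]
    (hadj : ∀ (g : G) (u v : V), A.Adj u v → A.Adj (g • u) (g • v))
    (hN : ∀ r : ℕ, ∃ N : ℕ, ∀ x : V,
      (MulAction.orbit G x ∩ {y | A.dist x y ≤ r}).encard ≤ N)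
    (hst : ∀ x : V, FPB (MulAction.stabilizer G x)) : FPB G := by
  have hne : Nonempty V := hA.nonempty
  have hle : ∀ (g : G) (u v : V), A.dist (g • u) (g • v) ≤ A.dist u v := by
    intro g u v
    obtain ⟨p, hp⟩ := hA.exists_walk_length_eq_dist u v
    let φ : A →g A := ⟨fun x => g • x, fun {a b} hab => hadj g a b hab⟩
    have := SimpleGraph.dist_le (p.map φ)
    rw [SimpleGraph.Walk.length_map, hp] at this
    exact this
  obtain ⟨N, hN⟩ := hN (17 * δ + 3)
  refine fpb_of_hyp (hyp_dist hA h4) ?_ N ?_ hst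
  · intro g u v
    refine le_antisymm (hle g u v) ?_
    have := hle g⁻¹ (g • u) (g • v)
    rwa [inv_smul_smul, inv_smul_smul] at this
  · intro x
    have h1 : (MulAction.orbit G x ∩ {y | A.dist x y ≤ 17 * δ + 3}).Finite :=
      Set.finite_of_encard_le_coe (hN x)
    refine ⟨h1, ?_⟩
    have h2 := hN x
    rw [← h1.cast_ncard_eq] at h2
    exact_mod_cast h2

end Vale.Agent.P192
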