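import Vale.Agent.P192.H826.InfD
import Vale.Agent.P192.H124.CountGroup

/-!
# P192: infinite alphabets: tree automorphisms with vertex permutations in a given group
-/

namespace Vale.Agent.P192

universe u v

namespace SS

variable {T : Type u} {Y : Type v} [Group T] (S : SS T Y)

/-- restriction to a subgroup closed under sections -/
def res (K : Subgroup T) (hK : ∀ g ∈ K, ∀ y, S.sec g y ∈ K) : SS K Y where
  σ := S.σ.comp K.subtype
  sec g y := ⟨S.sec g.1 y, hK _ g.2 y⟩
  sec_mul g h y := Subtype.ext (S.sec_mul g.1 h.1 y)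

variable {S} {K : Subgroup T} (hK : ∀ g ∈ K, ∀ y, S.sec g y ∈ K)

theorem res_σ (g : K) : (S.res K hK).σ g = S.σ g.1 := rfl

theorem res_sec (g : K) (y : Y) : ((S.res K hK).sec g y : T) = S.sec g.1 y := rfl

theorem res_secL (g : K) (v : List Y) : ((S.res K hK).secL g v : T) = S.secL g.1 v := by
  induction v generalizing g with
  | nil => rfl
  | cons y v ih => exact ih _

theorem res_st (g : K) (ξ : ℕ → Y) (n : ℕ) : ((S.res K hK).st ξ n g : T) = S.st ξ n g.1 := by
  induction n with
  | zero => rfl
  | succ n ih =>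
    change S.sec ((S.res K hK).st ξ n g : T) (ξ n) = S.sec (S.st ξ n g.1) (ξ n)
    rw [ih]

theorem res_faithful (hf : S.Faithful) : (S.res K hK).Faithful := by
  intro g hg
  apply Subtype.ext
  apply hf
  intro v
  rw [← res_secL hK]
  exact hg v

/-- finite-state elements have finitely many decorations along every ray -/
theorem FD_of_fs {g : T} (hg : (Set.range (S.secL g)).Finite) (ξ : ℕ → Y) : S.FD ξ g := by
  have hst : ∀ n, S.st ξ n g ∈ Set.range (S.secL g) := by
    intro n
    induction n with
    | zero => exact ⟨[], rfl⟩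
    | succ n ih =>
      obtain ⟨v, hv⟩ := ih
      refine ⟨v ++ [ξ n], ?_⟩
      rw [S.secL_append, hv]
      rfl
  refine ⟨(fun t => (⟨S.σ t, S.sec t⟩ : Wr T Y)) '' Set.range (S.secL g), hg.image _, ?_, ?_⟩
  · rintro _ ⟨_, ⟨v, rfl⟩, rfl⟩
    refine hg.subset ?_
    rintro _ ⟨y, rfl⟩
    refine ⟨v ++ [y], ?_⟩
    rw [S.secL_append]
    rfl
  · intro n
    exact ⟨_, ⟨_, hst n, rfl⟩, rfl, fun y _ => rfl⟩

end SS

variable {X : Type*}

/-- tree automorphisms with all vertex permutations in `P` -/
def TP (X : Type*) (P : Subgroup (Equiv.Perm X)) : Subgroup (TreeAut X) where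
  carrier := {g | ∀ v, (ssX X).σ (sect g v) ∈ P}
  one_mem' := fun v => by rw [sect_one, map_one]; exact one_mem _
  mul_mem' := fun {a b} ha hb v => by rw [sect_mul, map_mul]; exact mul_mem (ha _) (hb _)
  inv_mem' := fun {a} ha v => by
    have h2 := sect_inv a (((a⁻¹ : TreeAut X) : Equiv.Perm (List X)) v)
    rw [Subgroup.coe_inv, app_inv] at h2
    rw [h2, map_inv]
    exact inv_mem (ha _)

theorem TP_sec (P : Subgroup (Equiv.Perm X)) : ∀ g ∈ TP X P, ∀ x, (ssX X).sec g x ∈ TP X P := by
  intro g hg x v
  rw [ssX_sec, ← sect_append]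
  exact hg _

/-- the wreath recursion over the alphabet `X` with vertex permutations in `P` -/
def ssP (X : Type*) (P : Subgroup (Equiv.Perm X)) : SS (TP X P) X := (ssX X).res (TP X P) (TP_sec P)

theorem ssP_faithful (P : Subgroup (Equiv.Perm X)) : (ssP X P).Faithful :=
  SS.res_faithful _ ssX_faithful

theorem ssP_fpb {P : Subgroup (Equiv.Perm X)} (hP : FPB P) : FPB (ssP X P).σ.range := by
  refine fpb_mono (L := P) ?_ hP
  rintro _ ⟨g, rfl⟩
  have := g.2 []
  rw [sect_nil] at this
  exact this

theorem ssP_st (P : Subgroup (Equiv.Perm X)) (g : TP X P) (ξ : ℕ → X) (n : ℕ) :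
    ((ssP X P).st ξ n g : TreeAut X) = sect g.1 ((List.range n).map ξ) := by
  rw [← ssX_st]
  exact SS.res_st _ g ξ n

theorem ssP_secL (P : Subgroup (Equiv.Perm X)) (g : TP X P) (v : List X) :
    ((ssP X P).secL g v : TreeAut X) = sect g.1 v := by
  rw [← ssX_secL]
  exact SS.res_secL _ g v

/-- a permutation of the words is in `TP X P` iff it acts at every word by an element of `P` -/
theorem mem_TP_iff (P : Subgroup (Equiv.Perm X)) (g : Equiv.Perm (List X)) :
    (∃ t : TP X P, ((t : TreeAut X) : Equiv.Perm (List X)) = g) ↔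
      ∀ v, ∃ p ∈ P, ∀ x, g (v ++ [x]) = g v ++ [p x] := by
  constructor
  · rintro ⟨t, rfl⟩ v
    refine ⟨_, t.2 v, fun x => ?_⟩
    rw [ssX_σ]
    exact sect_spec t.1 v [x]
  · intro h
    -- lengths
    have hlen : ∀ v, (g v).length = (g []).length + v.length := by
      intro v
      induction v using List.reverseRecOn with
      | nil => rfl
      | append_singleton v x ih =>
        obtain ⟨p, -, hp⟩ := h v
        rw [hp, List.length_append, ih, List.length_append]
        simp only [List.length_cons, List.length_nil]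
        omega
    have h0 : g [] = [] := by
      have h1 := hlen (g.symm [])
      rw [Equiv.apply_symm_apply, List.length_nil] at h1
      exact List.length_eq_zero_iff.1 (by omega)
    have g1 : ∀ w, (g w).length = w.length := by
      intro w
      rw [hlen, h0, List.length_nil, Nat.zero_add]
    have g2 : ∀ v w, g v <+: g (v ++ w) := by
      intro v w
      induction w using List.reverseRecOn with
      | nil => rw [List.append_nil]
      | append_singleton w x ih =>
        obtain ⟨p, -, hp⟩ := h (v ++ w)
        rw [← List.append_assoc, hp]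
        exact ih.trans (List.prefix_append _ _)
    let t : TreeAut X := ⟨g, mem_treeAut_of' g1 g2⟩
    refine ⟨⟨t, fun v => ?_⟩, rfl⟩
    obtain ⟨p, hp, hpx⟩ := h v
    have e : (ssX X).σ (sect t v) = p := by
      apply Equiv.ext
      intro x
      have h3 := ssX_σ (sect t v) x
      have h4 := sect_spec t v [x]
      have h5 : (t : Equiv.Perm (List X)) (v ++ [x]) = (t : Equiv.Perm (List X)) v ++ [p x] := hpx x
      rw [h5] at h4
      have h6 := List.append_cancel_left h4
      rw [← h6] at h3
      exact (List.cons.inj h3).1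
    rw [e]
    exact hp

/-- finitely many decorations along the rays, in terms of words -/
def FDx (g : Equiv.Perm (List X)) : Prop :=
  ∀ ξ : ℕ → X, ∃ F : Set (Equiv.Perm X × (X → List X → List X)), F.Finite ∧
    (∀ a ∈ F, (Set.range a.2).Finite) ∧ ∀ n, ∃ a ∈ F,
      (∀ x, g ((List.range n).map ξ ++ [x]) = g ((List.range n).map ξ) ++ [a.1 x]) ∧
      ∀ x, x ≠ ξ n → ∀ w,
        g ((List.range n).map ξ ++ x :: w) = g ((List.range n).map ξ ++ [x]) ++ a.2 x w

theorem FDx_iff (P : Subgroup (Equiv.Perm X)) (g : TP X P) :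
    FDx ((g : TreeAut X) : Equiv.Perm (List X)) ↔ ∀ ξ, (ssP X P).FD ξ g := by
  classical
  have hinj : Function.Injective
      (fun s : TP X P => (((s : TreeAut X) : Equiv.Perm (List X)) : List X → List X)) := by
    intro a b hab
    exact Subtype.ext (ta_ext fun w => congrFun hab w)
  constructor
  · intro h ξ
    obtain ⟨F, hF, hFr, hFn⟩ := h ξ
    let toT : (List X → List X) → TP X P := fun φ =>
      if h : ∃ t : TP X P, (((t : TreeAut X) : Equiv.Perm (List X)) : List X → List X) = φ
      then h.choose else 1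
    have htoT : ∀ t : TP X P, toT (((t : TreeAut X) : Equiv.Perm (List X)) : List X → List X) = t := by
      intro t
      have hex : ∃ t' : TP X P, (((t' : TreeAut X) : Equiv.Perm (List X)) : List X → List X) =
        (((t : TreeAut X) : Equiv.Perm (List X)) : List X → List X) := ⟨t, rfl⟩
      have : toT (((t : TreeAut X) : Equiv.Perm (List X)) : List X → List X) = hex.choose :=
        dif_pos hex
      rw [this]
      exact hinj hex.choose_spec
    refine ⟨(fun a => (⟨a.1, fun x => toT (a.2 x)⟩ : Wr (TP X P) X)) '' F, hF.image _, ?_, ?_⟩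
    · rintro _ ⟨a, ha, rfl⟩
      refine ((hFr a ha).image toT).subset ?_
      rintro _ ⟨x, rfl⟩
      exact ⟨_, ⟨x, rfl⟩, rfl⟩
    · intro n
      obtain ⟨a, ha, h1, h2⟩ := hFn n
      refine ⟨_, ⟨a, ha, rfl⟩, ?_, ?_⟩
      · apply Equiv.ext
        intro x
        have h3 : [(ssP X P).σ ((ssP X P).st ξ n g) x] = _ := ssX_σ ((ssP X P).st ξ n g).1 x
        rw [ssP_st] at h3
        have h4 := sect_spec g.1 ((List.range n).map ξ) [x]
        rw [h1 x] at h4
        rw [← List.append_cancel_left h4] at h3
        exact (List.cons.inj h3).1.symm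
      · intro x hx
        change toT (a.2 x) = _
        rw [← htoT ((ssP X P).sec ((ssP X P).st ξ n g) x)]
        congr 1
        funext w
        have e : (((ssP X P).sec ((ssP X P).st ξ n g) x : TP X P) : TreeAut X) =
            sect g.1 ((List.range n).map ξ ++ [x]) := by
          change sect ((ssP X P).st ξ n g).1 [x] = _
          rw [ssP_st, sect_append]
        rw [e]
        have h4 := sect_spec g.1 ((List.range n).map ξ ++ [x]) w
        rw [List.append_assoc] at h4
        have h5 := h2 x hx w
        exact List.append_cancel_left (h5.symm.trans h4)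
  · intro h ξ
    obtain ⟨F, hF, hFr, hFn⟩ := h ξ
    refine ⟨(fun w => (w.p, fun x =>
      (((w.f x : TreeAut X) : Equiv.Perm (List X)) : List X → List X))) '' F, hF.image _, ?_, ?_⟩
    · rintro _ ⟨w, hw, rfl⟩
      refine ((hFr w hw).image (fun s : TP X P =>
        (((s : TreeAut X) : Equiv.Perm (List X)) : List X → List X))).subset ?_
      rintro _ ⟨x, rfl⟩
      exact ⟨_, ⟨x, rfl⟩, rfl⟩
    · intro n
      obtain ⟨w, hw, h1, h2⟩ := hFn n
      refine ⟨_, ⟨w, hw, rfl⟩, ?_, ?_⟩
      · intro x
        change _ = _ ++ [w.p x]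
        rw [h1]
        have h3 : [(ssP X P).σ ((ssP X P).st ξ n g) x] = _ := ssX_σ ((ssP X P).st ξ n g).1 x
        rw [h3, ssP_st]
        exact sect_spec g.1 ((List.range n).map ξ) [x]
      · intro x hx u
        change _ = _ ++ (((w.f x : TreeAut X) : Equiv.Perm (List X)) u)
        rw [h2 x hx]
        have e : (((ssP X P).sec ((ssP X P).st ξ n g) x : TP X P) : TreeAut X) =
            sect g.1 ((List.range n).map ξ ++ [x]) := by
          change sect ((ssP X P).st ξ n g).1 [x] = _
          rw [ssP_st, sect_append]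
        rw [e]
        have h4 := sect_spec g.1 ((List.range n).map ξ ++ [x]) u
        rw [List.append_assoc] at h4
        exact h4

end Vale.Agent.P192
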