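import Vale.Agent.P192.H124.CountGroup

/-!
# P192: the countable theorem, short form
-/

namespace Vale.Agent.P192

/-- `f` is the section of `g` at the word `v` -/
def Sec {X : Type} (g : List X → List X) (v : List X) (f : List X → List X) : Prop :=
  ∀ w, g (v ++ w) = g v ++ f w

/-- the prefix of length `n` of the ray `ξ` -/
def pre {X : Type} (ξ : ℕ → X) (n : ℕ) : List X := (List.range n).map ξ

theorem sec_snoc {X : Type} (g : List X → List X) (v : List X) (x : X) (f : List X → List X) :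
    Sec g (v ++ [x]) f ↔ ∀ w, g (v ++ x :: w) = g (v ++ [x]) ++ f w := by
  unfold Sec
  simp only [List.append_assoc, List.cons_append, List.nil_append]

/-- **The countable theorem, group form**, in terms of `Sec` and `pre`. -/
theorem count_short (X : Type) [Finite X] (H : Subgroup (Equiv.Perm (List X)))
    (k2 : ∀ h ∈ H, ∀ v, ∃ k ∈ H, Sec h v k)
    (k3 : ∀ h ∈ H, ∀ ξ : ℕ → X, {f | ∃ n x, x ≠ ξ n ∧ Sec h (pre ξ n ++ [x]) f}.Finite)
    (k4 : FPB H) :
    ∃ C : Subgroup (Equiv.Perm (List X)), FPB C ∧ (∀ g ∈ C, ∀ v, ∃ k ∈ C, Sec g v k) ∧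
      ∀ g : Equiv.Perm (List X), g ∈ C ↔
        (∀ w, (g w).length = w.length) ∧ (∀ v w, g v <+: g (v ++ w)) ∧
        (∀ ξ : ℕ → X, {f | ∃ n x, x ≠ ξ n ∧ Sec g (pre ξ n ++ [x]) f}.Finite) ∧
        {ξ : ℕ → X | ∀ n, ¬ ∃ k ∈ H, Sec g (pre ξ n) k}.Countable := by
  simp only [sec_snoc] at k3 ⊢
  exact count_group X H k2 k3 k4

end Vale.Agent.P192
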