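import Vale.Agent.P192.H124.InfBridge
import Vale.Agent.P192.H124.Short

/-!
# P192: the countable theorem over arbitrary alphabets, explicit form
-/

namespace Vale.Agent.P192

/-- the restriction of `H` to a subgroup of `TP X P` -/
def toTP {X : Type*} (P : Subgroup (Equiv.Perm X)) (H : Subgroup (Equiv.Perm (List X))) :
    Subgroup (TP X P) :=
  (H.subgroupOf (TreeAut X)).subgroupOf (TP X P)

theorem mem_toTP {X : Type*} {P : Subgroup (Equiv.Perm X)} {H : Subgroup (Equiv.Perm (List X))}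
    {g : TP X P} : g ∈ toTP P H ↔ ((g : TreeAut X) : Equiv.Perm (List X)) ∈ H := Iff.rfl

theorem fpb_toTP {X : Type*} {P : Subgroup (Equiv.Perm X)} {H : Subgroup (Equiv.Perm (List X))}
    (hH : FPB H) : FPB (toTP P H) := by
  refine fpb_of_injective (H := H) ((((TreeAut X).subtype.comp (TP X P).subtype).comp
    (toTP P H).subtype).codRestrict H fun x => x.2) ?_ hH
  intro x y hxy
  have h5 := congrArg Subtype.val hxy
  exact Subtype.ext (Subtype.ext (Subtype.ext h5))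

theorem toTP_closed {X : Type*} {P : Subgroup (Equiv.Perm X)}
    {H : Subgroup (Equiv.Perm (List X))}
    (k2 : ∀ h ∈ H, ∀ v, ∃ k ∈ H, ∀ w, h (v ++ w) = h v ++ k w) :
    ∀ h ∈ toTP P H, ∀ x, (ssP X P).sec h x ∈ toTP P H := by
  intro h hh x
  obtain ⟨k, hk, hk2⟩ := k2 _ hh [x]
  rw [mem_toTP]
  have : (((ssP X P).sec h x : TP X P) : TreeAut X) = sect h.1 [x] := rfl
  rw [this, sect_eq_of (g := h.1) (k := k) hk2]
  exact hk

theorem ex_toTP {X : Type*} (P : Subgroup (Equiv.Perm X)) (H : Subgroup (Equiv.Perm (List X)))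
    (g : TP X P) : (ssP X P).ex (toTP P H) g = {ξ : ℕ → X | ∀ n, ¬ ∃ k ∈ H, ∀ w,
      ((g : TreeAut X) : Equiv.Perm (List X)) ((List.range n).map ξ ++ w) =
        ((g : TreeAut X) : Equiv.Perm (List X)) ((List.range n).map ξ) ++ k w} := by
  ext ξ
  constructor
  · rintro h n ⟨k, hk, he⟩
    apply h n
    rw [mem_toTP, ssP_st, sect_eq_of he]
    exact hk
  · intro h n hn
    apply h n
    rw [mem_toTP, ssP_st] at hn
    exact ⟨_, hn, fun w => sect_spec g.1 _ w⟩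

/-- the embedding in the permutations of the words -/
def incl (X : Type*) (P : Subgroup (Equiv.Perm X)) : TP X P →* Equiv.Perm (List X) :=
  (TreeAut X).subtype.comp (TP X P).subtype

theorem incl_injective (X : Type*) (P : Subgroup (Equiv.Perm X)) :
    Function.Injective (incl X P) := fun _ _ h => Subtype.ext (Subtype.ext h)

/-- **The countable theorem over an arbitrary alphabet, group form.** -/
theorem inf_group (X : Type) (P : Subgroup (Equiv.Perm X)) (hP : FPB P)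
    (H : Subgroup (Equiv.Perm (List X)))
    (k2 : ∀ h ∈ H, ∀ v, ∃ k ∈ H, ∀ w, h (v ++ w) = h v ++ k w)
    (k3 : ∀ h ∈ H, ∀ ξ : ℕ → X, ∃ F : Set (Equiv.Perm X × (X → List X → List X)), F.Finite ∧
      (∀ a ∈ F, (Set.range a.2).Finite) ∧ ∀ n, ∃ a ∈ F,
        (∀ x, h ((List.range n).map ξ ++ [x]) = h ((List.range n).map ξ) ++ [a.1 x]) ∧
        ∀ x, x ≠ ξ n → ∀ w,
          h ((List.range n).map ξ ++ x :: w) = h ((List.range n).map ξ ++ [x]) ++ a.2 x w)
    (k4 : FPB H) :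
    ∃ C : Subgroup (Equiv.Perm (List X)), FPB C ∧
      (∀ g ∈ C, ∀ v, ∃ k ∈ C, ∀ w, g (v ++ w) = g v ++ k w) ∧
      ∀ g : Equiv.Perm (List X), g ∈ C ↔
        (∀ v, ∃ p ∈ P, ∀ x, g (v ++ [x]) = g v ++ [p x]) ∧
        (∀ ξ : ℕ → X, ∃ F : Set (Equiv.Perm X × (X → List X → List X)), F.Finite ∧
          (∀ a ∈ F, (Set.range a.2).Finite) ∧ ∀ n, ∃ a ∈ F,
            (∀ x, g ((List.range n).map ξ ++ [x]) = g ((List.range n).map ξ) ++ [a.1 x]) ∧
            ∀ x, x ≠ ξ n → ∀ w,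
              g ((List.range n).map ξ ++ x :: w) = g ((List.range n).map ξ ++ [x]) ++ a.2 x w) ∧
        {ξ : ℕ → X | ∀ n, ¬ ∃ k ∈ H, ∀ w,
          g ((List.range n).map ξ ++ w) = g ((List.range n).map ξ) ++ k w}.Countable := by
  have hc := toTP_closed (P := P) k2
  have hG : (ssP X P).GoodD (toTP P H) :=
    ⟨hc, fun h hh => (FDx_iff P h).1 (k3 _ hh), fpb_toTP k4⟩
  have hD := (ssP X P).goodD_cnt (ssP_faithful P) (ssP_fpb hP) hG
  refine ⟨((ssP X P).cntD (toTP P H) hc).map (incl X P), ?_, ?_, ?_⟩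
  · exact fpb_of_equiv ((((ssP X P).cntD (toTP P H) hc).equivMapOfInjective (incl X P)
      (incl_injective X P)).symm) hD.fpb
  · rintro _ ⟨g, hg, rfl⟩ v
    refine ⟨_, ⟨(ssP X P).secL g v, (ssP X P).secL_mem hD.closed v hg, rfl⟩, fun w => ?_⟩
    have e : incl X P ((ssP X P).secL g v) = (sect g.1 v : Equiv.Perm (List X)) := by
      rw [← ssP_secL]
      rfl
    rw [e]
    exact sect_spec g.1 v w
  · intro g
    constructor
    · rintro ⟨t, ht, rfl⟩
      refine ⟨(mem_TP_iff P _).1 ⟨t, rfl⟩, (FDx_iff P t).2 ht.1, ?_⟩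
      have h := ht.2
      rw [ex_toTP] at h
      exact h
    · rintro ⟨g1, g2, g3⟩
      obtain ⟨t, rfl⟩ := (mem_TP_iff P g).2 g1
      refine ⟨t, ⟨(FDx_iff P t).1 g2, ?_⟩, rfl⟩
      rw [ex_toTP]
      exact g3

/-- **The countable theorem over an arbitrary alphabet, finite-state form.** -/
theorem inf_group_fs (X : Type) (P : Subgroup (Equiv.Perm X)) (hP : FPB P)
    (H : Subgroup (Equiv.Perm (List X)))
    (k2 : ∀ h ∈ H, ∀ v, ∃ k ∈ H, ∀ w, h (v ++ w) = h v ++ k w)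
    (k3 : ∀ h ∈ H, {f : List X → List X | ∃ v, ∀ w, h (v ++ w) = h v ++ f w}.Finite)
    (k4 : FPB H) :
    ∃ C : Subgroup (Equiv.Perm (List X)), FPB C ∧
      (∀ g ∈ C, ∀ v, ∃ k ∈ C, ∀ w, g (v ++ w) = g v ++ k w) ∧
      ∀ g : Equiv.Perm (List X), g ∈ C ↔
        (∀ v, ∃ p ∈ P, ∀ x, g (v ++ [x]) = g v ++ [p x]) ∧
        {f : List X → List X | ∃ v, ∀ w, g (v ++ w) = g v ++ f w}.Finite ∧
        {ξ : ℕ → X | ∀ n, ¬ ∃ k ∈ H, ∀ w,
          g ((List.range n).map ξ ++ w) = g ((List.range n).map ξ) ++ k w}.Countable := by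
  have hc := toTP_closed (P := P) k2
  -- finite-state elements
  have hfs : ∀ t : TP X P,
      {f : List X → List X | ∃ v, ∀ w, ((t : TreeAut X) : Equiv.Perm (List X)) (v ++ w) =
        ((t : TreeAut X) : Equiv.Perm (List X)) v ++ f w}.Finite ↔ t ∈ (ssP X P).fs := by
    intro t
    have hinj : Function.Injective
        (fun s : TP X P => (((s : TreeAut X) : Equiv.Perm (List X)) : List X → List X)) := by
      intro a b hab
      exact Subtype.ext (ta_ext fun w => congrFun hab w)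
    have e : {f : List X → List X | ∃ v, ∀ w, ((t : TreeAut X) : Equiv.Perm (List X)) (v ++ w) =
        ((t : TreeAut X) : Equiv.Perm (List X)) v ++ f w} =
        (fun s : TP X P => (((s : TreeAut X) : Equiv.Perm (List X)) : List X → List X)) ''
          Set.range ((ssP X P).secL t) := by
      ext f
      constructor
      · rintro ⟨v, hv⟩
        refine ⟨_, ⟨v, rfl⟩, ?_⟩
        funext w
        change (((ssP X P).secL t v : TreeAut X) : Equiv.Perm (List X)) w = f w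
        rw [ssP_secL]
        exact List.append_cancel_left ((sect_spec t.1 v w).symm.trans (hv w))
      · rintro ⟨_, ⟨v, rfl⟩, rfl⟩
        refine ⟨v, fun w => ?_⟩
        change _ = _ ++ (((ssP X P).secL t v : TreeAut X) : Equiv.Perm (List X)) w
        rw [ssP_secL]
        exact sect_spec t.1 v w
    rw [e]
    constructor
    · intro h
      exact Set.Finite.of_finite_image h hinj.injOn
    · intro h
      exact Set.Finite.image _ h
  have hG : (ssP X P).GoodD (toTP P H) :=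
    ⟨hc, fun h hh ξ => SS.FD_of_fs ((hfs h).1 (k3 _ hh)) ξ, fpb_toTP k4⟩
  have hD := (ssP X P).goodD_cnt (ssP_faithful P) (ssP_fpb hP) hG
  refine ⟨((ssP X P).cntD (toTP P H) hc ⊓ (ssP X P).fs).map (incl X P), ?_, ?_, ?_⟩
  · exact fpb_of_equiv ((((ssP X P).cntD (toTP P H) hc ⊓ (ssP X P).fs).equivMapOfInjective
      (incl X P) (incl_injective X P)).symm) (fpb_mono inf_le_left hD.fpb)
  · rintro _ ⟨g, hg, rfl⟩ v
    refine ⟨_, ⟨(ssP X P).secL g v, ⟨(ssP X P).secL_mem hD.closed v hg.1,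
      (ssP X P).secL_mem (fun h hh y => (ssP X P).fs_sec hh y) v hg.2⟩, rfl⟩, fun w => ?_⟩
    have e : incl X P ((ssP X P).secL g v) = (sect g.1 v : Equiv.Perm (List X)) := by
      rw [← ssP_secL]
      rfl
    rw [e]
    exact sect_spec g.1 v w
  · intro g
    constructor
    · rintro ⟨t, ht, rfl⟩
      refine ⟨(mem_TP_iff P _).1 ⟨t, rfl⟩, (hfs t).2 ht.2, ?_⟩
      have h := ht.1.2
      rw [ex_toTP] at h
      exact h
    · rintro ⟨g1, g2, g3⟩
      obtain ⟨t, rfl⟩ := (mem_TP_iff P g).2 g1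
      refine ⟨t, ⟨⟨fun ξ => SS.FD_of_fs ((hfs t).1 g2) ξ, ?_⟩, (hfs t).1 g2⟩, rfl⟩
      rw [ex_toTP]
      exact g3

/-- **The countable theorem over an arbitrary alphabet**, short form. -/
theorem inf_short_fs (X : Type) (P : Subgroup (Equiv.Perm X)) (hP : FPB P)
    (H : Subgroup (Equiv.Perm (List X)))
    (k2 : ∀ h ∈ H, ∀ v, ∃ k ∈ H, Sec h v k) (k3 : ∀ h ∈ H, {f | ∃ v, Sec h v f}.Finite)
    (k4 : FPB H) :
    ∃ C : Subgroup (Equiv.Perm (List X)), FPB C ∧ (∀ g ∈ C, ∀ v, ∃ k ∈ C, Sec g v k) ∧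
      ∀ g : Equiv.Perm (List X), g ∈ C ↔
        (∀ v, ∃ p ∈ P, ∀ x, g (v ++ [x]) = g v ++ [p x]) ∧ {f | ∃ v, Sec g v f}.Finite ∧
        {ξ : ℕ → X | ∀ n, ¬ ∃ k ∈ H, Sec g (pre ξ n) k}.Countable :=
  inf_group_fs X P hP H k2 k3 k4

/-- finitely many decorations along the rays -/
def Fdr {X : Type} (g : List X → List X) : Prop :=
  ∀ ξ : ℕ → X, ∃ F : Set (Equiv.Perm X × (X → List X → List X)), F.Finite ∧
    (∀ a ∈ F, (Set.range a.2).Finite) ∧ ∀ n, ∃ a ∈ F,
      (∀ x, g (pre ξ n ++ [x]) = g (pre ξ n) ++ [a.1 x]) ∧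
      ∀ x, x ≠ ξ n → Sec g (pre ξ n ++ [x]) (a.2 x)

/-- **The countable theorem over an arbitrary alphabet**, short form, not only for finite-state
elements. -/
theorem inf_short (X : Type) (P : Subgroup (Equiv.Perm X)) (hP : FPB P)
    (H : Subgroup (Equiv.Perm (List X)))
    (k2 : ∀ h ∈ H, ∀ v, ∃ k ∈ H, Sec h v k) (k3 : ∀ h ∈ H, Fdr h) (k4 : FPB H) :
    ∃ C : Subgroup (Equiv.Perm (List X)), FPB C ∧ (∀ g ∈ C, ∀ v, ∃ k ∈ C, Sec g v k) ∧
      ∀ g : Equiv.Perm (List X), g ∈ C ↔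
        (∀ v, ∃ p ∈ P, ∀ x, g (v ++ [x]) = g v ++ [p x]) ∧ Fdr g ∧
        {ξ : ℕ → X | ∀ n, ¬ ∃ k ∈ H, Sec g (pre ξ n) k}.Countable := by
  unfold Fdr at k3 ⊢
  simp only [sec_snoc] at k3 ⊢
  exact inf_group X P hP H k2 k3 k4

end Vale.Agent.P192
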