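import Vale.Agent.P192.H491.FV

/-!
# P192: infinite alphabets: the quotients by the kernels
-/

namespace Vale.Agent.P192

universe u v w

namespace SS

variable {T : Type u} {Y : Type v} [Group T] (S : SS T Y)

/-- The quotients by the kernels of the iterated wreath recursions, over any alphabet: the group of
the permutations of the letters is in the class and every element has finitely many sections at
the letters. -/
theorem fpb_quot_Kn_inf (hP : FPB S.σ.range) (hfin : ∀ g, (Set.range (S.sec g)).Finite)
    (hT : FPB T) (n : ℕ) : FPB (T ⧸ S.Kn n) := by
  induction n with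
  | zero => exact fpb_of_equiv (QuotientGroup.quotientBot (G := T)) hT
  | succ n ih =>
    let ρ : T ⧸ S.Kn (n + 1) →* Equiv.Perm Y :=
      QuotientGroup.lift (S.Kn (n + 1)) S.σ (fun g hg => hg.1)
    let c : T ⧸ S.Kn (n + 1) → Y → T ⧸ S.Kn n := fun q =>
      Quotient.liftOn' q (fun g y => (QuotientGroup.mk (S.sec g y) : T ⧸ S.Kn n)) (by
        intro a b hab
        have hab' : a⁻¹ * b ∈ S.Kn (n + 1) := QuotientGroup.leftRel_apply.1 hab
        funext y
        rw [QuotientGroup.eq]
        have h1 : b = a * (a⁻¹ * b) := by group
        have h2 : S.sec b y = S.sec a y * S.sec (a⁻¹ * b) y := by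
          conv_lhs => rw [h1]
          rw [S.sec_mul, hab'.1]
          rfl
        rw [h2, inv_mul_cancel_left]
        exact hab'.2 y)
    refine fpb_cocycle ih ρ c ?_ ?_ ?_ ?_
    · intro g h y
      induction g using QuotientGroup.induction_on with
      | H g =>
        induction h using QuotientGroup.induction_on with
        | H h =>
          change (QuotientGroup.mk (S.sec (g * h) y) : T ⧸ S.Kn n) = _
          rw [S.sec_mul]
          rfl
    · intro g
      induction g using QuotientGroup.induction_on with
      | H g =>
        refine ((hfin g).image (fun t => (QuotientGroup.mk t : T ⧸ S.Kn n))).subset ?_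
        rintro _ ⟨y, rfl⟩
        exact ⟨S.sec g y, ⟨y, rfl⟩, rfl⟩
    · intro g h1 h2
      induction g using QuotientGroup.induction_on with
      | H g =>
        rw [QuotientGroup.eq_one_iff]
        refine ⟨h1, fun y => ?_⟩
        exact (QuotientGroup.eq_one_iff _).1 (h2 y)
    · refine fpb_mono ?_ hP
      rintro _ ⟨q, rfl⟩
      induction q using QuotientGroup.induction_on with
      | H g => exact ⟨g, rfl⟩

end SS

end Vale.Agent.P192
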