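import Vale.Agent.P192.H826.PMUnif
import Vale.Agent.P192.H524.Circle

/-!
# P192: piecewise monotone actions modulo finite sets
-/

namespace Vale.Agent.P192.Near

open Filter Set PMUnif PM

section setup

variable {K : Type} [LinearOrder K]

/-- the ultrapower -/
abbrev UK (K : Type) : Type := UP (hyperfilter ℕ) (fun _ : ℕ => K)

/-- the nonstandard elements of the ultrapower -/
def NS (K : Type) : Type := {x : UK K // ∀ a : K, x ≠ mk (hyperfilter ℕ) (fun _ : ℕ => a)}

noncomputable instance : LinearOrder (NS K) :=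
  LinearOrder.lift' (fun x : NS K => (x.1 : UK K)) Subtype.val_injective

omit [LinearOrder K] in
theorem ns_notMem {f : ℕ → K} (hf : ∀ a : K, mk (hyperfilter ℕ) f ≠ mk (hyperfilter ℕ) (fun _ : ℕ => a))
    {E : Set K} (hE : E.Finite) : ∀ᶠ n in (hyperfilter ℕ : Filter ℕ), f n ∉ E := by
  have h1 : ∀ a ∈ E, ∀ᶠ n in (hyperfilter ℕ : Filter ℕ), f n ≠ a := by
    intro a _
    have h2 := hf a
    rw [Ne, mk_eq, ← Ultrafilter.eventually_not] at h2
    exact h2
  have h2 := (Filter.eventually_all_finite hE).2 h1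
  filter_upwards [h2] with n hn h
  exact hn _ h rfl

end setup

/-- **Piecewise monotone actions modulo finite sets.** -/
theorem near_main
    (main : ∀ (K : Type) [LinearOrder K] (G : Subgroup (Equiv.Perm K)),
      (∀ g ∈ G, ∃ P : Set (Set K), P.Finite ∧ (∀ x, ∃ C ∈ P, x ∈ C) ∧ ∀ C ∈ P, Good g C) → FPB G)
    (K : Type) [LinearOrder K] (G : Type) [Group G] (ρ : G → K → K)
    (h1 : {x | ρ 1 x ≠ x}.Finite) (hm : ∀ g h, {x | ρ (g * h) x ≠ ρ g (ρ h x)}.Finite)
    (hpm : ∀ g, ∃ P : Set (Set K), P.Finite ∧ ⋃₀ P = Set.univ ∧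
      ∀ C ∈ P, C.OrdConnected ∧ (MonotoneOn (ρ g) C ∨ AntitoneOn (ρ g) C))
    (hf : ∀ g, {x | ρ g x ≠ x}.Finite → g = 1) : FPB G := by
  let U : Ultrafilter ℕ := hyperfilter ℕ
  -- relations on nonstandard elements
  have e1 : ∀ f : ℕ → K, (∀ a : K, mk U f ≠ mk U (fun _ : ℕ => a)) →
      ∀ᶠ n in (U : Filter ℕ), ρ 1 (f n) = f n := by
    intro f hf'
    filter_upwards [ns_notMem hf' h1] with n hn
    by_contra h
    exact hn h
  have em : ∀ g h, ∀ f : ℕ → K, (∀ a : K, mk U f ≠ mk U (fun _ : ℕ => a)) →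
      ∀ᶠ n in (U : Filter ℕ), ρ (g * h) (f n) = ρ g (ρ h (f n)) := by
    intro g h f hf'
    filter_upwards [ns_notMem hf' (hm g h)] with n hn
    by_contra h
    exact hn h
  let a0 : G → UK K → UK K := fun g => Quotient.map (fun f n => ρ g (f n)) (by
    intro a b h
    have h1 : ∀ᶠ i in (U : Filter ℕ), a i = b i := h
    change ∀ᶠ i in (U : Filter ℕ), ρ g (a i) = ρ g (b i)
    filter_upwards [h1] with i e1
    rw [e1])
  have a0mk : ∀ g (f : ℕ → K), a0 g (mk U f) = mk U (fun n => ρ g (f n)) := fun _ _ => rfl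
  have hns : ∀ g (x : UK K), (∀ a : K, x ≠ mk U (fun _ : ℕ => a)) →
      ∀ a : K, a0 g x ≠ mk U (fun _ : ℕ => a) := by
    intro g x hx a ha
    obtain ⟨f, rfl⟩ := exists_mk U x
    rw [a0mk, mk_eq] at ha
    apply hx (ρ g⁻¹ a)
    rw [mk_eq]
    have h2 := em g⁻¹ g f hx
    rw [inv_mul_cancel] at h2
    filter_upwards [ha, h2, e1 f hx] with n k1 k2 k3
    rw [← k1, ← k2, k3]
  let _ : MulAction G (NS K) :=
    { smul := fun g x => ⟨a0 g x.1, hns g x.1 x.2⟩
      one_smul := by
        rintro ⟨x, hx⟩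
        obtain ⟨f, rfl⟩ := exists_mk U x
        apply Subtype.ext
        change a0 1 (mk U f) = mk U f
        rw [a0mk, mk_eq]
        exact e1 f hx
      mul_smul := by
        rintro g h ⟨x, hx⟩
        obtain ⟨f, rfl⟩ := exists_mk U x
        apply Subtype.ext
        change a0 (g * h) (mk U f) = a0 g (a0 h (mk U f))
        rw [a0mk, a0mk, a0mk, mk_eq]
        exact em g h f hx }
  let φ : G →* Equiv.Perm (NS K) := MulAction.toPermHom G (NS K)
  have hφ : ∀ g (x : NS K), (φ g x).1 = a0 g x.1 := fun _ _ => rfl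
  have hinj : Function.Injective φ := by
    rw [injective_iff_map_eq_one]
    intro g hg
    apply hf
    by_contra hinf
    have hinf' : {x | ρ g x ≠ x}.Infinite := hinf
    let e := hinf'.natEmbedding
    have hns' : ∀ a : K, mk U (fun n => (e n : K)) ≠ mk U (fun _ : ℕ => a) := by
      intro a ha
      rw [mk_eq] at ha
      have h2 : {n | (e n : K) = a}.Finite := by
        refine Set.Subsingleton.finite ?_
        intro m hm n hn
        apply e.injective
        apply Subtype.ext
        have hm' : (e m : K) = a := hm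
        have hn' : (e n : K) = a := hn
        rw [hm', hn']
      exact (Filter.notMem_hyperfilter_of_finite h2) ha
    have h2 := hφ g ⟨_, hns'⟩
    rw [hg] at h2
    have h3 : mk U (fun n => (e n : K)) = mk U (fun n => ρ g (e n)) := h2
    rw [mk_eq] at h3
    obtain ⟨n, hn⟩ := h3.exists
    exact (e n).2 hn.symm
  have hfin : FPB φ.range := by
    refine single main (NS K) φ.range ?_
    rintro _ ⟨g, rfl⟩
    obtain ⟨P, hP, hPc, hP2⟩ := hpm g
    let st : Set K → Set (NS K) := fun C =>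
      {x | ∃ f, mk U f = x.1 ∧ ∀ᶠ i in (U : Filter ℕ), f i ∈ C}
    have hst : ∀ (C : Set K) (f : ℕ → K) (hf' : ∀ a : K, mk U f ≠ mk U (fun _ : ℕ => a)),
        (⟨mk U f, hf'⟩ : NS K) ∈ st C ↔ ∀ᶠ i in (U : Filter ℕ), f i ∈ C := by
      intro C f hf'
      constructor
      · rintro ⟨f', h1, h2⟩
        have h1' : mk U f' = mk U f := h1
        rw [mk_eq] at h1'
        filter_upwards [h1', h2] with i hi h2
        rw [← hi]
        exact h2
      · intro h
        exact ⟨f, rfl, h⟩
    refine ⟨st '' P, hP.image _, ?_, ?_⟩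
    · rw [Set.eq_univ_iff_forall]
      rintro ⟨x, hx⟩
      obtain ⟨f, rfl⟩ := exists_mk U x
      have h2 : ∀ᶠ i in (U : Filter ℕ), ∃ C ∈ P, f i ∈ C := by
        refine Eventually.of_forall fun i => ?_
        have : f i ∈ ⋃₀ P := by rw [hPc]; trivial
        exact this
      have h3 : ∃ C ∈ P, ∀ᶠ i in (U : Filter ℕ), f i ∈ C :=
        (Ultrafilter.eventually_exists_mem_iff hP).1 h2
      obtain ⟨C, hC, h4⟩ := h3
      exact ⟨st C, ⟨C, hC, rfl⟩, (hst C f hx).2 h4⟩
    · rintro _ ⟨C, hC, rfl⟩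
      obtain ⟨hC1, hC2⟩ := hP2 C hC
      refine ⟨⟨?_⟩, ?_⟩
      · rintro ⟨x, hx'⟩ hx ⟨y, hy'⟩ hy ⟨z, hz'⟩ hz
        obtain ⟨f, rfl⟩ := exists_mk U x
        obtain ⟨f', rfl⟩ := exists_mk U y
        obtain ⟨f'', rfl⟩ := exists_mk U z
        replace hx := (hst C f hx').1 hx
        replace hy := (hst C f' hy').1 hy
        refine (hst C f'' hz').2 ?_
        have h1 := (mk_le U).1 hz.1
        have h2 := (mk_le U).1 hz.2
        filter_upwards [hx, hy, h1, h2] with i e1 e2 e3 e4
        exact hC1.out e1 e2 ⟨e3, e4⟩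
      · rcases hC2 with h | h
        · left
          rintro ⟨x, hx'⟩ hx ⟨y, hy'⟩ hy hxy
          obtain ⟨f, rfl⟩ := exists_mk U x
          obtain ⟨f', rfl⟩ := exists_mk U y
          replace hx := (hst C f hx').1 hx
          replace hy := (hst C f' hy').1 hy
          have h1 := (mk_le U).1 hxy
          change mk U (fun n => ρ g (f n)) ≤ mk U (fun n => ρ g (f' n))
          rw [mk_le]
          filter_upwards [hx, hy, h1] with i e1 e2 e3
          exact h e1 e2 e3
        · right
          rintro ⟨x, hx'⟩ hx ⟨y, hy'⟩ hy hxy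
          obtain ⟨f, rfl⟩ := exists_mk U x
          obtain ⟨f', rfl⟩ := exists_mk U y
          replace hx := (hst C f hx').1 hx
          replace hy := (hst C f' hy').1 hy
          have h1 := (mk_le U).1 hxy
          change mk U (fun n => ρ g (f' n)) ≤ mk U (fun n => ρ g (f n))
          rw [mk_le]
          filter_upwards [hx, hy, h1] with i e1 e2 e3
          exact h e1 e2 e3
  exact H524.fpb_of_inj φ.rangeRestrict (MonoidHom.rangeRestrict_injective_iff.2 hinj) hfin

end Vale.Agent.P192.Near
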