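import Vale.Agent.P192.H124.Near

/-!
# P192: piecewise continuous maps of the line and the circle modulo finite sets
-/

namespace Vale.Agent.P192.Near

open Filter Set PMUnif PM H524

theorem real_pieces' (f : ℝ → ℝ) (D : Set ℝ) (hD : D.Finite) (hc : ∀ x, x ∉ D → ContinuousAt f x)
    (hi : InjOn f Dᶜ) :
    ∃ P : Set (Set ℝ), P.Finite ∧ ⋃₀ P = univ ∧
      ∀ C ∈ P, C.OrdConnected ∧ (MonotoneOn f C ∨ AntitoneOn f C) := by
  refine ⟨(fun S : Set ℝ => {x : ℝ | x ∉ D ∧ D ∩ Iio x = S}) '' (𝒫 D) ∪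
    (fun d => {d}) '' D, (hD.finite_subsets.image _).union (hD.image _), ?_, ?_⟩
  · rw [Set.eq_univ_iff_forall]
    intro x
    by_cases hx : x ∈ D
    · exact ⟨{x}, Or.inr ⟨x, hx, rfl⟩, rfl⟩
    · exact ⟨_, Or.inl ⟨D ∩ Iio x, inter_subset_left, rfl⟩, hx, rfl⟩
  · rintro C (⟨S, hS, rfl⟩ | ⟨d, hd, rfl⟩)
    · have hord : {x : ℝ | x ∉ D ∧ D ∩ Iio x = S}.OrdConnected := by
        refine ⟨?_⟩
        rintro x ⟨hx, hx2⟩ y ⟨hy, hy2⟩ z ⟨hxz, hzy⟩
        have key : D ∩ Iio z ⊆ S := by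
          rw [← hy2]
          exact fun w hw => ⟨hw.1, lt_of_lt_of_le hw.2 hzy⟩
        refine ⟨fun hz => ?_, Subset.antisymm key ?_⟩
        · rcases hzy.lt_or_eq with h | h
          · have : z ∈ D ∩ Iio x := by
              rw [hx2, ← hy2]
              exact ⟨hz, h⟩
            exact absurd this.2 (not_lt.2 hxz)
          · rw [h] at hz
            exact hy hz
        · rw [← hx2]
          exact fun w hw => ⟨hw.1, lt_of_lt_of_le hw.2 hxz⟩
      refine ⟨hord, ?_⟩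
      have h := mono_or_anti (f := f) hord
        (fun x hx => (hc x hx.1).continuousWithinAt) (hi.mono (fun x hx => hx.1))
      exact h.imp (fun h => h.monotoneOn) (fun h => h.antitoneOn)
    · refine ⟨ordConnected_singleton, Or.inl ?_⟩
      intro x hx y hy hxy
      rw [mem_singleton_iff] at hx hy
      rw [hx, hy]

/-- **The line, modulo finite sets.** -/
theorem near_real
    (main : ∀ (K : Type) [LinearOrder K] (G : Subgroup (Equiv.Perm K)),
      (∀ g ∈ G, ∃ P : Set (Set K), P.Finite ∧ (∀ x, ∃ C ∈ P, x ∈ C) ∧ ∀ C ∈ P, Good g C) → FPB G)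
    (G : Type) [Group G] (ρ : G → ℝ → ℝ)
    (h1 : {x | ρ 1 x ≠ x}.Finite) (hm : ∀ g h, {x | ρ (g * h) x ≠ ρ g (ρ h x)}.Finite)
    (hc : ∀ g, {x | ¬ ContinuousAt (ρ g) x}.Finite)
    (hf : ∀ g, {x | ρ g x ≠ x}.Finite → g = 1) : FPB G := by
  refine near_main main ℝ G ρ h1 hm (fun g => ?_) hf
  refine real_pieces' (ρ g) ({x | ¬ ContinuousAt (ρ g) x} ∪
    ({x | ρ (g⁻¹ * g) x ≠ ρ g⁻¹ (ρ g x)} ∪ {x | ρ 1 x ≠ x}))
    ((hc g).union ((hm g⁻¹ g).union h1)) ?_ ?_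
  · intro x hx
    by_contra h
    exact hx (Or.inl h)
  · have key : ∀ x, x ∈ ({x | ¬ ContinuousAt (ρ g) x} ∪
        ({x | ρ (g⁻¹ * g) x ≠ ρ g⁻¹ (ρ g x)} ∪ {x | ρ 1 x ≠ x}))ᶜ → ρ g⁻¹ (ρ g x) = x := by
      intro x hx
      have h2 : ρ (g⁻¹ * g) x = ρ g⁻¹ (ρ g x) := by
        by_contra h
        exact hx (Or.inr (Or.inl h))
      have h3 : ρ 1 x = x := by
        by_contra h
        exact hx (Or.inr (Or.inr h))
      rw [← h2, inv_mul_cancel, h3]
    intro x hx y hy hxy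
    rw [← key x hx, ← key y hy, hxy]

/-- the circle cut open -/
noncomputable def cut (f : AddCircle (1 : ℝ) → AddCircle (1 : ℝ)) (x : ℝ) : ℝ :=
  open Classical in
  if x ∈ Ico (0 : ℝ) (0 + 1) then (AddCircle.equivIco (1 : ℝ) 0 (f (x : AddCircle (1 : ℝ))) : ℝ)
    else x

theorem cut_mem (f : AddCircle (1 : ℝ) → AddCircle (1 : ℝ)) {x : ℝ}
    (hx : x ∈ Ico (0 : ℝ) (0 + 1)) :
    cut f x = (AddCircle.equivIco (1 : ℝ) 0 (f (x : AddCircle (1 : ℝ))) : ℝ) := by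
  unfold cut
  rw [if_pos hx]

theorem cut_not (f : AddCircle (1 : ℝ) → AddCircle (1 : ℝ)) {x : ℝ}
    (hx : x ∉ Ico (0 : ℝ) (0 + 1)) : cut f x = x := by
  unfold cut
  rw [if_neg hx]

theorem fin_pull {E : Set (AddCircle (1 : ℝ))} (hE : E.Finite) :
    ({x : ℝ | x ∈ Ico (0 : ℝ) (0 + 1) ∧ (x : AddCircle (1 : ℝ)) ∈ E}).Finite := by
  refine Finite.of_finite_image (hE.subset ?_) (f := fun x : ℝ => (x : AddCircle (1 : ℝ))) ?_
  · rintro _ ⟨x, hx, rfl⟩
    exact hx.2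
  · intro x hx y hy hxy
    have h1 := congrArg Subtype.val (AddCircle.equivIco_coe_eq (p := (1 : ℝ)) (a := 0) hx.1)
    have h2 := congrArg Subtype.val (AddCircle.equivIco_coe_eq (p := (1 : ℝ)) (a := 0) hy.1)
    have h3 : (x : AddCircle (1 : ℝ)) = (y : AddCircle (1 : ℝ)) := hxy
    have h4 := congrArg (fun z => (AddCircle.equivIco (1 : ℝ) 0 z : ℝ)) h3
    exact h1.symm.trans (h4.trans h2)

theorem coe_cut (f : AddCircle (1 : ℝ) → AddCircle (1 : ℝ)) {x : ℝ}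
    (hx : x ∈ Ico (0 : ℝ) (0 + 1)) :
    ((cut f x : ℝ) : AddCircle (1 : ℝ)) = f (x : AddCircle (1 : ℝ)) := by
  rw [cut_mem f hx]
  exact (AddCircle.equivIco (1 : ℝ) 0).symm_apply_apply _

theorem cut_mem' (f : AddCircle (1 : ℝ) → AddCircle (1 : ℝ)) {x : ℝ}
    (hx : x ∈ Ico (0 : ℝ) (0 + 1)) : cut f x ∈ Ico (0 : ℝ) (0 + 1) := by
  rw [cut_mem f hx]
  exact (AddCircle.equivIco (1 : ℝ) 0 (f (x : AddCircle (1 : ℝ)))).2

theorem cut_finite (f : AddCircle (1 : ℝ) → AddCircle (1 : ℝ))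
    (hg : {x | ¬ ContinuousAt f x}.Finite) (hz : {x | f x = 0}.Finite) :
    {x | ¬ ContinuousAt (cut f) x}.Finite := by
  have hfin := fin_pull (hg.union hz)
  refine (hfin.union (finite_singleton (0 : ℝ) |>.union (finite_singleton (1 : ℝ)))).subset ?_
  intro x hx
  by_contra hcon
  simp only [mem_union, not_or, mem_ofPred_eq, mem_singleton_iff] at hcon
  obtain ⟨h1, h0, h1'⟩ := hcon
  apply hx
  by_cases hm : x ∈ Ioo (0 : ℝ) 1
  · have hm' : x ∈ Ico (0 : ℝ) (0 + 1) := ⟨hm.1.le, by rw [zero_add]; exact hm.2⟩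
    have h2 : ContinuousAt f (x : AddCircle (1 : ℝ)) := by
      by_contra h
      exact h1 ⟨hm', Or.inl h⟩
    have h3 : f (x : AddCircle (1 : ℝ)) ≠ ((0 : ℝ) : AddCircle (1 : ℝ)) := by
      intro h
      exact h1 ⟨hm', Or.inr h⟩
    have h4 : ContinuousAt (fun y : ℝ =>
        (AddCircle.equivIco (1 : ℝ) 0 (f (y : AddCircle (1 : ℝ))) : ℝ)) x := by
      have h5 : ContinuousAt (fun z => (AddCircle.equivIco (1 : ℝ) 0 z : ℝ))
          (f (x : AddCircle (1 : ℝ))) :=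
        continuousAt_subtype_val.comp (AddCircle.continuousAt_equivIco (1 : ℝ) 0 h3)
      have h6 : ContinuousAt (fun y : ℝ => f (y : AddCircle (1 : ℝ))) x :=
        ContinuousAt.comp (f := fun y : ℝ => (y : AddCircle (1 : ℝ))) h2
          (AddCircle.continuous_mk' (1 : ℝ)).continuousAt
      exact ContinuousAt.comp (f := fun y : ℝ => f (y : AddCircle (1 : ℝ))) h5 h6
    refine h4.congr ?_
    filter_upwards [isOpen_Ioo.mem_nhds hm] with y hy
    exact (cut_mem f ⟨hy.1.le, by rw [zero_add]; exact hy.2⟩).symm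
  · have hopen : IsOpen (Icc (0 : ℝ) 1)ᶜ := isClosed_Icc.isOpen_compl
    have hxm : x ∈ (Icc (0 : ℝ) 1)ᶜ := by
      intro h
      exact hm ⟨lt_of_le_of_ne h.1 (Ne.symm h0), lt_of_le_of_ne h.2 h1'⟩
    refine continuousAt_id.congr ?_
    filter_upwards [hopen.mem_nhds hxm] with y hy
    refine (cut_not f fun h => hy ⟨h.1, ?_⟩).symm
    have := h.2
    rw [zero_add] at this
    exact this.le

/-- **The circle, modulo finite sets.** -/
theorem near_circle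
    (main : ∀ (K : Type) [LinearOrder K] (G : Subgroup (Equiv.Perm K)),
      (∀ g ∈ G, ∃ P : Set (Set K), P.Finite ∧ (∀ x, ∃ C ∈ P, x ∈ C) ∧ ∀ C ∈ P, Good g C) → FPB G)
    (G : Type) [Group G] (ρ : G → AddCircle (1 : ℝ) → AddCircle (1 : ℝ))
    (h1 : {x | ρ 1 x ≠ x}.Finite) (hm : ∀ g h, {x | ρ (g * h) x ≠ ρ g (ρ h x)}.Finite)
    (hc : ∀ g, {x | ¬ ContinuousAt (ρ g) x}.Finite)
    (hf : ∀ g, {x | ρ g x ≠ x}.Finite → g = 1) : FPB G := by
  refine near_real main G (fun g => cut (ρ g)) ?_ ?_ ?_ ?_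
  · refine (fin_pull h1).subset ?_
    intro x hx
    have hx' : cut (ρ 1) x ≠ x := hx
    by_cases h : x ∈ Ico (0 : ℝ) (0 + 1)
    · refine ⟨h, fun h2 => hx' ?_⟩
      rw [cut_mem _ h, h2]
      exact congrArg Subtype.val (AddCircle.equivIco_coe_eq (p := (1 : ℝ)) (a := 0) h)
    · exact absurd (cut_not _ h) hx'
  · intro g h
    refine (fin_pull (hm g h)).subset ?_
    intro x hx
    have hx' : cut (ρ (g * h)) x ≠ cut (ρ g) (cut (ρ h) x) := hx
    by_cases hI : x ∈ Ico (0 : ℝ) (0 + 1)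
    · refine ⟨hI, fun h2 => hx' ?_⟩
      rw [cut_mem _ hI, h2, cut_mem _ (cut_mem' _ hI), coe_cut _ hI]
    · exact absurd (by rw [cut_not _ hI, cut_not _ hI, cut_not _ hI]) hx'
  · intro g
    refine cut_finite (ρ g) (hc g) ?_
    refine (((hm g⁻¹ g).union h1).union (finite_singleton (ρ g⁻¹ 0))).subset ?_
    intro x hx
    have hx' : ρ g x = 0 := hx
    by_contra hcon
    simp only [mem_union, not_or, mem_ofPred_eq, mem_singleton_iff, not_not] at hcon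
    obtain ⟨⟨h2, h3⟩, h4⟩ := hcon
    apply h4
    rw [← hx', ← h2, inv_mul_cancel, h3]
  · intro g hg
    apply hf
    refine (hg.image (fun x : ℝ => (x : AddCircle (1 : ℝ)))).subset ?_
    intro y hy
    have hI : ((AddCircle.equivIco (1 : ℝ) 0 y : ℝ)) ∈ Ico (0 : ℝ) (0 + 1) :=
      (AddCircle.equivIco (1 : ℝ) 0 y).2
    have hy2 : (((AddCircle.equivIco (1 : ℝ) 0 y : ℝ)) : AddCircle (1 : ℝ)) = y :=
      (AddCircle.equivIco (1 : ℝ) 0).symm_apply_apply y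
    refine ⟨(AddCircle.equivIco (1 : ℝ) 0 y : ℝ), ?_, hy2⟩
    intro h
    apply hy
    have h2 := congrArg (fun x : ℝ => (x : AddCircle (1 : ℝ))) h
    have h3 := coe_cut (ρ g) hI
    rw [hy2] at h3
    exact h3.symm.trans (h2.trans hy2)

end Vale.Agent.P192.Near
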