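import Vale.Agent.P192.H124.PMDefs

/-!
# P192: piecewise monotone bijections of linear orders: good maps, invariant ideals
-/

namespace Vale.Agent.P192.PM

open Set

variable {K : Type} [LinearOrder K]

theorem good_mono {g : K → K} {A B : Set K} (h : Good g A) (hBA : B ⊆ A) (hB : B.OrdConnected) :
    Good g B := by
  obtain ⟨hA, hgA, hm⟩ := h
  refine ⟨hB, ⟨?_⟩, ?_⟩
  · rintro _ ⟨a, ha, rfl⟩ _ ⟨b, hb, rfl⟩ w hw
    obtain ⟨c, hc, rfl⟩ := hgA.out ⟨a, hBA ha, rfl⟩ ⟨b, hBA hb, rfl⟩ hw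
    rcases hm with hm | hm
    · have h1 := (hm.le_iff_le (hBA ha) hc).1 hw.1
      have h2 := (hm.le_iff_le hc (hBA hb)).1 hw.2
      exact ⟨c, hB.out ha hb ⟨h1, h2⟩, rfl⟩
    · have h1 := (hm.le_iff_ge (hBA ha) hc).1 hw.1
      have h2 := (hm.le_iff_ge hc (hBA hb)).1 hw.2
      exact ⟨c, hB.out hb ha ⟨h2, h1⟩, rfl⟩
  · rcases hm with hm | hm
    · exact Or.inl (hm.mono hBA)
    · exact Or.inr (hm.mono hBA)

theorem good_comp {g h : K → K} {A : Set K} (hh : Good h A) (hg : Good g (h '' A)) :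
    Good (fun x => g (h x)) A := by
  refine ⟨hh.1, ?_, ?_⟩
  · have e : (fun x => g (h x)) '' A = g '' (h '' A) := by
      rw [Set.image_image]
    rw [e]
    exact hg.2.1
  · rcases hh.2.2 with h1 | h1 <;> rcases hg.2.2 with h2 | h2
    · exact Or.inl fun a ha b hb hab => h2 ⟨a, ha, rfl⟩ ⟨b, hb, rfl⟩ (h1 ha hb hab)
    · exact Or.inr fun a ha b hb hab => h2 ⟨a, ha, rfl⟩ ⟨b, hb, rfl⟩ (h1 ha hb hab)
    · exact Or.inr fun a ha b hb hab => h2 ⟨b, hb, rfl⟩ ⟨a, ha, rfl⟩ (h1 ha hb hab)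
    · exact Or.inl fun a ha b hb hab => h2 ⟨b, hb, rfl⟩ ⟨a, ha, rfl⟩ (h1 ha hb hab)

theorem good_inv {g g' : K → K} {A : Set K} (h : Good g A) (hl : ∀ x, g' (g x) = x) :
    Good g' (g '' A) := by
  have e : g' '' (g '' A) = A := by
    rw [Set.image_image]
    simp [hl]
  refine ⟨h.2.1, by rw [e]; exact h.1, ?_⟩
  rcases h.2.2 with hm | hm
  · refine Or.inl ?_
    rintro _ ⟨a, ha, rfl⟩ _ ⟨b, hb, rfl⟩ hab
    rw [hl, hl]
    exact (hm.lt_iff_lt ha hb).1 hab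
  · refine Or.inr ?_
    rintro _ ⟨a, ha, rfl⟩ _ ⟨b, hb, rfl⟩ hab
    rw [hl, hl]
    exact (hm.lt_iff_gt ha hb).1 hab

theorem good_preimage {g : K → K} {A J : Set K} (h : Good g A) (hJ : J.OrdConnected) :
    {x | x ∈ A ∧ g x ∈ J}.OrdConnected := by
  refine ⟨?_⟩
  rintro a ⟨ha, hga⟩ b ⟨hb, hgb⟩ c hc
  have hcA := h.1.out ha hb hc
  refine ⟨hcA, ?_⟩
  rcases h.2.2 with hm | hm
  · exact hJ.out hga hgb ⟨(hm.le_iff_le ha hcA).2 hc.1, (hm.le_iff_le hcA hb).2 hc.2⟩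
  · exact hJ.out hgb hga ⟨(hm.le_iff_ge hb hcA).2 hc.2, (hm.le_iff_ge hcA ha).2 hc.1⟩

/-- the complement of a finite union of convex sets is a finite union of convex sets -/
theorem compl_cover (U : Set (Set K)) (hU : U.Finite) (hc : ∀ A ∈ U, A.OrdConnected) :
    ∃ V : Set (Set K), V.Finite ∧ (∀ A ∈ V, A.OrdConnected) ∧
      ∀ x, (∃ A ∈ V, x ∈ A) ↔ ¬ ∃ A ∈ U, x ∈ A := by
  induction U, hU using Set.Finite.induction_on with
  | empty =>
    refine ⟨{univ}, Set.finite_singleton _, ?_, ?_⟩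
    · rintro A rfl
      exact Set.ordConnected_univ
    · intro x
      simp
  | @insert A U hA hU ih =>
    obtain ⟨V, hV, hVc, hVe⟩ := ih (fun B hB => hc B (Set.mem_insert_of_mem _ hB))
    have hAc := hc A (Set.mem_insert _ _)
    let L : Set K := {x | ∀ u ∈ A, x < u}
    let R : Set K := {x | ∀ u ∈ A, u < x}
    have hL : L.OrdConnected := ⟨fun a _ b hb c hc u hu => hc.2.trans_lt (hb u hu)⟩
    have hR : R.OrdConnected := ⟨fun a ha b _ c hc u hu => (ha u hu).trans_le hc.1⟩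
    have hLR : ∀ x, x ∉ A ↔ x ∈ L ∨ x ∈ R := by
      intro x
      constructor
      · intro hx
        by_contra hne
        rw [not_or] at hne
        obtain ⟨h1, h2⟩ := hne
        simp only [L, R, Set.mem_setOf_eq, not_forall, not_lt] at h1 h2
        obtain ⟨u, hu, hux⟩ := h1
        obtain ⟨v, hv, hxv⟩ := h2
        exact hx (hAc.out hu hv ⟨hux, hxv⟩)
      · rintro (h | h) hx
        · exact lt_irrefl _ (h x hx)
        · exact lt_irrefl _ (h x hx)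
    refine ⟨((fun B => B ∩ L) '' V) ∪ ((fun B => B ∩ R) '' V), (hV.image _).union (hV.image _),
      ?_, ?_⟩
    · rintro _ (⟨B, hB, rfl⟩ | ⟨B, hB, rfl⟩)
      · exact (hVc B hB).inter hL
      · exact (hVc B hB).inter hR
    · intro x
      constructor
      · rintro ⟨_, (⟨B, hB, rfl⟩ | ⟨B, hB, rfl⟩), hx⟩ ⟨C, hC, hxC⟩
        · rcases Set.mem_insert_iff.1 hC with rfl | hC
          · exact (hLR x).2 (Or.inl hx.2) hxC
          · exact (hVe x).1 ⟨B, hB, hx.1⟩ ⟨C, hC, hxC⟩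
        · rcases Set.mem_insert_iff.1 hC with rfl | hC
          · exact (hLR x).2 (Or.inr hx.2) hxC
          · exact (hVe x).1 ⟨B, hB, hx.1⟩ ⟨C, hC, hxC⟩
      · intro hx
        have h1 : x ∉ A := fun h => hx ⟨A, Set.mem_insert _ _, h⟩
        have h2 : ¬ ∃ C ∈ U, x ∈ C := fun ⟨C, hC, h⟩ => hx ⟨C, Set.mem_insert_of_mem _ hC, h⟩
        obtain ⟨B, hB, hxB⟩ := (hVe x).2 h2
        rcases (hLR x).1 h1 with h | h
        · exact ⟨B ∩ L, Or.inl ⟨B, hB, rfl⟩, hxB, h⟩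
        · exact ⟨B ∩ R, Or.inr ⟨B, hB, rfl⟩, hxB, h⟩

section action

variable {Γ : Type} [Group Γ] [MulAction Γ K]

/-- image -/
def im (γ : Γ) (A : Set K) : Set K := (fun y => γ • y) '' A

/-- good group elements -/
def Gd (γ : Γ) (A : Set K) : Prop := Good (fun y => γ • y) A

theorem im_mul (γ δ : Γ) (A : Set K) : im (γ * δ) A = im γ (im δ A) := by
  unfold im
  rw [Set.image_image]
  simp only [mul_smul]

theorem im_one (A : Set K) : im (1 : Γ) A = A := by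
  unfold im
  simp

theorem im_inv_im (γ : Γ) (A : Set K) : im γ⁻¹ (im γ A) = A := by
  rw [← im_mul, inv_mul_cancel, im_one]

theorem im_im_inv (γ : Γ) (A : Set K) : im γ (im γ⁻¹ A) = A := by
  rw [← im_mul, mul_inv_cancel, im_one]

theorem im_mono (γ : Γ) {A B : Set K} (h : A ⊆ B) : im γ A ⊆ im γ B := Set.image_mono h

theorem im_union (γ : Γ) (A B : Set K) : im γ (A ∪ B) = im γ A ∪ im γ B := Set.image_union _ _ _

theorem im_disjoint (γ : Γ) {A B : Set K} (h : Disjoint A B) : Disjoint (im γ A) (im γ B) :=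
  (Set.disjoint_image_iff (MulAction.injective γ)).2 h

theorem im_injective (γ : Γ) : Function.Injective (im γ : Set K → Set K) := by
  intro A B h
  rw [← im_inv_im γ A, h, im_inv_im]

theorem mem_im {γ : Γ} {A : Set K} {x : K} : x ∈ im γ A ↔ γ⁻¹ • x ∈ A := by
  constructor
  · rintro ⟨a, ha, rfl⟩
    change γ⁻¹ • γ • a ∈ A
    rwa [inv_smul_smul]
  · intro h
    exact ⟨_, h, smul_inv_smul γ x⟩

theorem Gd.mono {γ : Γ} {A B : Set K} (h : Gd γ A) (hBA : B ⊆ A) (hB : B.OrdConnected) :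
    Gd γ B := good_mono h hBA hB

theorem Gd.mul {γ δ : Γ} {A : Set K} (h : Gd δ A) (h' : Gd γ (im δ A)) : Gd (γ * δ) A := by
  have := good_comp h h'
  unfold Gd
  simp only [mul_smul]
  exact this

theorem Gd.inv {γ : Γ} {A : Set K} (h : Gd γ A) : Gd γ⁻¹ (im γ A) :=
  good_inv h (fun x => inv_smul_smul γ x)

theorem Gd.one {A : Set K} (h : A.OrdConnected) : Gd (1 : Γ) A := by
  refine ⟨h, ?_, Or.inl ?_⟩
  · change (im (1 : Γ) A).OrdConnected
    rw [im_one]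
    exact h
  · intro a _ b _ hab
    change (1 : Γ) • a < (1 : Γ) • b
    rw [one_smul, one_smul]
    exact hab

/-- the key lemma -/
theorem im_eq_of_subset {γ : Γ} (ht : IsOfFinOrder γ) {J : Set K} (h : im γ J ⊆ J) :
    im γ J = J := by
  have hpow : ∀ n : ℕ, im (γ ^ n) J ⊆ J := by
    intro n
    induction n with
    | zero => rw [pow_zero, im_one]
    | succ n ih =>
      rw [pow_succ', im_mul]
      exact (im_mono γ ih).trans h
  obtain ⟨n, hn, hn1⟩ := isOfFinOrder_iff_pow_eq_one.1 ht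
  apply Set.Subset.antisymm h
  obtain ⟨m, rfl⟩ := Nat.exists_eq_succ_of_ne_zero hn.ne'
  have h2 : im γ (im (γ ^ m) J) = J := by
    rw [← im_mul, ← pow_succ', hn1, im_one]
  calc J = im γ (im (γ ^ m) J) := h2.symm
    _ ⊆ im γ J := im_mono γ (hpow m)

/-- bounded orbits -/
def BdOrb (Γ : Type) [Group Γ] [MulAction Γ K] (A : Set K) : Prop :=
  ∃ n : ℕ, ∀ x ∈ A, (MulAction.orbit Γ x).encard ≤ n

/-- invariant proper ideals containing the sets with bounded orbits -/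
structure IsII (Γ : Type) [Group Γ] [MulAction Γ K] (I : Set (Set K)) : Prop where
  sub : ∀ A ∈ I, ∀ B ⊆ A, B ∈ I
  union : ∀ A ∈ I, ∀ B ∈ I, A ∪ B ∈ I
  inv : ∀ A ∈ I, ∀ γ : Γ, im γ A ∈ I
  bd : ∀ A : Set K, BdOrb Γ A → A ∈ I
  proper : Set.univ ∉ I

theorem exists_maximal (h : ¬ BdOrb Γ (Set.univ : Set K)) :
    ∃ I : Set (Set K), IsII Γ I ∧ ∀ A, A ∉ I → ∃ C ∈ I, ∃ T : Finset Γ,
      ∀ x, x ∈ C ∨ ∃ γ ∈ T, x ∈ im γ A := by
  have h0 : IsII Γ {A : Set K | BdOrb Γ A} := by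
    refine ⟨?_, ?_, ?_, fun A hA => hA, h⟩
    · rintro A ⟨n, hn⟩ B hB
      exact ⟨n, fun x hx => hn x (hB hx)⟩
    · rintro A ⟨n, hn⟩ B ⟨m, hm⟩
      refine ⟨max n m, ?_⟩
      rintro x (hx | hx)
      · exact (hn x hx).trans (by exact_mod_cast le_max_left n m)
      · exact (hm x hx).trans (by exact_mod_cast le_max_right n m)
    · rintro A ⟨n, hn⟩ γ
      refine ⟨n, ?_⟩
      rintro _ ⟨x, hx, rfl⟩
      change (MulAction.orbit Γ (γ • x)).encard ≤ n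
      rw [MulAction.orbit_smul]
      exact hn x hx
  obtain ⟨I, -, hI⟩ := zorn_subset_nonempty {I : Set (Set K) | IsII Γ I} (by
    intro c hc hch hne
    refine ⟨⋃₀ c, ⟨?_, ?_, ?_, ?_, ?_⟩, fun s hs => Set.subset_sUnion_of_mem hs⟩
    · rintro A ⟨s, hs, hA⟩ B hB
      exact ⟨s, hs, (hc hs).sub A hA B hB⟩
    · rintro A ⟨s, hs, hA⟩ B ⟨t, ht, hB⟩
      rcases hch.total hs ht with hst | hst
      · exact ⟨t, ht, (hc ht).union A (hst hA) B hB⟩
      · exact ⟨s, hs, (hc hs).union A hA B (hst hB)⟩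
    · rintro A ⟨s, hs, hA⟩ γ
      exact ⟨s, hs, (hc hs).inv A hA γ⟩
    · intro A hA
      obtain ⟨s, hs⟩ := hne
      exact ⟨s, hs, (hc hs).bd A hA⟩
    · rintro ⟨s, hs, hA⟩
      exact (hc hs).proper hA) _ h0
  refine ⟨I, hI.1, ?_⟩
  intro A hA
  have hII := hI.1
  by_contra hne
  have hempty : (∅ : Set K) ∈ I := hII.bd ∅ ⟨0, fun x hx => hx.elim⟩
  let I' : Set (Set K) := {B | ∃ C ∈ I, ∃ T : Finset Γ, ∀ x ∈ B, x ∈ C ∨ ∃ γ ∈ T, x ∈ im γ A}
  have hI' : IsII Γ I' := by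
    classical
    refine ⟨?_, ?_, ?_, ?_, ?_⟩
    · rintro B ⟨C, hC, T, hT⟩ B' hB'
      exact ⟨C, hC, T, fun x hx => hT x (hB' hx)⟩
    · rintro B ⟨C, hC, T, hT⟩ B' ⟨C', hC', T', hT'⟩
      refine ⟨C ∪ C', hII.union C hC C' hC', T ∪ T', ?_⟩
      rintro x (hx | hx)
      · rcases hT x hx with h | ⟨γ, hγ, h⟩
        · exact Or.inl (Or.inl h)
        · exact Or.inr ⟨γ, Finset.mem_union_left _ hγ, h⟩
      · rcases hT' x hx with h | ⟨γ, hγ, h⟩
        · exact Or.inl (Or.inr h)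
        · exact Or.inr ⟨γ, Finset.mem_union_right _ hγ, h⟩
    · rintro B ⟨C, hC, T, hT⟩ δ
      refine ⟨im δ C, hII.inv C hC δ, T.image (fun γ => δ * γ), ?_⟩
      rintro _ ⟨x, hx, rfl⟩
      rcases hT x hx with h | ⟨γ, hγ, h⟩
      · exact Or.inl ⟨x, h, rfl⟩
      · refine Or.inr ⟨δ * γ, Finset.mem_image_of_mem _ hγ, ?_⟩
        rw [im_mul]
        exact ⟨x, h, rfl⟩
    · intro B hB
      exact ⟨B, hII.bd B hB, ∅, fun x hx => Or.inl hx⟩
    · rintro ⟨C, hC, T, hT⟩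
      exact hne ⟨C, hC, T, fun x => hT x trivial⟩
  have hle : I ⊆ I' := fun B hB => ⟨B, hB, ∅, fun x hx => Or.inl hx⟩
  have hge : I' ⊆ I := hI.2 hI' hle
  apply hA
  apply hge
  refine ⟨∅, hempty, {1}, fun x hx => Or.inr ⟨1, Finset.mem_singleton_self _, ?_⟩⟩
  rw [im_one]
  exact hx

/-- a finite union of sets of the ideal -/
theorem IsII.of_cover {I : Set (Set K)} (hI : IsII Γ I) {A : Set K} {V : Set (Set K)}
    (hV : V.Finite) (hVI : ∀ B ∈ V, A ∩ B ∈ I) (hc : ∀ x ∈ A, ∃ B ∈ V, x ∈ B) : A ∈ I := by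
  have h : ∀ V : Set (Set K), V.Finite → (∀ B ∈ V, A ∩ B ∈ I) → {x | x ∈ A ∧ ∃ B ∈ V, x ∈ B} ∈ I := by
    intro V hV
    induction V, hV using Set.Finite.induction_on with
    | empty =>
      intro _
      refine hI.bd _ ⟨0, ?_⟩
      rintro x ⟨-, B, hB, -⟩
      exact hB.elim
    | @insert B V _ _ ih =>
      intro h
      refine hI.sub _ (hI.union _ (h B (Set.mem_insert _ _)) _
        (ih (fun C hC => h C (Set.mem_insert_of_mem _ hC)))) _ ?_
      rintro x ⟨hx, C, hC, hxC⟩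
      rcases Set.mem_insert_iff.1 hC with rfl | hC
      · exact Or.inl ⟨hx, hxC⟩
      · exact Or.inr ⟨hx, C, hC, hxC⟩
  exact hI.sub _ (h V hV hVI) _ (fun x hx => ⟨hx, hc x hx⟩)

end action

end Vale.Agent.P192.PM
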