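import Vale.Agent.P192.H124.PMPack

/-!
# P192: piecewise monotone bijections of linear orders: packings are unbounded
-/

namespace Vale.Agent.P192.PM

open Set Classical

variable {K : Type} [LinearOrder K] {Γ : Type} [Group Γ] [MulAction Γ K]
variable {I : Set (Set K)} (hI : Std Γ I)

include hI

theorem Std.piece (δ : Γ) {J : Set K} (hJ : J ∉ I) (hJc : J.OrdConnected) :
    ∃ J' ⊆ J, J'.OrdConnected ∧ J' ∉ I ∧ Gd δ J' := by
  obtain ⟨P, hP, hPc, hPg⟩ := hI.pm δ
  by_contra hne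
  apply hJ
  refine hI.ii.of_cover hP ?_ (fun x _ => hPc x)
  intro B hB
  by_contra hBI
  have hc : (J ∩ B).OrdConnected := hJc.inter (hPg B hB).1
  exact hne ⟨J ∩ B, Set.inter_subset_left, hc, hBI, (hPg B hB).mono Set.inter_subset_right hc⟩

theorem Std.avoid {J : Set K} (hJ : J ∉ I) (hJc : J.OrdConnected) {U : Set (Set K)}
    (hU : U.Finite) (hUc : ∀ A ∈ U, A.OrdConnected) (hUI : ∀ A ∈ U, J ∩ A ∈ I) :
    ∃ J' ⊆ J, J'.OrdConnected ∧ J' ∉ I ∧ ∀ A ∈ U, ∀ x ∈ J', x ∉ A := by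
  obtain ⟨V, hV, hVc, hVe⟩ := compl_cover U hU hUc
  by_contra hne
  apply hJ
  refine hI.ii.of_cover (hU.union hV) ?_ ?_
  · rintro B (hB | hB)
    · exact hUI B hB
    · by_contra hBI
      refine hne ⟨J ∩ B, Set.inter_subset_left, hJc.inter (hVc B hB), hBI, ?_⟩
      intro A hA x hx hxA
      exact (hVe x).1 ⟨B, hB, hx.2⟩ ⟨A, hA, hxA⟩
  · intro x _
    by_cases hx : ∃ A ∈ U, x ∈ A
    · obtain ⟨A, hA, hxA⟩ := hx
      exact ⟨A, Or.inl hA, hxA⟩
    · obtain ⟨A, hA, hxA⟩ := (hVe x).2 hx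
      exact ⟨A, Or.inr hA, hxA⟩

theorem Std.nonempty {J : Set K} (hJ : J ∉ I) : J.Nonempty := by
  rw [Set.nonempty_iff_ne_empty]
  rintro rfl
  exact hJ hI.empty

omit hI in
/-- families of disjoint translates are packings -/
theorem pk_of_family {ι : Type} (s : Finset ι) (h : ι → Γ) {J : Set K} (hJ : J.Nonempty)
    (hg : ∀ i ∈ s, Gd (h i) J)
    (hd : ∀ i ∈ s, ∀ j ∈ s, i ≠ j → Disjoint (im (h i) J) (im (h j) J)) :
    ∃ T, Pk Γ J univ T ∧ T.card = s.card := by
  refine ⟨s.image (fun i => im (h i) J), ⟨?_, ?_⟩, ?_⟩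
  · intro X hX
    obtain ⟨i, hi, rfl⟩ := Finset.mem_image.1 hX
    exact ⟨⟨h i, hg i hi, rfl⟩, Set.subset_univ _⟩
  · intro X hX Y hY hXY
    obtain ⟨i, hi, rfl⟩ := Finset.mem_image.1 hX
    obtain ⟨j, hj, rfl⟩ := Finset.mem_image.1 hY
    exact hd i hi j hj (fun e => hXY (by rw [e]))
  · apply Finset.card_image_of_injOn
    intro i hi j hj hij
    by_contra hne
    have h1 := hd i hi j hj hne
    have h2 : im (h i) J = im (h j) J := hij
    rw [h2, disjoint_self] at h1
    obtain ⟨x, hx⟩ := hJ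
    have : (h j) • x ∈ im (h j) J := ⟨x, hx, rfl⟩
    rw [h1] at this
    exact this

/-- a map sending an interval into itself at all scales is the identity somewhere -/
theorem Std.exists_id {g : Γ} {J2 : Set K} (hJ2 : J2 ∉ I) (hc2 : J2.OrdConnected)
    (hg : Gd g J2)
    (hret : ∀ J ⊆ J2, J.OrdConnected → J ∉ I → {x | x ∈ J ∧ g • x ∈ J} ∉ I) :
    ∃ J' ⊆ J2, J'.OrdConnected ∧ J' ∉ I ∧ ∀ x ∈ J', g • x = x := by
  rcases hg.2.2 with hm | hm
  · -- increasing
    obtain ⟨n, hn, hn1⟩ := isOfFinOrder_iff_pow_eq_one.1 (hI.tor g)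
    have hit : ∀ k : ℕ, ∃ J ⊆ J2, J.OrdConnected ∧ J ∉ I ∧ ∀ x ∈ J, ∀ m ≤ k, g ^ m • x ∈ J2 := by
      intro k
      induction k with
      | zero =>
        refine ⟨J2, le_refl _, hc2, hJ2, ?_⟩
        intro x hx m hm
        obtain rfl : m = 0 := by omega
        rwa [pow_zero, one_smul]
      | succ k ih =>
        obtain ⟨J, hJ, hJc, hJI, hJm⟩ := ih
        refine ⟨{x | x ∈ J ∧ g • x ∈ J}, fun x hx => hJ hx.1,
          good_preimage (hg.mono hJ hJc) hJc, hret J hJ hJc hJI, ?_⟩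
        rintro x ⟨hx, hgx⟩ m hm
        cases m with
        | zero =>
          rw [pow_zero, one_smul]
          exact hJ hx
        | succ m =>
          rw [pow_succ, mul_smul]
          exact hJm _ hgx m (by omega)
    obtain ⟨J, hJ, hJc, hJI, hJm⟩ := hit n
    refine ⟨J, hJ, hJc, hJI, ?_⟩
    intro x hx
    obtain ⟨n', rfl⟩ := Nat.exists_eq_succ_of_ne_zero hn.ne'
    have hx0 : x ∈ J2 := hJ hx
    have hx1 : g • x ∈ J2 := by
      have := hJm x hx 1 (by omega)
      rwa [pow_one] at this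
    rcases lt_trichotomy x (g • x) with h | h | h
    · exfalso
      have key : ∀ m ≤ n', x < g ^ (m + 1) • x := by
        intro m
        induction m with
        | zero =>
          intro _
          rwa [zero_add, pow_one]
        | succ m ih =>
          intro hm1
          have h2 := ih (by omega)
          have h3 := hJm x hx (m + 1) (by omega)
          have h4 : g • x < g • (g ^ (m + 1) • x) := hm hx0 h3 h2
          rw [← mul_smul, ← pow_succ'] at h4
          exact h.trans h4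
      have h5 := key n' (le_refl _)
      rw [hn1, one_smul] at h5
      exact lt_irrefl _ h5
    · exact h.symm
    · exfalso
      have key : ∀ m ≤ n', g ^ (m + 1) • x < x := by
        intro m
        induction m with
        | zero =>
          intro _
          rwa [zero_add, pow_one]
        | succ m ih =>
          intro hm1
          have h2 := ih (by omega)
          have h3 := hJm x hx (m + 1) (by omega)
          have h4 : g • (g ^ (m + 1) • x) < g • x := hm h3 hx0 h2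
          rw [← mul_smul, ← pow_succ'] at h4
          exact h4.trans h
      have h5 := key n' (le_refl _)
      rw [hn1, one_smul] at h5
      exact lt_irrefl _ h5
  · -- decreasing
    have hle : ∀ a ∈ J2, ∀ b ∈ J2, a ≤ b → g • b ≤ g • a := fun a ha b hb hab =>
      hm.antitoneOn ha hb hab
    let L : Set K := {x | x ∈ J2 ∧ x < g • x}
    let R : Set K := {x | x ∈ J2 ∧ g • x < x}
    let E : Set K := {x | x ∈ J2 ∧ g • x = x}
    have hL : L.OrdConnected := by
      refine ⟨?_⟩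
      rintro a ⟨ha, ha1⟩ b ⟨hb, hb1⟩ c hc
      have hcJ := hc2.out ha hb hc
      exact ⟨hcJ, (hc.2.trans_lt hb1).trans_le (hle c hcJ b hb hc.2)⟩
    have hR : R.OrdConnected := by
      refine ⟨?_⟩
      rintro a ⟨ha, ha1⟩ b ⟨hb, hb1⟩ c hc
      have hcJ := hc2.out ha hb hc
      exact ⟨hcJ, (hle a ha c hcJ hc.1).trans_lt (ha1.trans_le hc.1)⟩
    have hE : E.OrdConnected := by
      refine ⟨?_⟩
      rintro a ⟨ha, ha1⟩ b ⟨hb, hb1⟩ c hc
      have hcJ := hc2.out ha hb hc
      refine ⟨hcJ, ?_⟩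
      have h1 := hle a ha c hcJ hc.1
      have h2 := hle c hcJ b hb hc.2
      rw [ha1] at h1
      rw [hb1] at h2
      exact le_antisymm (h1.trans hc.1) (hc.2.trans h2)
    have hLI : L ∈ I := by
      by_contra hLI
      apply hret L (fun x hx => hx.1) hL hLI
      refine hI.ii.sub _ hI.empty _ ?_
      rintro x ⟨⟨hx, hx1⟩, ⟨hgx, hgx1⟩⟩
      exact absurd (hm hx hgx hx1) (not_lt.2 hgx1.le)
    have hRI : R ∈ I := by
      by_contra hRI
      apply hret R (fun x hx => hx.1) hR hRI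
      refine hI.ii.sub _ hI.empty _ ?_
      rintro x ⟨⟨hx, hx1⟩, ⟨hgx, hgx1⟩⟩
      exact absurd (hm hgx hx hx1) (not_lt.2 hgx1.le)
    refine ⟨E, fun x hx => hx.1, hE, ?_, fun x hx => hx.2⟩
    intro hEI
    apply hJ2
    refine hI.ii.sub _ (hI.ii.union _ (hI.ii.union _ hLI _ hRI) _ hEI) _ ?_
    intro x hx
    rcases lt_trichotomy x (g • x) with h | h | h
    · exact Or.inl (Or.inl ⟨hx, h⟩)
    · exact Or.inr ⟨hx, h.symm⟩
    · exact Or.inl (Or.inr ⟨hx, h⟩)

/-- **Packings are unbounded.** -/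
theorem Std.unbounded {S : Set Γ} (hS : S.Finite) (hcl : Subgroup.closure S = ⊤) (n : ℕ) :
    ∃ J : Set K, J ∉ I ∧ J.OrdConnected ∧ ∃ T, Pk Γ J univ T ∧ n ≤ T.card := by
  by_contra hne
  have hbd : ∀ J : Set K, J ∉ I → J.OrdConnected → ∀ T, Pk Γ J univ T → T.card < n := by
    intro J hJ hJc T hT
    by_contra h
    exact hne ⟨J, hJ, hJc, T, hT, not_lt.1 h⟩
  -- the maximal packing
  let M : Set ℕ := {m | ∃ J : Set K, J ∉ I ∧ J.OrdConnected ∧ ∃ T, Pk Γ J univ T ∧ T.card = m}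
  have hMb : BddAbove M := ⟨n, by
    rintro m ⟨J, hJ, hJc, T, hT, rfl⟩
    exact (hbd J hJ hJc T hT).le⟩
  have hM1 : 1 ∈ M := by
    have hu := hI.ii.proper
    obtain ⟨T, hT, hTc⟩ := pk_of_family ({()} : Finset Unit) (fun _ => (1 : Γ)) (J := univ)
      (hI.nonempty hu) (fun _ _ => Gd.one Set.ordConnected_univ)
      (fun i _ j _ hij => absurd (Subsingleton.elim i j) hij)
    exact ⟨univ, hu, Set.ordConnected_univ, T, hT, by rw [hTc, Finset.card_singleton]⟩
  obtain ⟨Js, hJs, hJsc, Ts, hTs, hcard⟩ := Nat.sSup_mem ⟨1, hM1⟩ hMb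
  have hN1 : 1 ≤ Ts.card := by
    rw [hcard]
    exact le_csSup hMb hM1
  have hmax : ∀ J : Set K, J ∉ I → J.OrdConnected → ∀ T, Pk Γ J univ T → T.card ≤ Ts.card := by
    intro J hJ hJc T hT
    rw [hcard]
    exact le_csSup hMb ⟨J, hJ, hJc, T, hT, rfl⟩
  have hex : ∀ X : Set K, ∃ γ : Γ, X ∈ Ts → Gd γ Js ∧ X = im γ Js := by
    intro X
    by_cases hX : X ∈ Ts
    · obtain ⟨⟨γ, h1, h2⟩, -⟩ := hTs.1 X hX
      exact ⟨γ, fun _ => ⟨h1, h2⟩⟩
    · exact ⟨1, fun h => absurd h hX⟩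
  choose γ hγ using hex
  -- return property
  have hret : ∀ g : Γ, ∀ J ⊆ Js, J.OrdConnected → J ∉ I → Gd g J → im g J ⊆ Js →
      {x | x ∈ J ∧ g • x ∈ J} ∉ I := by
    intro g J hJ hJc hJI hg hgJ hW
    obtain ⟨J3, hJ3, hJ3c, hJ3I, hJ3d⟩ := hI.avoid hJI hJc (U := {{x | x ∈ J ∧ g • x ∈ J}})
      (Set.finite_singleton _) (by
        rintro A rfl
        exact good_preimage hg hJc) (by
        rintro A rfl
        exact hI.ii.sub _ hW _ Set.inter_subset_right)
    have hgJ3 : Disjoint J3 (im g J3) := by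
      rw [Set.disjoint_left]
      rintro _ hx ⟨y, hy, rfl⟩
      exact hJ3d _ rfl y hy ⟨hJ3 hy, hJ3 hx⟩
    let h : Set K × Bool → Γ := fun p => if p.2 then γ p.1 * g else γ p.1
    have hsub : ∀ p : Set K × Bool, p.1 ∈ Ts → im (h p) J3 ⊆ p.1 := by
      rintro ⟨X, b⟩ hX
      obtain ⟨h1, h2⟩ := hγ X hX
      cases b with
      | false =>
        change im (γ X) J3 ⊆ X
        conv_rhs => rw [h2]
        exact im_mono _ (hJ3.trans hJ)
      | true =>
        change im (γ X * g) J3 ⊆ X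
        conv_rhs => rw [h2]
        rw [im_mul]
        exact im_mono _ ((im_mono g hJ3).trans hgJ)
    obtain ⟨T, hT, hTc⟩ := pk_of_family (Ts ×ˢ (Finset.univ : Finset Bool)) h (hI.nonempty hJ3I)
      (by
        rintro ⟨X, b⟩ hp
        have hX := (Finset.mem_product.1 hp).1
        obtain ⟨h1, h2⟩ := hγ X hX
        cases b with
        | false => exact h1.mono (hJ3.trans hJ) hJ3c
        | true =>
          have hg3 := hg.mono hJ3 hJ3c
          exact hg3.mul (h1.mono ((im_mono g hJ3).trans hgJ) hg3.2.1))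
      (by
        rintro ⟨X, b⟩ hp ⟨Y, c⟩ hq hne'
        have hX := (Finset.mem_product.1 hp).1
        have hY := (Finset.mem_product.1 hq).1
        by_cases hXY : X = Y
        · subst hXY
          have hbc : b ≠ c := fun e => hne' (by rw [e])
          cases b with
          | false =>
            cases c with
            | false => exact absurd rfl hbc
            | true =>
              change Disjoint (im (γ X) J3) (im (γ X * g) J3)
              rw [im_mul]
              exact im_disjoint _ hgJ3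
          | true =>
            cases c with
            | false =>
              change Disjoint (im (γ X * g) J3) (im (γ X) J3)
              rw [im_mul]
              exact im_disjoint _ hgJ3.symm
            | true => exact absurd rfl hbc
        · exact (hTs.2 X hX Y hY hXY).mono (hsub ⟨X, b⟩ hX) (hsub ⟨Y, c⟩ hY))
    have h2 := hmax J3 hJ3I hJ3c T hT
    rw [hTc, Finset.card_product, Finset.card_univ, Fintype.card_bool] at h2
    omega
  -- the star property
  have hstar : ∀ δ : Γ, ∀ J1 ⊆ Js, J1.OrdConnected → J1 ∉ I →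
      ∃ X ∈ Ts, ∃ J' ⊆ J1, J'.OrdConnected ∧ J' ∉ I ∧ ∀ x ∈ J', δ • x = γ X • x := by
    intro δ J1 hJ1 hJ1c hJ1I
    obtain ⟨J1', hJ1', hJ1'c, hJ1'I, hδ⟩ := hI.piece δ hJ1I hJ1c
    have hexX : ∃ X ∈ Ts, {x | x ∈ J1' ∧ δ • x ∈ X} ∉ I := by
      by_contra hno
      have hno' : ∀ X ∈ Ts, {x | x ∈ J1' ∧ δ • x ∈ X} ∈ I := by
        intro X hX
        by_contra h
        exact hno ⟨X, hX, h⟩
      obtain ⟨J3, hJ3, hJ3c, hJ3I, hJ3d⟩ := hI.avoid hJ1'I hJ1'c
        (U := (fun X : Set K => {x | x ∈ J1' ∧ δ • x ∈ X}) '' (Ts : Set (Set K)))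
        ((Finset.finite_toSet Ts).image _) (by
          rintro _ ⟨X, hX, rfl⟩
          exact good_preimage hδ (hTs.ord hX)) (by
          rintro _ ⟨X, hX, rfl⟩
          exact hI.ii.sub _ (hno' X hX) _ Set.inter_subset_right)
      have hout : ∀ x ∈ J3, ∀ X ∈ Ts, δ • x ∉ X := by
        intro x hx X hX h
        exact hJ3d _ ⟨X, hX, rfl⟩ x hx ⟨hJ3 hx, h⟩
      have hJ3s : J3 ⊆ Js := hJ3.trans (hJ1'.trans hJ1)
      let h : Option (Set K) → Γ := fun o => o.elim δ γ
      have hsub : ∀ X ∈ Ts, im (γ X) J3 ⊆ X := by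
        intro X hX
        obtain ⟨h1, h2⟩ := hγ X hX
        conv_rhs => rw [h2]
        exact im_mono _ hJ3s
      have hdis : ∀ X ∈ Ts, Disjoint (im δ J3) (im (γ X) J3) := by
        intro X hX
        rw [Set.disjoint_left]
        rintro _ ⟨x, hx, rfl⟩ h2
        exact hout x hx X hX (hsub X hX h2)
      obtain ⟨T, hT, hTc⟩ := pk_of_family (Finset.insertNone Ts) h (hI.nonempty hJ3I)
        (by
          rintro (_ | X) hX
          · exact hδ.mono hJ3 hJ3c
          · have hX' : X ∈ Ts := Finset.mem_insertNone.1 hX X rfl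
            exact (hγ X hX').1.mono hJ3s hJ3c)
        (by
          rintro (_ | X) hX (_ | Y) hY hXY
          · exact absurd rfl hXY
          · exact hdis Y (Finset.mem_insertNone.1 hY Y rfl)
          · exact (hdis X (Finset.mem_insertNone.1 hX X rfl)).symm
          · have hX' : X ∈ Ts := Finset.mem_insertNone.1 hX X rfl
            have hY' : Y ∈ Ts := Finset.mem_insertNone.1 hY Y rfl
            exact (hTs.2 X hX' Y hY' (fun e => hXY (by rw [e]))).mono (hsub X hX') (hsub Y hY'))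
      have h2 := hmax J3 hJ3I hJ3c T hT
      rw [hTc, Finset.card_insertNone] at h2
      omega
    obtain ⟨X, hX, hXI⟩ := hexX
    obtain ⟨hγ1, hγ2⟩ := hγ X hX
    set J2 : Set K := {x | x ∈ J1' ∧ δ • x ∈ X} with hJ2
    have hJ2c : J2.OrdConnected := good_preimage hδ (hTs.ord hX)
    have hJ2s : J2 ⊆ J1' := fun x hx => hx.1
    have hδ2 : Gd δ J2 := hδ.mono hJ2s hJ2c
    have hsub : im δ J2 ⊆ im (γ X) Js := by
      rintro _ ⟨x, hx, rfl⟩
      rw [← hγ2]
      exact hx.2
    have hg2 : Gd ((γ X)⁻¹ * δ) J2 := hδ2.mul (hγ1.inv.mono hsub hδ2.2.1)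
    have hgs : im ((γ X)⁻¹ * δ) J2 ⊆ Js := by
      rw [im_mul]
      have := im_mono (γ X)⁻¹ hsub
      rwa [im_inv_im] at this
    obtain ⟨J', hJ', hJ'c, hJ'I, hJ'e⟩ := hI.exists_id hXI hJ2c hg2 (by
      intro J hJ hJc hJI
      exact hret _ J (hJ.trans (hJ2s.trans (hJ1'.trans hJ1))) hJc hJI (hg2.mono hJ hJc)
        ((im_mono _ hJ).trans hgs))
    refine ⟨X, hX, J', hJ'.trans (hJ2s.trans hJ1'), hJ'c, hJ'I, ?_⟩
    intro x hx
    have h3 := hJ'e x hx
    rw [mul_smul, inv_smul_eq_iff] at h3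
    exact h3
  -- finitely many elements at once
  have hfin : ∀ Δ : Finset Γ, ∃ J' ⊆ Js, J'.OrdConnected ∧ J' ∉ I ∧
      ∀ δ ∈ Δ, ∃ X ∈ Ts, ∀ x ∈ J', δ • x = γ X • x := by
    intro Δ
    induction Δ using Finset.induction_on with
    | empty => exact ⟨Js, le_refl _, hJsc, hJs, fun δ hδ => absurd hδ (Finset.notMem_empty _)⟩
    | @insert δ Δ _ ih =>
      obtain ⟨J1, hJ1, hJ1c, hJ1I, hJ1e⟩ := ih
      obtain ⟨X, hX, J', hJ', hJ'c, hJ'I, hJ'e⟩ := hstar δ J1 hJ1 hJ1c hJ1I
      refine ⟨J', hJ'.trans hJ1, hJ'c, hJ'I, ?_⟩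
      intro δ' hδ'
      rcases Finset.mem_insert.1 hδ' with rfl | hδ'
      · exact ⟨X, hX, hJ'e⟩
      · obtain ⟨Y, hY, hYe⟩ := hJ1e δ' hδ'
        exact ⟨Y, hY, fun x hx => hYe x (hJ' hx)⟩
  obtain ⟨J', hJ's, hJ'c, hJ'I, hJ'e⟩ := hfin
    (insert 1 ((hS.toFinset ×ˢ Ts).image (fun p => p.1 * γ p.2)))
  apply hJ'I
  refine hI.ii.bd _ ⟨Ts.card, ?_⟩
  intro x hx
  let O : Set K := (fun X : Set K => γ X • x) '' (Ts : Set (Set K))
  have hO : O.encard ≤ Ts.card := by
    refine (Set.encard_image_le _ _).trans ?_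
    rw [Set.encard_coe_eq_coe_finsetCard]
  have hx0 : x ∈ O := by
    obtain ⟨X, hX, h⟩ := hJ'e 1 (Finset.mem_insert_self _ _)
    refine ⟨X, hX, ?_⟩
    have := h x hx
    rw [one_smul] at this
    exact this.symm
  have hclosed : ∀ s ∈ S, ∀ y ∈ O, s • y ∈ O := by
    rintro s hs _ ⟨X, hX, rfl⟩
    obtain ⟨Y, hY, h⟩ := hJ'e (s * γ X) (Finset.mem_insert_of_mem
      (Finset.mem_image.2 ⟨(s, X), Finset.mem_product.2 ⟨hS.mem_toFinset.2 hs, hX⟩, rfl⟩))
    refine ⟨Y, hY, ?_⟩
    have := h x hx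
    rw [mul_smul] at this
    exact this.symm
  have hall : ∀ g : Γ, ∀ y ∈ O, g • y ∈ O := by
    intro g
    have hg : g ∈ Subgroup.closure S := by rw [hcl]; trivial
    induction hg using Subgroup.closure_induction with
    | mem s hs => exact hclosed s hs
    | one =>
      intro y hy
      rwa [one_smul]
    | mul a b _ _ ha hb =>
      intro y hy
      rw [mul_smul]
      exact ha _ (hb y hy)
    | inv a _ ha =>
      have hpow : ∀ k : ℕ, ∀ y ∈ O, a ^ k • y ∈ O := by
        intro k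
        induction k with
        | zero =>
          intro y hy
          rwa [pow_zero, one_smul]
        | succ k ih =>
          intro y hy
          rw [pow_succ, mul_smul]
          exact ih _ (ha y hy)
      obtain ⟨m, hm, hm1⟩ := isOfFinOrder_iff_pow_eq_one.1 (hI.tor a)
      obtain ⟨m', rfl⟩ := Nat.exists_eq_succ_of_ne_zero hm.ne'
      have e : a⁻¹ = a ^ m' := by
        rw [inv_eq_iff_mul_eq_one, ← pow_succ']
        exact hm1
      intro y hy
      rw [e]
      exact hpow m' y hy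
  refine le_trans (Set.encard_le_encard ?_) hO
  rintro _ ⟨g, rfl⟩
  exact hall g x hx0

end Vale.Agent.P192.PM
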