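import Mathlib

/-!
# P192: piecewise monotone bijections of linear orders: definitions
-/

namespace Vale.Agent.P192.PM

/-- `g` is strictly monotone or antitone on the convex set `A`, with convex image -/
def Good {K : Type} [LinearOrder K] (g : K → K) (A : Set K) : Prop :=
  A.OrdConnected ∧ (g '' A).OrdConnected ∧ (StrictMonoOn g A ∨ StrictAntiOn g A)

end Vale.Agent.P192.PM
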