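import Vale.Agent.P192.H124.Forest
import Mathlib.GroupTheory.Perm.ViaEmbedding

/-!
# P192: permutations of bounded displacement of spaces of bounded geometry over a forest
-/

namespace Vale.Agent.P192

open Classical

theorem exists_inj_path {Γ Ω : Type} [Group Γ] [MulAction Γ Ω] {S : Set Γ}
    (hi : ∀ s ∈ S, s⁻¹ ∈ S) (hcl : Subgroup.closure S = ⊤) (ω : Ω) (g : Γ) :
    ∃ (l : ℕ) (p : ℕ → Ω), p 0 = ω ∧ p l = g • ω ∧ (∀ m < l, ∃ s ∈ S, s • p m = p (m + 1)) ∧
      ∀ m < l, ∀ m' < l, p m = p m' → m = m' := by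
  let G : SimpleGraph Ω := SimpleGraph.fromRel (fun v u => ∃ s ∈ S, s • v = u)
  have hstep : ∀ s ∈ S, ∀ ω : Ω, G.Reachable ω (s • ω) := by
    intro s hs ω
    by_cases h : ω = s • ω
    · exact h ▸ SimpleGraph.Reachable.refl _
    · apply SimpleGraph.Adj.reachable
      rw [SimpleGraph.fromRel_adj]
      exact ⟨h, Or.inl ⟨s, hs, rfl⟩⟩
  have hreach : ∀ g : Γ, ∀ ω : Ω, G.Reachable ω (g • ω) := by
    intro g
    have hg : g ∈ Subgroup.closure S := by rw [hcl]; trivial
    induction hg using Subgroup.closure_induction with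
    | mem s hs => exact hstep s hs
    | one =>
      intro ω
      rw [one_smul]
    | mul a b _ _ ha hb =>
      intro ω
      rw [mul_smul]
      exact (hb ω).trans (ha _)
    | inv a _ ha =>
      intro ω
      have h := ha (a⁻¹ • ω)
      rw [smul_inv_smul] at h
      exact h.symm
  obtain ⟨w⟩ := hreach g ω
  let q := w.toPath
  refine ⟨q.1.length, q.1.getVert, q.1.getVert_zero, q.1.getVert_length, ?_, ?_⟩
  · intro m hm
    have h := q.1.adj_getVert_succ hm
    rw [SimpleGraph.fromRel_adj] at h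
    rcases h.2 with h | ⟨s, hs, h⟩
    · exact h
    · refine ⟨s⁻¹, hi s hs, ?_⟩
      rw [← h, inv_smul_smul]
  · intro m hm m' hm' h
    exact q.2.getVert_injOn (show m ≤ _ by omega) (show m' ≤ _ by omega) h

/-- finitely generated groups acting with orbits of bounded size -/
theorem finite_of_orbits {Γ Ω : Type} [Group Γ] [MulAction Γ Ω] {S : Set Γ} (hS : S.Finite)
    (hcl : Subgroup.closure S = ⊤) (K : ℕ) (h : ∀ ω : Ω, (MulAction.orbit Γ ω).encard ≤ K) :
    Finite (MulAction.toPermHom Γ Ω).range := by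
  have hSf : Finite S := hS
  have hhom : Finite (Γ →* Equiv.Perm (Fin (K + 1))) := by
    refine Finite.of_injective (fun (ψ : Γ →* Equiv.Perm (Fin (K + 1))) (s : S) => ψ s) ?_
    intro ψ ψ' h2
    exact MonoidHom.eq_of_eqOn_dense hcl (fun s hs => congrFun h2 ⟨s, hs⟩)
  have hfi : (⨅ ψ : Γ →* Equiv.Perm (Fin (K + 1)), ψ.ker).FiniteIndex :=
    Subgroup.finiteIndex_iInf (fun ψ => inferInstance)
  have hle : (⨅ ψ : Γ →* Equiv.Perm (Fin (K + 1)), ψ.ker) ≤ (MulAction.toPermHom Γ Ω).ker := by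
    intro g hg
    rw [Subgroup.mem_iInf] at hg
    rw [MonoidHom.mem_ker]
    ext1 ω
    obtain ⟨κ, hκ⟩ := exists_code _ (h ω)
    let ι : MulAction.orbit Γ ω ↪ Fin (K + 1) :=
      ⟨fun z => κ z, fun z z' hz => Subtype.ext (hκ z.2 z'.2 hz)⟩
    have h2 := hg ((Equiv.Perm.viaEmbeddingHom ι).comp
      (MulAction.toPermHom Γ (MulAction.orbit Γ ω)))
    rw [MonoidHom.mem_ker, MonoidHom.comp_apply] at h2
    have h3 := Equiv.Perm.viaEmbeddingHom_injective ι (h2.trans (map_one _).symm)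
    have h4 := DFunLike.congr_fun h3 ⟨ω, MulAction.mem_orbit_self ω⟩
    exact congrArg Subtype.val h4
  have hfi2 : (MulAction.toPermHom Γ Ω).ker.FiniteIndex := Subgroup.finiteIndex_of_le hle
  have : Finite (Γ ⧸ (MulAction.toPermHom Γ Ω).ker) := inferInstance
  exact Finite.of_equiv _ (QuotientGroup.quotientKerEquivRange (MulAction.toPermHom Γ Ω)).toEquiv

/-- **Permutations of bounded displacement over a forest.** Let `φ : Ω → V` be a map to the
vertices of a forest such that the balls of radius `r` contain the images of at most `N r` points.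
Every group of permutations `g` of `Ω` moving `φ` by a bounded distance is in the class. -/
theorem fpb_wobble {V Ω : Type} (A : SimpleGraph V) (hA : A.IsAcyclic) (φ : Ω → V)
    (hN : ∀ r : ℕ, ∃ N : ℕ, ∀ v, {ω | A.edist v (φ ω) ≤ r}.encard ≤ N)
    (G : Subgroup (Equiv.Perm Ω)) (hG : ∀ g ∈ G, ∃ r : ℕ, ∀ ω, A.edist (φ ω) (φ (g ω)) ≤ r) :
    FPB G := by
  intro Γ _ hΓ ht f
  obtain ⟨S, hS, h1, hi, hcl, hext⟩ := exists_tri_pres Γ hΓ
  let _ : MulAction Γ Ω := MulAction.compHom Ω (G.subtype.comp f)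
  have hact : ∀ (g : Γ) (ω : Ω), g • ω = (f g : Equiv.Perm Ω) ω := fun _ _ => rfl
  have hSf : Finite S := hS
  -- a common bound for the displacement of the generators
  choose r hr using fun g : Γ => hG (f g) (f g).2
  obtain ⟨R, hR⟩ := Finite.exists_le (fun s : S => r s)
  have hdisp : ∀ s ∈ S, ∀ ω : Ω, Wi A R (φ ω) (φ (s • ω)) := by
    intro s hs ω
    exact (Wi_iff.1 (hr s ω)).mono (hR ⟨s, hs⟩)
  set ρ := R + R with hρ
  obtain ⟨N, hNρ⟩ := hN ρ
  obtain ⟨n, hn⟩ := exists_bound_cuts (Ω := Ω) hS h1 hi hcl hext ht N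
  -- reachability
  have hreach : ∀ (g : Γ) (ω : Ω), A.Reachable (φ ω) (φ (g • ω)) := by
    intro g ω
    obtain ⟨w, -⟩ := Wi_iff.1 (hr g ω)
    exact ⟨w⟩
  -- the main estimate
  have hmain : ∀ (g : Γ) (ω : Ω), A.dist (φ ω) (φ (g • ω)) ≤ n * (ρ + 1) := by
    intro g ω
    by_contra hlt
    rw [not_le] at hlt
    obtain ⟨w, hw, hd⟩ := (hreach g ω).exists_path_of_dist
    obtain ⟨l, p, hp0, hpl, hstep, hinj⟩ := exists_inj_path hi hcl ω g
    have hlen : ∀ i < n, i * (ρ + 1) < w.length := by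
      intro i hin
      have h2 : (i + 1) * (ρ + 1) ≤ n * (ρ + 1) := Nat.mul_le_mul_right _ hin
      rw [add_mul] at h2
      omega
    have hsp : ∀ i j, i < j → i * (ρ + 1) + ρ < j * (ρ + 1) := by
      intro i j hij
      have h2 : (i + 1) * (ρ + 1) ≤ j * (ρ + 1) := Nat.mul_le_mul_right _ hij
      rw [add_mul] at h2
      omega
    refine hn (fun i => {ω | Rr w (i * (ρ + 1)) (w.getVert (i * (ρ + 1) + 1)) (φ ω)})
      (fun i => {ω | Wi A ρ (w.getVert (i * (ρ + 1))) (φ ω)}) l p hstep hinj ?_ ?_ ?_ ?_ ?_ ?_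
    · intro i hin h2
      have h3 : Rr w (i * (ρ + 1)) (w.getVert 0) (w.getVert (i * (ρ + 1))) :=
        Rr_low w hw (hlen i hin) _ _ (Nat.zero_le _) (le_refl _)
      have h4 : Rr w (i * (ρ + 1)) (w.getVert (i * (ρ + 1) + 1)) (φ (p 0)) := h2
      rw [hp0] at h4
      rw [SimpleGraph.Walk.getVert_zero] at h3
      exact not_Rr w hA (hlen i hin) (h4.trans h3).symm
    · intro i hin
      have h3 : Rr w (i * (ρ + 1)) (w.getVert (i * (ρ + 1) + 1)) (w.getVert w.length) :=
        Rr_high w hw (hlen i hin) _ _ (le_refl _) (hlen i hin) (le_refl _)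
      rw [SimpleGraph.Walk.getVert_length] at h3
      change Rr w (i * (ρ + 1)) (w.getVert (i * (ρ + 1) + 1)) (φ (p l))
      rw [hpl]
      exact h3
    · intro i hin
      refine le_trans (Set.encard_le_encard ?_) (hNρ (w.getVert (i * (ρ + 1))))
      intro ω' h2
      exact Wi_iff.2 h2
    · intro i j hij hj
      refine ⟨fun v hv => ?_, fun v hv => ?_, fun v hv => ?_⟩
      · have h2 := hsp i j hij
        exact Rr_nested w hw hA (by omega) (hlen j hj) hv
      · exact not_Rr_of_near w hw hA hd (hsp i j hij) (hlen j hj) hv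
      · exact Rr_of_near w hw hd (hsp i j hij) (hlen j hj) hv
    · intro i hin ω' h2 t ht' h3 s hs
      have h4 : ¬ Rr w (i * (ρ + 1)) (φ ω') (φ (t • ω')) := fun h4 => h2 (h3.trans h4.symm)
      exact (Wi_of_not_Rr w (hdisp t ht' ω') h4).2.trans (hdisp s hs _)
    · intro i hin ω' h2 t ht' h3 s hs
      have h4 : ¬ Rr w (i * (ρ + 1)) (φ ω') (φ (t • ω')) := fun h4 => h3 (h2.trans h4)
      exact (Wi_of_not_Rr w (hdisp t ht' ω') h4).2.trans (hdisp s hs _)
  obtain ⟨M, hM⟩ := hN (n * (ρ + 1))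
  have hfin : Finite (MulAction.toPermHom Γ Ω).range := by
    refine finite_of_orbits hS hcl M (fun ω => ?_)
    refine le_trans (Set.encard_le_encard ?_) (hM (φ ω))
    rintro _ ⟨g, rfl⟩
    obtain ⟨w, hw⟩ := (hreach g ω).exists_walk_length_eq_dist
    exact Wi_iff.2 ⟨w, hw.le.trans (hmain g ω)⟩
  have h2 : (Subtype.val '' (f.range : Set G)).Finite := by
    refine (Set.toFinite ((MulAction.toPermHom Γ Ω).range : Set (Equiv.Perm Ω))).subset ?_
    rintro _ ⟨_, ⟨g, rfl⟩, rfl⟩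
    exact ⟨g, Equiv.ext fun ω => rfl⟩
  exact (h2.of_finite_image Subtype.val_injective.injOn).to_subtype

end Vale.Agent.P192
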