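import Vale.Agent.P192.H124.PMCase
import Vale.Agent.P192.H124.Wobble

/-!
# P192: piecewise monotone bijections of linear orders: assembly
-/

namespace Vale.Agent.P192.PM

open Set Classical

/-- The statement of the unbounded case. -/
def RowF : Prop :=
  ∀ {K : Type} [LinearOrder K] {Γ : Type} [Group Γ] [MulAction Γ K] {I : Set (Set K)}
    (_ : Std Γ I) (_ : ∀ n : ℕ, ∃ J : Set K, J ∉ I ∧ J.OrdConnected ∧
      ∃ T, Pk Γ J univ T ∧ n ≤ T.card),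
    ∃ F : K → ℝ, Monotone F ∧ (∀ x, 0 ≤ F x ∧ F x ≤ 1) ∧
      (∀ t, 0 ≤ t → t < 1 → ∀ ε > 0, ∃ y, t < F y ∧ F y < t + ε) ∧
      (∀ (g : Γ) C, Gd g C → StrictMonoOn (fun y => g • y) C →
        ∃ τ, ∀ y ∈ C, F (g • y) = F y + τ) ∧
      (∀ (g : Γ) C, Gd g C → StrictAntiOn (fun y => g • y) C →
        ∃ κ, ∀ y ∈ C, F (g • y) = κ - F y) ∧
      ∀ J : Set K, J.OrdConnected → J ∉ I → ∃ a ∈ J, ∃ b ∈ J, F a < F b

/-- The statement of the row ACT. -/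
def RowAct : Prop :=
  ∀ {Γ K : Type} [Group Γ] [LinearOrder K] [MulAction Γ K] (_ : Group.IsFinitelyPresented Γ)
    (_ : ∀ x : Γ, IsOfFinOrder x)
    (_ : ∀ g : Γ, ∃ P : Set (Set K), P.Finite ∧ (∀ x, ∃ C ∈ P, x ∈ C) ∧
      ∀ C ∈ P, Good (fun y => g • y) C)
    (F : K → ℝ) (_ : Monotone F) (_ : ∀ x, 0 ≤ F x ∧ F x ≤ 1)
    (_ : ∀ t, 0 ≤ t → t < 1 → ∀ ε > 0, ∃ y, t < F y ∧ F y < t + ε)
    (_ : ∀ (g : Γ) C, Good (fun y => g • y) C → StrictMonoOn (fun y => g • y) C →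
      ∃ τ, ∀ y ∈ C, F (g • y) = F y + τ)
    (_ : ∀ (g : Γ) C, Good (fun y => g • y) C → StrictAntiOn (fun y => g • y) C →
      ∃ κ, ∀ y ∈ C, F (g • y) = κ - F y),
    ∃ n : ℕ, ∀ γ : Fin (n + 1) → Γ, ∃ i j, i ≠ j ∧ ∀ J : Set K,
      (∃ a ∈ J, ∃ b ∈ J, F a < F b) → Good (fun y => γ i • y) J → Good (fun y => γ j • y) J →
      ¬ Disjoint ((fun y => γ i • y) '' J) ((fun y => γ j • y) '' J)

theorem main_of (hF : RowF) (hA : RowAct) (K : Type) [LinearOrder K]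
    (G : Subgroup (Equiv.Perm K))
    (hG : ∀ g ∈ G, ∃ P : Set (Set K), P.Finite ∧ (∀ x, ∃ C ∈ P, x ∈ C) ∧ ∀ C ∈ P, Good g C) :
    FPB G := by
  intro Γ _ hΓ ht f
  obtain ⟨S, hS, -, -, hcl, -⟩ := exists_tri_pres Γ hΓ
  let _ : MulAction Γ K := MulAction.compHom K (G.subtype.comp f)
  have hact : ∀ (g : Γ) (x : K), g • x = (f g : Equiv.Perm K) x := fun _ _ => rfl
  have hpm : ∀ g : Γ, ∃ P : Set (Set K), P.Finite ∧ (∀ x, ∃ C ∈ P, x ∈ C) ∧ ∀ C ∈ P, Gd g C :=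
    fun g => hG (f g) (f g).2
  have hbd : BdOrb Γ (univ : Set K) := by
    by_contra hne
    obtain ⟨I, hI, hmax⟩ := exists_maximal hne
    have hstd : Std Γ I := ⟨ht, hpm, hI, hmax⟩
    have hub := hstd.unbounded hS hcl
    obtain ⟨F, f1, f2, f3, f4, f5, f6⟩ := hF hstd hub
    obtain ⟨n, hn⟩ := hA hΓ ht hpm F f1 f2 f3 f4 f5
    obtain ⟨J, hJ, hJc, T, hT, hcard⟩ := hub (n + 1)
    have hex : ∀ X : Set K, ∃ γ : Γ, X ∈ T → Gd γ J ∧ X = im γ J := by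
      intro X
      by_cases hX : X ∈ T
      · obtain ⟨⟨γ, h1, h2⟩, -⟩ := hT.1 X hX
        exact ⟨γ, fun _ => ⟨h1, h2⟩⟩
      · exact ⟨1, fun h => absurd h hX⟩
    choose γ hγ using hex
    obtain ⟨T', hT', hT'c⟩ := Finset.exists_subset_card_eq hcard
    let e : Fin (n + 1) ≃ T' := (finCongr hT'c.symm).trans (T'.equivFin).symm
    obtain ⟨i, j, hij, h⟩ := hn (fun i => γ (e i))
    have hi := hT' (e i).2
    have hj := hT' (e j).2
    have hne' : ((e i : Set K)) ≠ (e j : Set K) := fun h' =>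
      hij (e.injective (Subtype.ext h'))
    have hd := hT.2 _ hi _ hj hne'
    refine h J (f6 J hJc hJ) (hγ _ hi).1 (hγ _ hj).1 ?_
    rw [(hγ _ hi).2, (hγ _ hj).2] at hd
    exact hd
  obtain ⟨n, hn⟩ := hbd
  have hfin : Finite (MulAction.toPermHom Γ K).range :=
    finite_of_orbits hS hcl n (fun x => hn x trivial)
  have h2 : (Subtype.val '' (f.range : Set G)).Finite := by
    refine (Set.toFinite ((MulAction.toPermHom Γ K).range : Set (Equiv.Perm K))).subset ?_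
    rintro _ ⟨_, ⟨g, rfl⟩, rfl⟩
    exact ⟨g, Equiv.ext fun ω => rfl⟩
  exact (h2.of_finite_image Subtype.val_injective.injOn).to_subtype

end Vale.Agent.P192.PM
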