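import Vale.Agent.P192.H124.PMMeas
import Vale.Agent.P192.H124.PMMain

/-!
# P192: piecewise monotone bijections of linear orders: the distribution function
-/

namespace Vale.Agent.P192.PM

open Set Classical

variable {K : Type} [LinearOrder K] {Γ : Type} [Group Γ] [MulAction Γ K]

/-- a member of a finite cover is cofinal -/
theorem exists_cofinal {Q : Set (Set K)} (hQ : Q.Finite) (hc : ∀ x, ∃ C ∈ Q, x ∈ C)
    (ho : ∀ C ∈ Q, C.OrdConnected) {A : Set K} (hA : A.Nonempty) :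
    ∃ C ∈ Q, ∃ y ∈ A, y ∈ C ∧ ∀ z ∈ A, y ≤ z → z ∈ C := by
  have h1 : ∃ C ∈ Q, ∀ y ∈ A, ∃ z ∈ A, z ∈ C ∧ y ≤ z := by
    by_contra hne
    have h2 : ∀ C ∈ Q, ∃ y ∈ A, ∀ z ∈ A, z ∈ C → z < y := by
      intro C hC
      by_contra h3
      apply hne
      refine ⟨C, hC, fun y hy => ?_⟩
      by_contra h4
      apply h3
      refine ⟨y, hy, fun z hz hzC => ?_⟩
      by_contra h5
      exact h4 ⟨z, hz, hzC, not_lt.1 h5⟩
    have h3 : ∀ C : Set K, ∃ y, C ∈ Q → y ∈ A ∧ ∀ z ∈ A, z ∈ C → z < y := by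
      intro C
      by_cases hC : C ∈ Q
      · obtain ⟨y, hy, h⟩ := h2 C hC
        exact ⟨y, fun _ => ⟨hy, h⟩⟩
      · exact ⟨hA.some, fun h => absurd h hC⟩
    choose u hu using h3
    have hQne : hQ.toFinset.Nonempty := by
      obtain ⟨a, -⟩ := hA
      obtain ⟨C, hC, -⟩ := hc a
      exact ⟨C, hQ.mem_toFinset.2 hC⟩
    obtain ⟨C, hC, hmax⟩ := hQ.toFinset.exists_max_image u hQne
    have hC' := hQ.mem_toFinset.1 hC
    obtain ⟨D, hD, hD2⟩ := hc (u C)
    have h4 := (hu D hD).2 (u C) (hu C hC').1 hD2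
    have h5 := hmax D (hQ.mem_toFinset.2 hD)
    exact absurd h4 (not_lt.2 h5)
  obtain ⟨C, hC, h⟩ := h1
  obtain ⟨a, ha⟩ := hA
  obtain ⟨y, hy, hyC, -⟩ := h a ha
  refine ⟨C, hC, y, hy, hyC, fun z hz hyz => ?_⟩
  obtain ⟨w, -, hwC, hzw⟩ := h z hz
  exact (ho C hC).out hyC hwC ⟨hyz, hzw⟩

theorem exists_coinitial {Q : Set (Set K)} (hQ : Q.Finite) (hc : ∀ x, ∃ C ∈ Q, x ∈ C)
    (ho : ∀ C ∈ Q, C.OrdConnected) {A : Set K} (hA : A.Nonempty) :
    ∃ C ∈ Q, ∃ y ∈ A, y ∈ C ∧ ∀ z ∈ A, z ≤ y → z ∈ C := by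
  have h1 : ∃ C ∈ Q, ∀ y ∈ A, ∃ z ∈ A, z ∈ C ∧ z ≤ y := by
    by_contra hne
    have h2 : ∀ C ∈ Q, ∃ y ∈ A, ∀ z ∈ A, z ∈ C → y < z := by
      intro C hC
      by_contra h3
      apply hne
      refine ⟨C, hC, fun y hy => ?_⟩
      by_contra h4
      apply h3
      refine ⟨y, hy, fun z hz hzC => ?_⟩
      by_contra h5
      exact h4 ⟨z, hz, hzC, not_lt.1 h5⟩
    have h3 : ∀ C : Set K, ∃ y, C ∈ Q → y ∈ A ∧ ∀ z ∈ A, z ∈ C → y < z := by
      intro C
      by_cases hC : C ∈ Q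
      · obtain ⟨y, hy, h⟩ := h2 C hC
        exact ⟨y, fun _ => ⟨hy, h⟩⟩
      · exact ⟨hA.some, fun h => absurd h hC⟩
    choose u hu using h3
    have hQne : hQ.toFinset.Nonempty := by
      obtain ⟨a, -⟩ := hA
      obtain ⟨C, hC, -⟩ := hc a
      exact ⟨C, hQ.mem_toFinset.2 hC⟩
    obtain ⟨C, hC, hmin⟩ := hQ.toFinset.exists_min_image u hQne
    have hC' := hQ.mem_toFinset.1 hC
    obtain ⟨D, hD, hD2⟩ := hc (u C)
    have h4 := (hu D hD).2 (u C) (hu C hC').1 hD2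
    have h5 := hmin D (hQ.mem_toFinset.2 hD)
    exact absurd h4 (not_lt.2 h5)
  obtain ⟨C, hC, h⟩ := h1
  obtain ⟨a, ha⟩ := hA
  obtain ⟨y, hy, hyC, -⟩ := h a ha
  refine ⟨C, hC, y, hy, hyC, fun z hz hyz => ?_⟩
  obtain ⟨w, -, hwC, hzw⟩ := h z hz
  exact (ho C hC).out hwC hyC ⟨hzw, hyz⟩

section

variable {I : Set (Set K)} (hI : Std Γ I) {μ : Set K → ℝ} (hμ : Meas Γ I μ)

include hI in
/-- points are in the ideal -/
theorem singleton_mem (x : K) : ({x} : Set K) ∈ I := by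
  by_contra hx
  have hxc : ({x} : Set K).OrdConnected := Set.ordConnected_singleton
  obtain ⟨b, hb⟩ := hI.bound hx hxc
  apply hx
  refine hI.ii.bd _ ⟨b, ?_⟩
  rintro y rfl
  by_contra hlt
  rw [not_le] at hlt
  have hle : ((b + 1 : ℕ) : ℕ∞) ≤ (MulAction.orbit Γ y).encard := by
    rw [Nat.cast_add, Nat.cast_one]
    exact Order.add_one_le_of_lt hlt
  obtain ⟨t, hts, htc⟩ := Set.exists_subset_encard_eq hle
  have htf : t.Finite := Set.finite_of_encard_eq_coe htc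
  have htn : htf.toFinset.card = b + 1 := by
    rw [htf.encard_eq_coe_toFinset_card] at htc
    exact_mod_cast htc
  have hpk : Pk Γ ({y} : Set K) univ (htf.toFinset.image (fun z => ({z} : Set K))) := by
    refine ⟨?_, ?_⟩
    · intro X hX
      obtain ⟨z, hz, rfl⟩ := Finset.mem_image.1 hX
      obtain ⟨γ, hγ⟩ := hts (htf.mem_toFinset.1 hz)
      have e : im γ ({y} : Set K) = {z} := by
        change (fun w => γ • w) '' {y} = {z}
        rw [Set.image_singleton]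
        change {γ • y} = {z}
        rw [← hγ]
      refine ⟨⟨γ, ⟨hxc, ?_, Or.inl ?_⟩, e.symm⟩, Set.subset_univ _⟩
      · change (im γ ({y} : Set K)).OrdConnected
        rw [e]
        exact Set.ordConnected_singleton
      · rintro a rfl c hc hac
        rw [Set.mem_singleton_iff.1 hc] at hac
        exact absurd hac (lt_irrefl _)
    · intro X hX Y hY hXY
      obtain ⟨z, hz, rfl⟩ := Finset.mem_image.1 hX
      obtain ⟨w, hw, rfl⟩ := Finset.mem_image.1 hY
      rw [Set.disjoint_singleton]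
      rintro rfl
      exact hXY rfl
  have h2 := hb _ hpk
  rw [Finset.card_image_of_injective _ (fun a b h => Set.singleton_injective h), htn] at h2
  omega

include hμ

theorem Meas.Ico_eq {a b : K} (hab : a ≤ b) : μ (Ico a b) = μ (Iio b) - μ (Iio a) := by
  have h := hμ.split (Iio a) (Ico a b) (fun x hx y hy => lt_of_lt_of_le hx hy.1)
  rw [Set.Iio_union_Ico_eq_Iio hab] at h
  linarith

include hI in
theorem Meas.Ico_eq_Ioc {a b : K} (hab : a < b) : μ (Ico a b) = μ (Ioc a b) := by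
  have h1 := hμ.split {a} (Ioo a b) (fun x hx y hy => by rw [Set.mem_singleton_iff.1 hx]; exact hy.1)
  have h2 := hμ.split (Ioo a b) {b} (fun x hx y hy => by rw [Set.mem_singleton_iff.1 hy]; exact hx.2)
  rw [hμ.zero _ (singleton_mem hI a)] at h1
  rw [hμ.zero _ (singleton_mem hI b)] at h2
  have e1 : {a} ∪ Ioo a b = Ico a b := by
    rw [Set.singleton_union]
    exact Set.Ioo_insert_left hab
  have e2 : Ioo a b ∪ {b} = Ioc a b := by
    rw [Set.union_singleton]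
    exact Set.Ioo_insert_right hab
  rw [e1] at h1
  rw [e2] at h2
  linarith

theorem Meas.mono_step {g : Γ} {C : Set K} (hg : Gd g C)
    (hm : StrictMonoOn (fun y => g • y) C) {a b : K} (ha : a ∈ C) (hb : b ∈ C) (hab : a < b) :
    μ (Iio (g • b)) - μ (Iio (g • a)) = μ (Iio b) - μ (Iio a) := by
  have hsub : Ico a b ⊆ C := fun x hx => hg.1.out ha hb ⟨hx.1, hx.2.le⟩
  have h1 := hμ.inv g (Ico a b) (hg.mono hsub Set.ordConnected_Ico)
  have h2 : im g (Ico a b) = Ico (g • a) (g • b) := by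
    apply Set.Subset.antisymm
    · rintro _ ⟨x, hx, rfl⟩
      exact ⟨(hm.le_iff_le ha (hsub hx)).2 hx.1, hm (hsub hx) hb hx.2⟩
    · rintro y hy
      obtain ⟨x, hx, rfl⟩ := hg.2.1.out ⟨a, ha, rfl⟩ ⟨b, hb, rfl⟩ ⟨hy.1, hy.2.le⟩
      exact ⟨x, ⟨(hm.le_iff_le ha hx).1 hy.1, (hm.lt_iff_lt hx hb).1 hy.2⟩, rfl⟩
  rw [h2, hμ.Ico_eq (hm ha hb hab).le, hμ.Ico_eq hab.le] at h1
  exact h1

include hI in
theorem Meas.anti_step {g : Γ} {C : Set K} (hg : Gd g C)
    (hm : StrictAntiOn (fun y => g • y) C) {a b : K} (ha : a ∈ C) (hb : b ∈ C) (hab : a < b) :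
    μ (Iio (g • a)) - μ (Iio (g • b)) = μ (Iio b) - μ (Iio a) := by
  have hsub : Ico a b ⊆ C := fun x hx => hg.1.out ha hb ⟨hx.1, hx.2.le⟩
  have h1 := hμ.inv g (Ico a b) (hg.mono hsub Set.ordConnected_Ico)
  have h2 : im g (Ico a b) = Ioc (g • b) (g • a) := by
    apply Set.Subset.antisymm
    · rintro _ ⟨x, hx, rfl⟩
      exact ⟨hm (hsub hx) hb hx.2, (hm.le_iff_ge (hsub hx) ha).2 hx.1⟩
    · rintro y hy
      obtain ⟨x, hx, rfl⟩ := hg.2.1.out ⟨b, hb, rfl⟩ ⟨a, ha, rfl⟩ ⟨hy.1.le, hy.2⟩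
      exact ⟨x, ⟨(hm.le_iff_ge hx ha).1 hy.2, (hm.lt_iff_gt hb hx).1 hy.1⟩, rfl⟩
  have hlt : g • b < g • a := hm ha hb hab
  rw [h2, ← hμ.Ico_eq_Ioc hI hlt, hμ.Ico_eq hlt.le, hμ.Ico_eq hab.le] at h1
  exact h1

include hI in
theorem Meas.block {J : Set K} {C : Set K} (hC : C ∈ I ∨ ∃ δ : Γ, Gd δ C ∧ im δ C ⊆ J)
    (hJ0 : 0 ≤ μ J) {A : Set K} (hA : A ⊆ C) : μ A ≤ μ J := by
  rcases hC with hC | ⟨δ, hδ, hsub⟩
  · rw [hμ.zero _ (hI.ii.sub C hC A hA)]
    exact hJ0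
  · calc μ A ≤ μ C := hμ.mono _ _ hA
      _ = μ (im δ C) := (hμ.inv δ C hδ).symm
      _ ≤ μ J := hμ.mono _ _ hsub

include hI in
/-- the distribution function has no gaps -/
theorem Meas.dense (t : ℝ) (ht0 : 0 ≤ t) (ht1 : t < 1) (ε : ℝ) (hε : 0 < ε) :
    ∃ y, t < μ (Iio y) ∧ μ (Iio y) < t + ε := by
  obtain ⟨J, hJ, hJc, hJs⟩ := hμ.small (min ε (1 - t) / 3) (by
    have : 0 < min ε (1 - t) := lt_min hε (by linarith)
    linarith)
  obtain ⟨Q, hQ, hQc, hQg⟩ := hI.blocks hJ hJc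
  have hJ0 := hμ.nonneg J
  have h3 : 3 * μ J < ε := by
    have := min_le_left ε (1 - t)
    linarith
  have h4 : 3 * μ J < 1 - t := by
    have := min_le_right ε (1 - t)
    linarith
  let A : Set K := {y | μ (Iio y) ≤ t}
  have hF : ∀ x y, x ≤ y → μ (Iio x) ≤ μ (Iio y) := fun x y hxy =>
    hμ.mono _ _ (Set.Iio_subset_Iio hxy)
  have hAt : μ A ≤ t + μ J := by
    by_cases hA : A.Nonempty
    · obtain ⟨C, hC, y, hy, hyC, hcof⟩ := exists_cofinal hQ hQc (fun C hC => (hQg C hC).1) hA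
      have e : A = Iio y ∪ (A ∩ Ici y) := by
        ext z
        constructor
        · intro hz
          rcases lt_or_ge z y with h | h
          · exact Or.inl h
          · exact Or.inr ⟨hz, h⟩
        · rintro (h | h)
          · exact (hF z y (le_of_lt h)).trans hy
          · exact h.1
      have h5 := hμ.split (Iio y) (A ∩ Ici y) (fun a ha b hb => lt_of_lt_of_le ha hb.2)
      rw [← e] at h5
      have h6 : μ (A ∩ Ici y) ≤ μ J :=
        hμ.block hI (hQg C hC).2 hJ0 (fun z hz => hcof z hz.1 hz.2)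
      have h7 : μ (Iio y) ≤ t := hy
      linarith
    · rw [Set.not_nonempty_iff_eq_empty] at hA
      rw [hA, hμ.zero _ hI.empty]
      linarith
  have hAc : (Aᶜ : Set K).Nonempty := by
    rw [Set.nonempty_compl]
    intro hA
    rw [hA, hμ.univ] at hAt
    linarith
  obtain ⟨C, hC, y, hy, hyC, hco⟩ := exists_coinitial hQ hQc (fun C hC => (hQg C hC).1) hAc
  have hy' : t < μ (Iio y) := not_le.1 hy
  refine ⟨y, hy', ?_⟩
  have e : Iio y = A ∪ (Aᶜ ∩ Iio y) := by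
    ext z
    constructor
    · intro hz
      by_cases h : z ∈ A
      · exact Or.inl h
      · exact Or.inr ⟨h, hz⟩
    · rintro (h | h)
      · by_contra hz
        have hz' : y ≤ z := not_lt.1 hz
        exact absurd ((hF y z hz').trans h) (not_le.2 hy')
      · exact h.2
  have h5 := hμ.split A (Aᶜ ∩ Iio y) (fun a ha b hb => by
    by_contra hz
    rw [not_lt] at hz
    exact hb.1 ((hF b a hz).trans ha))
  rw [← e] at h5
  have h6 : μ (Aᶜ ∩ Iio y) ≤ μ J :=
    hμ.block hI (hQg C hC).2 hJ0 (fun z hz => hco z hz.1 (le_of_lt hz.2))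
  linarith

end

/-- **The unbounded case.** -/
theorem rowF : RowF := by
  intro K _ Γ _ _ I hI hub
  obtain ⟨μ, hμ⟩ := exists_meas hI hub
  have hF : ∀ x y : K, x ≤ y → μ (Iio x) ≤ μ (Iio y) := fun x y hxy =>
    hμ.mono _ _ (Set.Iio_subset_Iio hxy)
  have hdense := hμ.dense hI
  refine ⟨fun y => μ (Iio y), hF, ?_, hdense, ?_, ?_, ?_⟩
  · intro x
    refine ⟨hμ.nonneg _, ?_⟩
    have := hμ.mono _ _ (Set.subset_univ (Iio x))
    rwa [hμ.univ] at this
  · intro g C hg hm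
    by_cases hC : C.Nonempty
    · obtain ⟨c, hc⟩ := hC
      refine ⟨μ (Iio (g • c)) - μ (Iio c), ?_⟩
      intro y hy
      rcases lt_trichotomy y c with h | h | h
      · have := hμ.mono_step hg hm hy hc h
        dsimp only
        linarith
      · subst h
        dsimp only
        linarith
      · have := hμ.mono_step hg hm hc hy h
        dsimp only
        linarith
    · exact ⟨0, fun y hy => absurd ⟨y, hy⟩ hC⟩
  · intro g C hg hm
    by_cases hC : C.Nonempty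
    · obtain ⟨c, hc⟩ := hC
      refine ⟨μ (Iio (g • c)) + μ (Iio c), ?_⟩
      intro y hy
      rcases lt_trichotomy y c with h | h | h
      · have := hμ.anti_step hI hg hm hy hc h
        dsimp only
        linarith
      · subst h
        dsimp only
        linarith
      · have := hμ.anti_step hI hg hm hc hy h
        dsimp only
        linarith
    · exact ⟨0, fun y hy => absurd ⟨y, hy⟩ hC⟩
  · intro J hJc hJ
    by_contra hne
    have hconst : ∀ a ∈ J, ∀ b ∈ J, μ (Iio a) = μ (Iio b) := by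
      intro a ha b hb
      apply le_antisymm
      · by_contra h
        exact hne ⟨b, hb, a, ha, not_le.1 h⟩
      · by_contra h
        exact hne ⟨a, ha, b, hb, not_le.1 h⟩
    obtain ⟨Q, hQ, hQc, hQg⟩ := hI.blocks hJ hJc
    have hblock : ∀ C ∈ Q, ∀ a ∈ C, ∀ b ∈ C, a < b → μ (Iio a) = μ (Iio b) := by
      intro C hC a ha b hb hab
      obtain ⟨hCo, hCI | ⟨δ, hδ, hsub⟩⟩ := hQg C hC
      · have h1 := hμ.Ico_eq hab.le
        have h2 : μ (Ico a b) = 0 := hμ.zero _ (hI.ii.sub C hCI _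
          (fun x hx => hCo.out ha hb ⟨hx.1, hx.2.le⟩))
        linarith
      · have h3 := hconst _ (hsub ⟨a, ha, rfl⟩) _ (hsub ⟨b, hb, rfl⟩)
        dsimp only at h3
        rcases hδ.2.2 with hm | hm
        · have := hμ.mono_step hδ hm ha hb hab
          linarith
        · have := hμ.anti_step hI hδ hm ha hb hab
          linarith
    have hfin : (Set.range (fun y : K => μ (Iio y))).Finite := by
      have h1 : (⋃ C ∈ Q, (fun y : K => μ (Iio y)) '' C).Finite := by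
        refine hQ.biUnion (fun C hC => Set.Subsingleton.finite ?_)
        rintro _ ⟨a, ha, rfl⟩ _ ⟨b, hb, rfl⟩
        rcases lt_trichotomy a b with h | h | h
        · exact hblock C hC a ha b hb h
        · rw [h]
        · exact (hblock C hC b hb a ha h).symm
      refine h1.subset ?_
      rintro _ ⟨y, rfl⟩
      obtain ⟨C, hC, hy⟩ := hQc y
      exact Set.mem_iUnion₂.2 ⟨C, hC, y, hy, rfl⟩
    have hfin2 : {v | v ∈ Set.range (fun y : K => μ (Iio y)) ∧ 0 < v}.Finite :=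
      hfin.subset (fun v hv => hv.1)
    obtain ⟨y0, hy0, -⟩ := hdense 0 (le_refl _) one_pos 1 one_pos
    obtain ⟨v, hv, hmin⟩ := hfin2.exists_minimalFor id _ ⟨_, ⟨y0, rfl⟩, hy0⟩
    obtain ⟨y1, hy1, hy2⟩ := hdense 0 (le_refl _) one_pos v hv.2
    rw [zero_add] at hy2
    have h5 := hmin ⟨⟨y1, rfl⟩, hy1⟩ hy2.le
    exact absurd h5 (not_le.2 hy2)

end Vale.Agent.P192.PM
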