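import Vale.Agent.P192.H124.PMCase

/-!
# P192: piecewise monotone bijections of linear orders: the invariant measure
-/

namespace Vale.Agent.P192.PM

open Set Classical Filter Topology

variable {K : Type} [LinearOrder K] {Γ : Type} [Group Γ] [MulAction Γ K]

variable (Γ) in
/-- packing numbers -/
noncomputable def Nn (J A : Set K) : ℕ := sSup {m | ∃ T, Pk Γ J A T ∧ T.card = m}

variable {I : Set (Set K)} (hI : Std Γ I)

theorem pk_empty (J A : Set K) : Pk Γ J A ∅ :=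
  ⟨fun X hX => absurd hX (Finset.notMem_empty _), fun X hX => absurd hX (Finset.notMem_empty _)⟩

theorem Nn_le {J A : Set K} {c : ℕ} (h : ∀ T, Pk Γ J A T → T.card ≤ c) : Nn Γ J A ≤ c := by
  refine csSup_le (s := {m | ∃ T, Pk Γ J A T ∧ T.card = m})
    ⟨0, ∅, pk_empty J A, Finset.card_empty⟩ ?_
  rintro m ⟨T, hT, rfl⟩
  exact h T hT

section J

variable {J : Set K} (hJ : J ∉ I) (hJc : J.OrdConnected)

include hI hJ hJc

theorem Nn_bdd (A : Set K) : BddAbove {m | ∃ T, Pk Γ J A T ∧ T.card = m} := by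
  obtain ⟨b, hb⟩ := hI.bound hJ hJc
  refine ⟨b, ?_⟩
  rintro m ⟨T, hT, rfl⟩
  exact hb T (hT.restrict (fun X _ => Set.subset_univ X))

theorem le_Nn {A : Set K} {T : Finset (Set K)} (hT : Pk Γ J A T) : T.card ≤ Nn Γ J A :=
  le_csSup (Nn_bdd hI hJ hJc A) ⟨T, hT, rfl⟩

theorem exists_Nn (A : Set K) : ∃ T, Pk Γ J A T ∧ T.card = Nn Γ J A :=
  Nat.sSup_mem (s := {m | ∃ T, Pk Γ J A T ∧ T.card = m})
    ⟨0, ∅, pk_empty J A, Finset.card_empty⟩ (Nn_bdd hI hJ hJc A)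

theorem Nn_mono {A B : Set K} (h : A ⊆ B) : Nn Γ J A ≤ Nn Γ J B :=
  Nn_le (fun T hT => le_Nn hI hJ hJc (hT.restrict (fun X hX => (hT.1 X hX).2.trans h)))

theorem Nn_im_le {A : Set K} {γ : Γ} (h : Gd γ A) : Nn Γ J A ≤ Nn Γ J (im γ A) := by
  apply Nn_le
  intro T hT
  obtain ⟨T', hT', hc⟩ := hT.image h
  rw [← hc]
  exact le_Nn hI hJ hJc hT'

theorem Nn_im {A : Set K} {γ : Γ} (h : Gd γ A) : Nn Γ J (im γ A) = Nn Γ J A := by
  apply le_antisymm _ (Nn_im_le hI hJ hJc h)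
  have := Nn_im_le hI hJ hJc h.inv
  rwa [im_inv_im] at this

theorem Nn_split_le {A1 A2 : Set K} (hA : ∀ a ∈ A1, ∀ b ∈ A2, a < b) :
    Nn Γ J (A1 ∪ A2) ≤ Nn Γ J A1 + Nn Γ J A2 + 1 := by
  apply Nn_le
  intro T hT
  obtain ⟨T1, T2, h1, h2, h3⟩ := hT.split hA
  have h4 := le_Nn hI hJ hJc h1
  have h5 := le_Nn hI hJ hJc h2
  omega

theorem Nn_sum {A : Set K} (T : Finset (Set K)) (hTA : ∀ X ∈ T, X ⊆ A)
    (hd : ∀ X ∈ T, ∀ Y ∈ T, X ≠ Y → Disjoint X Y) : ∑ X ∈ T, Nn Γ J X ≤ Nn Γ J A := by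
  choose P hP hPc using fun X => exists_Nn hI hJ hJc X
  have hne : ∀ X, ∀ Z ∈ P X, Z.Nonempty := by
    intro X Z hZ
    obtain ⟨⟨γ, -, rfl⟩, -⟩ := (hP X).1 Z hZ
    obtain ⟨x, hx⟩ := hI.nonempty hJ
    exact ⟨γ • x, x, hx, rfl⟩
  have hdis : ∀ X ∈ T, ∀ Y ∈ T, X ≠ Y → Disjoint (P X) (P Y) := by
    intro X hX Y hY hXY
    rw [Finset.disjoint_left]
    intro Z hZX hZY
    obtain ⟨z, hz⟩ := hne X Z hZX
    exact Set.disjoint_left.1 (hd X hX Y hY hXY) (((hP X).1 Z hZX).2 hz)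
      (((hP Y).1 Z hZY).2 hz)
  have h1 : (T.biUnion P).card = ∑ X ∈ T, Nn Γ J X := by
    rw [Finset.card_biUnion hdis]
    exact Finset.sum_congr rfl (fun X _ => hPc X)
  rw [← h1]
  apply le_Nn hI hJ hJc
  refine ⟨?_, ?_⟩
  · intro Z hZ
    obtain ⟨X, hX, hZX⟩ := Finset.mem_biUnion.1 hZ
    exact ⟨((hP X).1 Z hZX).1, ((hP X).1 Z hZX).2.trans (hTA X hX)⟩
  · intro Z hZ W hW hZW
    obtain ⟨X, hX, hZX⟩ := Finset.mem_biUnion.1 hZ
    obtain ⟨Y, hY, hWY⟩ := Finset.mem_biUnion.1 hW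
    by_cases hXY : X = Y
    · subst hXY
      exact (hP X).2 Z hZX W hWY hZW
    · exact (hd X hX Y hY hXY).mono (((hP X).1 Z hZX).2) (((hP Y).1 W hWY).2)

theorem Nn_I {A : Set K} (hA : A ∈ I) : Nn Γ J A = 0 := by
  apply Nat.le_zero.1
  apply Nn_le
  intro T hT
  rw [Nat.le_zero, Finset.card_eq_zero, Finset.eq_empty_iff_forall_notMem]
  intro X hX
  obtain ⟨⟨γ, -, rfl⟩, hXA⟩ := hT.1 X hX
  exact hI.not_mem_im hJ γ (hI.ii.sub A hA _ hXA)

theorem Nn_split_ge {A1 A2 : Set K} (hA : ∀ a ∈ A1, ∀ b ∈ A2, a < b) :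
    Nn Γ J A1 + Nn Γ J A2 ≤ Nn Γ J (A1 ∪ A2) := by
  have hdis : Disjoint A1 A2 := Set.disjoint_left.2 fun x h1 h2 => lt_irrefl _ (hA x h1 x h2)
  by_cases hne : A1 = A2
  · subst hne
    rw [disjoint_self] at hdis
    have h0 : A1 = ∅ := hdis
    rw [h0, Nn_I hI hJ hJc hI.empty]
    exact Nat.zero_le _
  · rw [← Finset.sum_pair (f := fun X => Nn Γ J X) hne]
    refine Nn_sum hI hJ hJc {A1, A2} ?_ ?_
    · intro X hX
      rcases Finset.mem_insert.1 hX with rfl | hX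
      · exact Set.subset_union_left
      · rw [Finset.mem_singleton.1 hX]
        exact Set.subset_union_right
    · intro X hX Y hY hXY
      rw [Finset.mem_insert, Finset.mem_singleton] at hX hY
      rcases hX with h1 | h1 <;> rcases hY with h2 | h2
      · exact absurd (h1.trans h2.symm) hXY
      · rw [h1, h2]
        exact hdis
      · rw [h1, h2]
        exact hdis.symm
      · exact absurd (h1.trans h2.symm) hXY

end J

/-- the properties of the measure -/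
structure Meas (Γ : Type) [Group Γ] [MulAction Γ K] (I : Set (Set K)) (μ : Set K → ℝ) : Prop where
  nonneg : ∀ A, 0 ≤ μ A
  mono : ∀ A B, A ⊆ B → μ A ≤ μ B
  univ : μ Set.univ = 1
  inv : ∀ (γ : Γ) A, Gd γ A → μ (im γ A) = μ A
  split : ∀ A B, (∀ a ∈ A, ∀ b ∈ B, a < b) → μ (A ∪ B) = μ A + μ B
  zero : ∀ A ∈ I, μ A = 0
  small : ∀ ε > 0, ∃ J, J ∉ I ∧ J.OrdConnected ∧ μ J < ε

include hI in
theorem exists_meas (hub : ∀ n : ℕ, ∃ J : Set K, J ∉ I ∧ J.OrdConnected ∧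
    ∃ T, Pk Γ J univ T ∧ n ≤ T.card) : ∃ μ, Meas Γ I μ := by
  choose J hJ hJc T hT hTc using hub
  have hlarge : ∀ n, n ≤ Nn Γ (J n) univ := fun n => (hTc n).trans (le_Nn hI (hJ n) (hJc n) (hT n))
  let m : ℕ → Set K → ℝ := fun n A => (Nn Γ (J n) A : ℝ) / (Nn Γ (J n) univ : ℝ)
  have hm0 : ∀ n A, 0 ≤ m n A := fun n A => div_nonneg (Nat.cast_nonneg _) (Nat.cast_nonneg _)
  have hm1 : ∀ n A, m n A ≤ 1 := fun n A => div_le_one_of_le₀
    (by exact_mod_cast Nn_mono hI (hJ n) (hJc n) (Set.subset_univ A)) (Nat.cast_nonneg _)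
  let U : Ultrafilter ℕ := hyperfilter ℕ
  have hUtop : (U : Filter ℕ) ≤ atTop := by
    have := Nat.hyperfilter_le_atTop
    exact this
  have hlim : ∀ A, ∃ x, Tendsto (fun n => m n A) U (𝓝 x) := by
    intro A
    obtain ⟨x, -, hx⟩ := (isCompact_Icc (a := (0 : ℝ)) (b := 1)).ultrafilter_le_nhds
      (U.map (fun n => m n A)) (by
        rw [Ultrafilter.coe_map, Filter.le_principal_iff, Filter.mem_map]
        exact Filter.univ_mem' (fun n => ⟨hm0 n A, hm1 n A⟩))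
    exact ⟨x, hx⟩
  choose μ hμ using hlim
  refine ⟨μ, ?_, ?_, ?_, ?_, ?_, ?_, ?_⟩
  · exact fun A => ge_of_tendsto' (hμ A) (fun n => hm0 n A)
  · intro A B hAB
    refine le_of_tendsto_of_tendsto' (hμ A) (hμ B) (fun n => ?_)
    exact div_le_div_of_nonneg_right (by exact_mod_cast Nn_mono hI (hJ n) (hJc n) hAB)
      (Nat.cast_nonneg _)
  · refine tendsto_nhds_unique (hμ _) ?_
    refine Tendsto.congr' ?_ (tendsto_const_nhds (x := (1 : ℝ)))
    have h1 : ∀ᶠ n in (U : Filter ℕ), 1 ≤ n := hUtop (eventually_ge_atTop 1)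
    filter_upwards [h1] with n hn
    have h2 := hlarge n
    have h3 : ((Nn Γ (J n) univ : ℕ) : ℝ) ≠ 0 := by
      have : 0 < Nn Γ (J n) univ := by omega
      exact_mod_cast this.ne'
    exact (div_self h3).symm
  · intro γ A hγ
    refine tendsto_nhds_unique (hμ _) ?_
    refine (hμ A).congr (fun n => ?_)
    change (Nn Γ (J n) A : ℝ) / _ = (Nn Γ (J n) (im γ A) : ℝ) / _
    rw [Nn_im hI (hJ n) (hJc n) hγ]
  · intro A B hAB
    have h1 : Tendsto (fun n => m n (A ∪ B) - (m n A + m n B)) U (𝓝 0) := by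
      have h2 : Tendsto (fun n : ℕ => (1 : ℝ) / (n : ℝ)) U (𝓝 0) :=
        tendsto_one_div_atTop_nhds_zero_nat.mono_left hUtop
      refine squeeze_zero' (Filter.Eventually.of_forall fun n => ?_) ?_ h2
      · have h3 : (Nn Γ (J n) A : ℝ) + Nn Γ (J n) B ≤ Nn Γ (J n) (A ∪ B) := by
          exact_mod_cast Nn_split_ge hI (hJ n) (hJc n) hAB
        change 0 ≤ (Nn Γ (J n) (A ∪ B) : ℝ) / _ - ((Nn Γ (J n) A : ℝ) / _ + (Nn Γ (J n) B : ℝ) / _)
        rw [← add_div, ← sub_div]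
        exact div_nonneg (by linarith) (Nat.cast_nonneg _)
      · have h4 : ∀ᶠ n in (U : Filter ℕ), 1 ≤ n := hUtop (eventually_ge_atTop 1)
        filter_upwards [h4] with n hn
        have h3 : (Nn Γ (J n) (A ∪ B) : ℝ) ≤ Nn Γ (J n) A + Nn Γ (J n) B + 1 := by
          exact_mod_cast Nn_split_le hI (hJ n) (hJc n) hAB
        have h5 : (n : ℝ) ≤ (Nn Γ (J n) univ : ℝ) := by exact_mod_cast hlarge n
        have h6 : (0 : ℝ) < n := by exact_mod_cast hn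
        change (Nn Γ (J n) (A ∪ B) : ℝ) / _ - ((Nn Γ (J n) A : ℝ) / _ + (Nn Γ (J n) B : ℝ) / _) ≤ _
        rw [← add_div, ← sub_div]
        calc ((Nn Γ (J n) (A ∪ B) : ℝ) - (Nn Γ (J n) A + Nn Γ (J n) B)) / (Nn Γ (J n) univ : ℝ)
            ≤ 1 / (Nn Γ (J n) univ : ℝ) :=
              div_le_div_of_nonneg_right (by linarith) (Nat.cast_nonneg _)
          _ ≤ 1 / (n : ℝ) := one_div_le_one_div_of_le h6 h5
    have h7 := (hμ (A ∪ B)).sub ((hμ A).add (hμ B))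
    have h8 := tendsto_nhds_unique h7 h1
    linarith
  · intro A hA
    refine tendsto_nhds_unique (hμ A) ?_
    refine (tendsto_const_nhds (x := (0 : ℝ))).congr (fun n => ?_)
    change 0 = (Nn Γ (J n) A : ℝ) / _
    rw [Nn_I hI (hJ n) (hJc n) hA]
    simp
  · intro ε hε
    obtain ⟨k, hk⟩ := exists_nat_gt (1 / ε)
    refine ⟨J k, hJ k, hJc k, ?_⟩
    have hk0 : (0 : ℝ) < k := (one_div_pos.2 hε).trans hk
    have h1 : ∀ n, (k : ℝ) * m n (J k) ≤ 1 := by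
      intro n
      have h2 := Nn_sum hI (hJ n) (hJc n) (A := univ) (T k) (fun X _ => Set.subset_univ X)
        (hT k).2
      have h3 : ∑ X ∈ T k, Nn Γ (J n) X = (T k).card * Nn Γ (J n) (J k) := by
        rw [Finset.sum_congr rfl (g := fun _ => Nn Γ (J n) (J k)), Finset.sum_const, smul_eq_mul]
        intro X hX
        obtain ⟨⟨γ, hγ, rfl⟩, -⟩ := (hT k).1 X hX
        exact Nn_im hI (hJ n) (hJc n) hγ
      rw [h3] at h2
      have h4 : k * Nn Γ (J n) (J k) ≤ Nn Γ (J n) univ :=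
        (Nat.mul_le_mul_right _ (hTc k)).trans h2
      have h5 : (k : ℝ) * (Nn Γ (J n) (J k) : ℝ) ≤ (Nn Γ (J n) univ : ℝ) := by exact_mod_cast h4
      change (k : ℝ) * ((Nn Γ (J n) (J k) : ℝ) / (Nn Γ (J n) univ : ℝ)) ≤ 1
      rw [← mul_div_assoc]
      exact div_le_one_of_le₀ h5 (Nat.cast_nonneg _)
    have h6 : (k : ℝ) * μ (J k) ≤ 1 := le_of_tendsto' ((hμ (J k)).const_mul _) h1
    rw [div_lt_iff₀ hε] at hk
    by_contra h7
    rw [not_lt] at h7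
    have h8 : (k : ℝ) * ε ≤ k * μ (J k) := mul_le_mul_of_nonneg_left h7 hk0.le
    linarith

end Vale.Agent.P192.PM
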