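import Vale.Agent.P192.H124.PMBase

/-!
# P192: piecewise monotone bijections of linear orders: packings
-/

namespace Vale.Agent.P192.PM

open Set Classical

variable {K : Type} [LinearOrder K] {Γ : Type} [Group Γ] [MulAction Γ K]

variable (Γ) in
/-- finite families of disjoint good translates of `J` inside of `A` -/
def Pk (J A : Set K) (T : Finset (Set K)) : Prop :=
  (∀ X ∈ T, (∃ γ : Γ, Gd γ J ∧ X = im γ J) ∧ X ⊆ A) ∧
    ∀ X ∈ T, ∀ Y ∈ T, X ≠ Y → Disjoint X Y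

theorem Pk.mono {J A : Set K} {T T' : Finset (Set K)} (h : Pk Γ J A T) (hT : T' ⊆ T) :
    Pk Γ J A T' :=
  ⟨fun X hX => h.1 X (hT hX), fun X hX Y hY => h.2 X (hT hX) Y (hT hY)⟩

theorem Pk.restrict {J A A' : Set K} {T : Finset (Set K)} (h : Pk Γ J A T)
    (hA : ∀ X ∈ T, X ⊆ A') : Pk Γ J A' T :=
  ⟨fun X hX => ⟨(h.1 X hX).1, hA X hX⟩, h.2⟩

theorem Pk.ord {J A : Set K} {T : Finset (Set K)} (h : Pk Γ J A T) {X : Set K} (hX : X ∈ T) :
    X.OrdConnected := by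
  obtain ⟨⟨γ, hγ, rfl⟩, -⟩ := h.1 X hX
  exact hγ.2.1

/-- at most one member meets both sides of a cut -/
theorem Pk.split {J A1 A2 : Set K} {T : Finset (Set K)} (h : Pk Γ J (A1 ∪ A2) T)
    (hA : ∀ a ∈ A1, ∀ b ∈ A2, a < b) :
    ∃ T1 T2, Pk Γ J A1 T1 ∧ Pk Γ J A2 T2 ∧ T.card ≤ T1.card + T2.card + 1 := by
  let T1 := T.filter (fun X => X ⊆ A1)
  let T2 := T.filter (fun X => X ⊆ A2)
  let T3 := T.filter (fun X => ¬ X ⊆ A1 ∧ ¬ X ⊆ A2)
  have h3 : T3.card ≤ 1 := by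
    rw [Finset.card_le_one]
    intro X hX Y hY
    obtain ⟨hX, hX1, hX2⟩ := Finset.mem_filter.1 hX
    obtain ⟨hY, hY1, hY2⟩ := Finset.mem_filter.1 hY
    have key : ∀ X ∈ T, ¬ X ⊆ A1 → ¬ X ⊆ A2 → (∃ a ∈ X, a ∈ A1) ∧ ∃ b ∈ X, b ∈ A2 := by
      intro X hX h1 h2
      obtain ⟨b, hb, hb1⟩ := Set.not_subset.1 h1
      obtain ⟨a, ha, ha1⟩ := Set.not_subset.1 h2
      exact ⟨⟨a, ha, ((h.1 X hX).2 ha).resolve_right ha1⟩,
        ⟨b, hb, ((h.1 X hX).2 hb).resolve_left hb1⟩⟩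
    obtain ⟨⟨a, ha, ha1⟩, b, hb, hb2⟩ := key X hX hX1 hX2
    obtain ⟨⟨a', ha', ha1'⟩, b', hb', hb2'⟩ := key Y hY hY1 hY2
    by_contra hne
    have hd := h.2 X hX Y hY hne
    rcases le_total a a' with hle | hle
    · exact Set.disjoint_left.1 hd ((h.ord hX).out ha hb ⟨hle, (hA a' ha1' b hb2).le⟩) ha'
    · exact Set.disjoint_left.1 hd ha ((h.ord hY).out ha' hb' ⟨hle, (hA a ha1 b' hb2').le⟩)
  refine ⟨T1, T2, (h.mono (Finset.filter_subset _ _)).restrict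
      (fun X hX => (Finset.mem_filter.1 hX).2), (h.mono (Finset.filter_subset _ _)).restrict
      (fun X hX => (Finset.mem_filter.1 hX).2), ?_⟩
  have hsub : T ⊆ (T1 ∪ T2) ∪ T3 := by
    intro X hX
    by_cases h1 : X ⊆ A1
    · exact Finset.mem_union_left _ (Finset.mem_union_left _ (Finset.mem_filter.2 ⟨hX, h1⟩))
    · by_cases h2 : X ⊆ A2
      · exact Finset.mem_union_left _ (Finset.mem_union_right _ (Finset.mem_filter.2 ⟨hX, h2⟩))
      · exact Finset.mem_union_right _ (Finset.mem_filter.2 ⟨hX, h1, h2⟩)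
  calc T.card ≤ ((T1 ∪ T2) ∪ T3).card := Finset.card_le_card hsub
    _ ≤ (T1 ∪ T2).card + T3.card := Finset.card_union_le _ _
    _ ≤ T1.card + T2.card + 1 := Nat.add_le_add (Finset.card_union_le _ _) h3

/-- translates of packings -/
theorem Pk.image {J A : Set K} {T : Finset (Set K)} (h : Pk Γ J A T) {γ : Γ} (hγ : Gd γ A) :
    ∃ T', Pk Γ J (im γ A) T' ∧ T'.card = T.card := by
  refine ⟨T.image (im γ), ⟨?_, ?_⟩, Finset.card_image_of_injective _ (im_injective γ)⟩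
  · intro X hX
    obtain ⟨Y, hY, rfl⟩ := Finset.mem_image.1 hX
    obtain ⟨⟨δ, hδ, rfl⟩, hYA⟩ := h.1 Y hY
    exact ⟨⟨γ * δ, hδ.mul (hγ.mono hYA hδ.2.1), (im_mul γ δ J).symm⟩, im_mono γ hYA⟩
  · intro X hX Y hY hXY
    obtain ⟨X', hX', rfl⟩ := Finset.mem_image.1 hX
    obtain ⟨Y', hY', rfl⟩ := Finset.mem_image.1 hY
    exact im_disjoint γ (h.2 X' hX' Y' hY' (fun e => hXY (by rw [e])))

/-- the standing assumptions: torsion group, piecewise monotone action, maximal invariant ideal -/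
structure Std (Γ : Type) [Group Γ] [MulAction Γ K] (I : Set (Set K)) : Prop where
  tor : ∀ x : Γ, IsOfFinOrder x
  pm : ∀ g : Γ, ∃ P : Set (Set K), P.Finite ∧ (∀ x, ∃ C ∈ P, x ∈ C) ∧ ∀ C ∈ P, Gd g C
  ii : IsII Γ I
  max : ∀ A, A ∉ I → ∃ C ∈ I, ∃ T : Finset Γ, ∀ x, x ∈ C ∨ ∃ γ ∈ T, x ∈ im γ A

variable {I : Set (Set K)} (hI : Std Γ I)

include hI

theorem Std.empty : (∅ : Set K) ∈ I := hI.ii.bd ∅ ⟨0, fun _ hx => hx.elim⟩

theorem Std.not_mem_im {J : Set K} (hJ : J ∉ I) (γ : Γ) : im γ J ∉ I := by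
  intro h
  have := hI.ii.inv _ h γ⁻¹
  rw [im_inv_im] at this
  exact hJ this

/-- the blocks -/
theorem Std.blocks {J : Set K} (hJ : J ∉ I) (hJc : J.OrdConnected) :
    ∃ Q : Set (Set K), Q.Finite ∧ (∀ x, ∃ C ∈ Q, x ∈ C) ∧
      ∀ C ∈ Q, C.OrdConnected ∧ (C ∈ I ∨ ∃ δ : Γ, Gd δ C ∧ im δ C ⊆ J) := by
  obtain ⟨C, hC, T, hT⟩ := hI.max J hJ
  choose P hP hPc hPg using fun g : Γ => hI.pm g
  let U : Set (Set K) := ⋃ γ ∈ T, (fun A => {x | x ∈ A ∧ γ⁻¹ • x ∈ J}) '' (P γ⁻¹)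
  have hU : U.Finite := Set.Finite.biUnion (Finset.finite_toSet T)
    (fun γ _ => (hP γ⁻¹).image _)
  have hUc : ∀ A ∈ U, A.OrdConnected ∧ ∃ δ : Γ, Gd δ A ∧ im δ A ⊆ J := by
    intro A hA
    obtain ⟨γ, hγ, B, hB, rfl⟩ := Set.mem_iUnion₂.1 hA
    have h1 : {x | x ∈ B ∧ γ⁻¹ • x ∈ J}.OrdConnected := good_preimage (hPg γ⁻¹ B hB) hJc
    refine ⟨h1, γ⁻¹, (hPg γ⁻¹ B hB).mono (fun x hx => hx.1) h1, ?_⟩
    rintro _ ⟨x, hx, rfl⟩
    exact hx.2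
  obtain ⟨V, hV, hVc, hVe⟩ := compl_cover U hU (fun A hA => (hUc A hA).1)
  refine ⟨U ∪ V, hU.union hV, ?_, ?_⟩
  · intro x
    by_cases hx : ∃ A ∈ U, x ∈ A
    · obtain ⟨A, hA, hxA⟩ := hx
      exact ⟨A, Or.inl hA, hxA⟩
    · obtain ⟨A, hA, hxA⟩ := (hVe x).2 hx
      exact ⟨A, Or.inr hA, hxA⟩
  · rintro A (hA | hA)
    · exact ⟨(hUc A hA).1, Or.inr (hUc A hA).2⟩
    · refine ⟨hVc A hA, Or.inl (hI.ii.sub C hC A ?_)⟩
      intro x hx
      have h1 := (hVe x).1 ⟨A, hA, hx⟩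
      rcases hT x with h2 | ⟨γ, hγ, h2⟩
      · exact h2
      · exfalso
        apply h1
        obtain ⟨B, hB, hxB⟩ := hPc γ⁻¹ x
        exact ⟨{x | x ∈ B ∧ γ⁻¹ • x ∈ J}, Set.mem_iUnion₂.2 ⟨γ, hγ, B, hB, rfl⟩, hxB,
          mem_im.1 h2⟩

/-- a block contains at most one translate -/
theorem Std.block_card {J C : Set K} (hJ : J ∉ I) (hC : C ∈ I ∨ ∃ δ : Γ, Gd δ C ∧ im δ C ⊆ J)
    {T : Finset (Set K)} (hT : Pk Γ J C T) : T.card ≤ 1 := by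
  rw [Finset.card_le_one]
  intro X hX Y hY
  obtain ⟨⟨γ, hγ, rfl⟩, hXC⟩ := hT.1 X hX
  obtain ⟨⟨γ', hγ', rfl⟩, hYC⟩ := hT.1 Y hY
  rcases hC with hC | ⟨δ, -, hδ⟩
  · exact absurd (hI.ii.sub C hC _ hXC) (hI.not_mem_im hJ γ)
  · have key : ∀ γ : Γ, im γ J ⊆ C → im γ J = im δ⁻¹ J := by
      intro γ hγ
      have h1 : im (δ * γ) J ⊆ J := by
        rw [im_mul]
        exact (im_mono δ hγ).trans hδ
      have h2 := im_eq_of_subset (hI.tor (δ * γ)) h1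
      rw [im_mul] at h2
      rw [← im_inv_im δ (im γ J), h2]
    rw [key γ hXC, key γ' hYC]

/-- packings are bounded -/
theorem Std.bound {J : Set K} (hJ : J ∉ I) (hJc : J.OrdConnected) :
    ∃ b : ℕ, ∀ T, Pk Γ J univ T → T.card ≤ b := by
  obtain ⟨Q, hQ, hQc, hQg⟩ := hI.blocks hJ hJc
  have hJne : J.Nonempty := by
    rw [Set.nonempty_iff_ne_empty]
    rintro rfl
    exact hJ hI.empty
  obtain ⟨j, hj⟩ := hJne
  refine ⟨3 * hQ.toFinset.card, ?_⟩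
  intro T hT
  by_contra hlt
  rw [not_le] at hlt
  -- a point in each member
  have hpt : ∀ X : Set K, ∃ x, X ∈ T → x ∈ X := by
    intro X
    by_cases hX : X ∈ T
    · obtain ⟨⟨γ, -, rfl⟩, -⟩ := hT.1 X hX
      exact ⟨γ • j, fun _ => ⟨j, hj, rfl⟩⟩
    · exact ⟨j, fun h => absurd h hX⟩
  choose pt hpt using hpt
  choose bl hbl hblx using hQc
  obtain ⟨C, hC, hcard⟩ := Finset.exists_lt_card_fiber_of_mul_lt_card_of_maps_to
    (s := T) (t := hQ.toFinset) (f := fun X => bl (pt X)) (n := 3)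
    (fun X _ => hQ.mem_toFinset.2 (hbl _)) (by omega)
  set F := T.filter (fun X => bl (pt X) = C) with hF
  have hFne : F.Nonempty := Finset.card_pos.1 (by omega)
  obtain ⟨X0, hX0, hmin⟩ := F.exists_min_image pt hFne
  obtain ⟨X1, hX1, hmax⟩ := F.exists_max_image pt hFne
  have hFT : ∀ X ∈ F, X ∈ T := fun X hX => (Finset.mem_filter.1 hX).1
  have hFC : ∀ X ∈ F, pt X ∈ C := fun X hX => by
    have h := (Finset.mem_filter.1 hX).2
    rw [← h]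
    exact hblx _
  set F' := (F.erase X0).erase X1 with hF'
  have hF'card : 1 < F'.card := by
    have h1 := Finset.pred_card_le_card_erase (s := F) (a := X0)
    have h2 := Finset.pred_card_le_card_erase (s := F.erase X0) (a := X1)
    rw [hF']
    omega
  have hCQ : C ∈ Q := hQ.mem_toFinset.1 hC
  have hF'sub : F' ⊆ T := fun X hX =>
    hFT X (Finset.mem_of_mem_erase (Finset.mem_of_mem_erase hX))
  have hins : ∀ X ∈ F', X ⊆ C := by
    intro X hX y hy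
    obtain ⟨hne1, hX'⟩ := Finset.mem_erase.1 hX
    obtain ⟨hne0, hXF⟩ := Finset.mem_erase.1 hX'
    have hXT := hFT X hXF
    have hxX := hpt X hXT
    have h0 := hpt X0 (hFT X0 hX0)
    have h1 := hpt X1 (hFT X1 hX1)
    have hd0 := hT.2 X hXT X0 (hFT X0 hX0) hne0
    have hd1 := hT.2 X hXT X1 (hFT X1 hX1) hne1
    have hlow : pt X0 ≤ y := by
      by_contra hy0
      rw [not_le] at hy0
      exact Set.disjoint_left.1 hd0 ((hT.ord hXT).out hy hxX ⟨hy0.le, hmin X hXF⟩) h0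
    have hhigh : y ≤ pt X1 := by
      by_contra hy0
      rw [not_le] at hy0
      exact Set.disjoint_left.1 hd1 ((hT.ord hXT).out hxX hy ⟨hmax X hXF, hy0.le⟩) h1
    exact (hQg C hCQ).1.out (hFC X0 hX0) (hFC X1 hX1) ⟨hlow, hhigh⟩
  have := hI.block_card hJ (hQg C hCQ).2 ((hT.mono hF'sub).restrict hins)
  omega

end Vale.Agent.P192.PM
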