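import Vale.Agent.P192.H124.Flux

/-!
# P192: many cuts of bounded width
-/

namespace Vale.Agent.P192

open Classical

theorem exists_code {Ω : Type} {K : ℕ} (B : Set Ω) (h : B.encard ≤ K) :
    ∃ κ : Ω → Fin (K + 1), Set.InjOn κ B := by
  have hf : B.Finite := Set.finite_of_encard_le_coe h
  have : Fintype B := hf.fintype
  have h2 : Fintype.card B ≤ Fintype.card (Fin (K + 1)) := by
    rw [Fintype.card_fin, ← Nat.card_eq_fintype_card]
    have h3 : B.ncard ≤ K := by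
      have := h
      rw [← hf.cast_ncard_eq] at this
      exact_mod_cast this
    exact (Nat.card_coe_set_eq B).le.trans (h3.trans (Nat.le_succ _))
  obtain ⟨e⟩ := Function.Embedding.nonempty_of_card_le h2
  refine ⟨fun ω => if hω : ω ∈ B then e ⟨ω, hω⟩ else 0, ?_⟩
  intro a ha b hb hab
  dsimp only at hab
  rw [dif_pos ha, dif_pos hb] at hab
  exact congrArg Subtype.val (e.injective hab)

variable {Γ : Type} [Group Γ] {Ω : Type} [MulAction Γ Ω]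

/-- the possible local types -/
abbrev Typ (S : Set Γ) (K : ℕ) : Type :=
  Set (Fin (K + 1)) × (S → Set (Fin (K + 1) × Fin (K + 1))) ×
    Set (Fin (K + 1) × Fin (K + 1)) × Set (Fin (K + 1))

/-- the local type -/
def typ (S : Set Γ) (K : ℕ) (E : Ω → Ω → Prop) (P B : Set Ω) (κ : Ω → Fin (K + 1)) : Typ S K :=
  (κ '' B, fun s => {x | ∃ v ∈ B, ∃ u ∈ B, (s : Γ) • v = u ∧ x = (κ v, κ u)},
    {x | ∃ v ∈ B, ∃ u ∈ B, E v u ∧ x = (κ v, κ u)}, {x | ∃ v ∈ B, v ∈ P ∧ x = κ v})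

theorem exists_GD {S : Set Γ} {K : ℕ} (E : Ω → Ω → Prop) {P B P' B' : Set Ω}
    {κ κ' : Ω → Fin (K + 1)} (hκ : Set.InjOn κ B) (hκ' : Set.InjOn κ' B')
    (h : typ S K E P B κ = typ S K E P' B' κ')
    (QP : ∀ v ∈ P', v ∈ P) (BQ : ∀ v ∈ B, v ∉ P') (BP : ∀ v ∈ B', v ∈ P)
    (up : ∀ ω, ω ∉ P' → ∀ t ∈ S, t • ω ∈ P' → ∀ s ∈ S, s • t • ω ∈ B')
    (down : ∀ ω ∈ P, ∀ t ∈ S, t • ω ∉ P → ∀ s ∈ S, s • t • ω ∈ B) :
    ∃ D : GD Γ Ω S, D.P = P ∧ D.Q = P' ∧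
      ∀ v ∈ D.B, ∀ u ∈ D.B, E v u ↔ E (D.θ v) (D.θ u) := by
  by_cases hne : Nonempty Ω
  swap
  · exact ⟨{ P := P, Q := P', B := B, B' := B', θ := id, θ' := id
             θB := fun v => (hne ⟨v⟩).elim
             θB' := fun v => (hne ⟨v⟩).elim
             left := fun v => (hne ⟨v⟩).elim
             right := fun v => (hne ⟨v⟩).elim
             QP := QP, BQ := BQ, BP := BP
             side := fun v => (hne ⟨v⟩).elim
             up := up, down := down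
             equi := fun v => (hne ⟨v⟩).elim }, rfl, rfl, fun v => (hne ⟨v⟩).elim⟩
  have e1 : κ '' B = κ' '' B' := congrArg Prod.fst h
  have e2 : (fun s : S => {x | ∃ v ∈ B, ∃ u ∈ B, (s : Γ) • v = u ∧ x = (κ v, κ u)}) =
      fun s : S => {x | ∃ v ∈ B', ∃ u ∈ B', (s : Γ) • v = u ∧ x = (κ' v, κ' u)} :=
    congrArg (fun z => z.2.1) h
  have e3 : {x | ∃ v ∈ B, ∃ u ∈ B, E v u ∧ x = (κ v, κ u)} =
      {x | ∃ v ∈ B', ∃ u ∈ B', E v u ∧ x = (κ' v, κ' u)} :=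
    congrArg (fun z => z.2.2.1) h
  have e4 : {x | ∃ v ∈ B, v ∈ P ∧ x = κ v} = {x | ∃ v ∈ B', v ∈ P' ∧ x = κ' v} :=
    congrArg (fun z => z.2.2.2) h
  let θ : Ω → Ω := fun v => Function.invFunOn κ' B' (κ v)
  let θ' : Ω → Ω := fun v => Function.invFunOn κ B (κ' v)
  have t1 : ∀ v ∈ B, θ v ∈ B' ∧ κ' (θ v) = κ v := by
    intro v hv
    have h1 : κ v ∈ κ' '' B' := by
      rw [← e1]
      exact ⟨v, hv, rfl⟩
    exact ⟨Function.invFunOn_mem h1, Function.invFunOn_eq h1⟩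
  have t2 : ∀ v ∈ B', θ' v ∈ B ∧ κ (θ' v) = κ' v := by
    intro v hv
    have h1 : κ' v ∈ κ '' B := by
      rw [e1]
      exact ⟨v, hv, rfl⟩
    exact ⟨Function.invFunOn_mem h1, Function.invFunOn_eq h1⟩
  have hE : ∀ v ∈ B, ∀ u ∈ B, E v u ↔ E (θ v) (θ u) := by
    intro v hv u hu
    constructor
    · intro h1
      have h2 : (κ v, κ u) ∈ {x | ∃ v ∈ B', ∃ u ∈ B', E v u ∧ x = (κ' v, κ' u)} := by
        rw [← e3]
        exact ⟨v, hv, u, hu, h1, rfl⟩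
      obtain ⟨v2, hv2, u2, hu2, h3, h4⟩ := h2
      have h5 : θ v = v2 := hκ' (t1 v hv).1 hv2 ((t1 v hv).2.trans (congrArg Prod.fst h4))
      have h6 : θ u = u2 := hκ' (t1 u hu).1 hu2 ((t1 u hu).2.trans (congrArg Prod.snd h4))
      rw [h5, h6]
      exact h3
    · intro h1
      have h2 : (κ' (θ v), κ' (θ u)) ∈ {x | ∃ v ∈ B, ∃ u ∈ B, E v u ∧ x = (κ v, κ u)} := by
        rw [e3]
        exact ⟨θ v, (t1 v hv).1, θ u, (t1 u hu).1, h1, rfl⟩
      obtain ⟨v2, hv2, u2, hu2, h3, h4⟩ := h2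
      have h5 : v = v2 := hκ hv hv2 ((t1 v hv).2.symm.trans (congrArg Prod.fst h4))
      have h6 : u = u2 := hκ hu hu2 ((t1 u hu).2.symm.trans (congrArg Prod.snd h4))
      rw [h5, h6]
      exact h3
  refine ⟨{ P := P, Q := P', B := B, B' := B', θ := θ, θ' := θ'
            θB := fun v hv => (t1 v hv).1
            θB' := fun v hv => (t2 v hv).1
            left := fun v hv => ?_
            right := fun v hv => ?_
            QP := QP, BQ := BQ, BP := BP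
            side := fun v hv => ?_
            up := up, down := down
            equi := fun v hv s hs h1 => ?_ }, rfl, rfl, hE⟩
  · exact hκ (t2 _ (t1 v hv).1).1 hv ((t2 _ (t1 v hv).1).2.trans (t1 v hv).2)
  · exact hκ' (t1 _ (t2 v hv).1).1 hv ((t1 _ (t2 v hv).1).2.trans (t2 v hv).2)
  · constructor
    · intro h1
      have h2 : κ v ∈ {x | ∃ v ∈ B', v ∈ P' ∧ x = κ' v} := by
        rw [← e4]
        exact ⟨v, hv, h1, rfl⟩
      obtain ⟨v2, hv2, h3, h4⟩ := h2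
      have h5 : θ v = v2 := hκ' (t1 v hv).1 hv2 ((t1 v hv).2.trans h4)
      rw [h5]
      exact h3
    · intro h1
      have h2 : κ' (θ v) ∈ {x | ∃ v ∈ B, v ∈ P ∧ x = κ v} := by
        rw [e4]
        exact ⟨θ v, (t1 v hv).1, h1, rfl⟩
      obtain ⟨v2, hv2, h3, h4⟩ := h2
      have h5 : v = v2 := hκ hv hv2 ((t1 v hv).2.symm.trans h4)
      rw [h5]
      exact h3
  · rcases h1 with h1 | h1
    · have h2 : (κ v, κ (s • v)) ∈
          (fun s : S => {x | ∃ v ∈ B', ∃ u ∈ B', (s : Γ) • v = u ∧ x = (κ' v, κ' u)}) ⟨s, hs⟩ := by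
        rw [← e2]
        exact ⟨v, hv, s • v, h1, rfl, rfl⟩
      obtain ⟨v2, hv2, u2, hu2, h3, h4⟩ := h2
      have h5 : θ v = v2 := hκ' (t1 v hv).1 hv2 ((t1 v hv).2.trans (congrArg Prod.fst h4))
      have h6 : θ (s • v) = u2 := hκ' (t1 _ h1).1 hu2 ((t1 _ h1).2.trans (congrArg Prod.snd h4))
      refine ⟨h1, ?_⟩
      rw [h5, h6]
      exact h3.symm
    · have h2 : (κ' (θ v), κ' (s • θ v)) ∈
          (fun s : S => {x | ∃ v ∈ B, ∃ u ∈ B, (s : Γ) • v = u ∧ x = (κ v, κ u)}) ⟨s, hs⟩ := by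
        rw [e2]
        exact ⟨θ v, (t1 v hv).1, s • θ v, h1, rfl, rfl⟩
      obtain ⟨v2, hv2, u2, hu2, h3, h4⟩ := h2
      have h5 : v = v2 := hκ hv hv2 ((t1 v hv).2.symm.trans (congrArg Prod.fst h4))
      have h3' : s • v = u2 := by rw [h5]; exact h3
      have h6 : s • v ∈ B := by rw [h3']; exact hu2
      refine ⟨h6, hκ' (t1 _ h6).1 h1 ((t1 _ h6).2.trans ?_)⟩
      rw [h3']
      exact (congrArg Prod.snd h4).symm

/-- **There are boundedly many disjoint cuts of bounded width between the points of an orbit.** -/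
theorem exists_bound_cuts {S : Set Γ} (hS : S.Finite) (h1 : (1 : Γ) ∈ S)
    (hi : ∀ s ∈ S, s⁻¹ ∈ S) (hcl : Subgroup.closure S = ⊤)
    (hext : ∀ (G : Type) [Group G] (f : Γ → G),
      (∀ s ∈ S, ∀ t ∈ S, s * t ∈ S → f (s * t) = f s * f t) →
      ∃ F : Γ →* G, ∀ s ∈ S, F s = f s) (ht : ∀ x : Γ, IsOfFinOrder x) (K : ℕ) :
    ∃ n : ℕ, ∀ (P B : ℕ → Set Ω) (l : ℕ) (p : ℕ → Ω),
      (∀ m < l, ∃ s ∈ S, s • p m = p (m + 1)) →
      (∀ m < l, ∀ m' < l, p m = p m' → m = m') →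
      (∀ i < n, p 0 ∉ P i) → (∀ i < n, p l ∈ P i) → (∀ i < n, (B i).encard ≤ K) →
      (∀ i j, i < j → j < n → (∀ v ∈ P j, v ∈ P i) ∧ (∀ v ∈ B i, v ∉ P j) ∧
        (∀ v ∈ B j, v ∈ P i)) →
      (∀ i < n, ∀ ω, ω ∉ P i → ∀ t ∈ S, t • ω ∈ P i → ∀ s ∈ S, s • t • ω ∈ B i) →
      (∀ i < n, ∀ ω ∈ P i, ∀ t ∈ S, t • ω ∉ P i → ∀ s ∈ S, s • t • ω ∈ B i) → False := by
  have hSf : Finite S := hS
  have : Fintype (Typ S K) := Fintype.ofFinite _
  refine ⟨Fintype.card (Typ S K) + 1, ?_⟩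
  intro P B l p hstep hinj h0 hl hB hPB hup hdown
  set n := Fintype.card (Typ S K) + 1 with hn
  have hcode : ∀ i : Fin n, ∃ κ : Ω → Fin (K + 1), Set.InjOn κ (B i) :=
    fun i => exists_code (B i) (hB i i.2)
  choose κ hκ using hcode
  let E : Ω → Ω → Prop := fun v u => ∃ m < l, p m = v ∧ p (m + 1) = u
  obtain ⟨i, j, hij, he⟩ := Fintype.exists_ne_map_eq_of_card_lt
    (fun i : Fin n => typ S K E (P i) (B i) (κ i)) (by rw [Fintype.card_fin]; omega)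
  have key : ∀ i j : Fin n, i < j →
      typ S K E (P i) (B i) (κ i) = typ S K E (P j) (B j) (κ j) → False := by
    intro i j hlt he
    obtain ⟨a1, a2, a3⟩ := hPB i j hlt j.2
    obtain ⟨D, hD1, hD2, hD3⟩ := exists_GD E (hκ i) (hκ j) he a1 a2 a3 (hup j j.2) (hdown i i.2)
    obtain ⟨H, hH1, hH2⟩ := D.exists_height h1 hi hcl hext ht
    refine D.no_path h1 hi H hH1 hH2 l p hstep hinj ?_ ?_ hD3
    · rw [hD1]
      exact h0 i i.2
    · rw [hD2]
      exact hl j j.2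
  rcases lt_or_gt_of_ne hij with h | h
  · exact key i j h he
  · exact key j i h he.symm

end Vale.Agent.P192
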