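import Vale.Agent.P192.H826.RayDefs
import Vale.Agent.P192.H260.Hnn

/-!
# P192: relative theorem for finite-state groups, the HNN case

`s` maps the ray `y^∞` to the ray `z^∞`, and no element of `H` does.
-/

namespace Vale.Agent.P192

universe u v

open HNNExtension

namespace SS

namespace RB

variable {T : Type u} {Y : Type v} [Group T]

theorem mp_one (S : SS T Y) (y : Y) : S.Mp y y 1 := Mp.one y

theorem mp_out {S : SS T Y} {y z : Y} {g : T} (h : S.Mp y z g) : S.σ g y = z := h.σ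

theorem mp_sec {S : SS T Y} {y z : Y} {g : T} (h : S.Mp y z g) : S.Mp y z (S.sec g y) := h.sec

theorem mp_mul {S : SS T Y} {x y z : Y} {g h : T} (hh : S.Mp x y h) (hg : S.Mp y z g) :
    S.Mp x z (g * h) := hg.mul hh

theorem mp_inv {S : SS T Y} {x y : Y} {g : T} (hg : S.Mp x y g) : S.Mp y x g⁻¹ := hg.inv

theorem mp_rec {S : SS T Y} {y z : Y} {s : T} (h1 : S.σ s y = z) (h2 : S.sec s y = s) :
    S.Mp y z s := Mp.of_rec h1 h2

/-- hypotheses of the HNN case -/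
structure RHyp (S : SS T Y) (H H₁ : Subgroup T) (y z : Y) (s : T) : Prop where
  hc : ∀ h ∈ H, ∀ y', S.sec h y' ∈ H
  hc1 : ∀ h ∈ H₁, ∀ y', S.sec h y' ∈ H₁
  hle : H ≤ H₁
  hfs : H ≤ S.fs
  hs : s ∈ S.fs
  h1 : S.σ s y = z
  h2 : S.sec s y = s
  h3 : ∀ y', y' ≠ y → S.sec s y' ∈ H
  hno : ¬ ∃ d ∈ H, S.Mp y z d
  hvr : S.vr H y ≤ H₁
  hdeep : ∀ g ∈ H₁, ∃ n, ∀ v : List Y, v.length = n →
    ∃ a ∈ H, ∃ c ∈ S.vr H y, ∃ b ∈ H, S.secL g v = a * c * b

section

variable {S : SS T Y} {H H₁ : Subgroup T} {y z : Y} {s : T} (hB : RHyp S H H₁ y z s)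

include hB

theorem conj_sec {b : T} (hb : S.Mp z z b) :
    S.sec (s⁻¹ * b * s) y = s⁻¹ * S.sec b z * s := by
  rw [S.sec_mul, S.sec_mul, hB.h1, mp_out hb, S.sec_inv' s hB.h1, hB.h2]

theorem conj_it {b : T} (hb : S.Mp z z b) (n : ℕ) :
    S.it y n (s⁻¹ * b * s) = s⁻¹ * S.it z n b * s := by
  induction n generalizing b with
  | zero => rfl
  | succ n ih =>
    change S.it y n (S.sec (s⁻¹ * b * s) y) = s⁻¹ * S.it z n (S.sec b z) * s
    rw [conj_sec hB hb, ih (mp_sec hb)]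

theorem it_closed {b : T} (hb : b ∈ H) (x : Y) (n : ℕ) : S.it x n b ∈ H := by
  induction n generalizing b with
  | zero => exact hb
  | succ n ih => exact ih (hB.hc b hb x)

theorem conj_mp {b : T} (hb : S.Mp z z b) : S.Mp y y (s⁻¹ * b * s) := by
  have hs := mp_rec hB.h1 hB.h2
  exact mp_mul hs (mp_mul hb (mp_inv hs))

theorem conj_vr {b : T} (hbH : b ∈ H) (hb : S.Mp z z b) : s⁻¹ * b * s ∈ S.vr H y := by
  refine ⟨mul_mem (mul_mem (inv_mem hB.hs) (hB.hfs hbH)) hB.hs, conj_mp hB hb, ?_⟩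
  intro n y' hy'
  rw [conj_it hB hb]
  have hbn : S.it z n b ∈ H := it_closed hB hbH z n
  have hbz : S.σ (S.it z n b) z = z := hb n
  generalize S.it z n b = c at hbn hbz
  rw [S.sec_mul, S.sec_mul, S.sec_inv]
  refine mul_mem (mul_mem (inv_mem (hB.h3 _ ?_)) (hB.hc c hbn _)) (hB.h3 y' hy')
  intro h
  have h5 : S.σ c (S.σ s y') = z := by
    rw [map_inv, Equiv.Perm.inv_eq_iff_eq] at h
    rw [h, hB.h1]
  have h6 : S.σ s y' = z := (S.σ c).injective (h5.trans hbz.symm)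
  exact hy' ((S.σ s).injective (h6.trans hB.h1.symm))

theorem mem_vr {b : T} (hbH : b ∈ H) (hb : S.Mp y y b) : b ∈ S.vr H y :=
  ⟨hB.hfs hbH, hb, fun n y' _ => hB.hc _ (it_closed hB hbH y n) y'⟩

omit hB in
theorem vr_sec {c : T} (hc : c ∈ S.vr H y) : S.sec c y ∈ S.vr H y := by
  refine ⟨?_, mp_sec hc.2.1, fun n y' hy' => hc.2.2 (n + 1) y' hy'⟩
  have h : (Set.range (S.secL c)).Finite := hc.1
  refine h.subset ?_
  rintro _ ⟨v, rfl⟩
  exact ⟨y :: v, rfl⟩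

omit hB in
theorem vr_out {c : T} (hc : c ∈ S.vr H y) : S.σ c y = y := mp_out hc.2.1

omit hB in
theorem vr_sec' {c : T} (hc : c ∈ S.vr H y) {y' : Y} (h : y' ≠ y) : S.sec c y' ∈ H :=
  hc.2.2 0 y' h

end

/-- the group of elements fixing the ray `z^∞` -/
def Bz (S : SS T Y) (H H₁ : Subgroup T) (z : Y) : Subgroup H₁ where
  carrier := {b | b.1 ∈ H ∧ S.Mp z z b.1}
  one_mem' := ⟨one_mem _, mp_one S z⟩
  mul_mem' := fun ha hb => ⟨mul_mem ha.1 hb.1, mp_mul hb.2 ha.2⟩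
  inv_mem' := fun ha => ⟨inv_mem ha.1, mp_inv ha.2⟩

section B

variable {S : SS T Y} {H H₁ : Subgroup T} {y z : Y} {s : T} (hB : RHyp S H H₁ y z s)

/-- conjugation by `s⁻¹` -/
def kap : Bz S H H₁ z →* H₁ where
  toFun := fun b => ⟨s⁻¹ * b.1.1 * s, hB.hvr (conj_vr hB b.2.1 b.2.2)⟩
  map_one' := by
    apply Subtype.ext
    change s⁻¹ * 1 * s = 1
    group
  map_mul' := fun a b => by
    apply Subtype.ext
    change s⁻¹ * (a.1.1 * b.1.1) * s = (s⁻¹ * a.1.1 * s) * (s⁻¹ * b.1.1 * s)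
    group

theorem kap_injective : Function.Injective (kap hB) := by
  intro a b hab
  have h : s⁻¹ * a.1.1 * s = s⁻¹ * b.1.1 * s := congrArg Subtype.val hab
  have h2 : a.1.1 = b.1.1 := by
    have := mul_right_cancel h
    exact mul_left_cancel this
  exact Subtype.ext (Subtype.ext h2)

/-- the isomorphism of the associated subgroups -/
noncomputable def phi : (kap hB).range ≃* Bz S H H₁ z :=
  (MonoidHom.ofInjective (kap_injective hB)).symm

theorem phi_kap (b : Bz S H H₁ z) : phi hB ⟨kap hB b, ⟨b, rfl⟩⟩ = b :=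
  (MonoidHom.ofInjective (kap_injective hB)).symm_apply_apply b

theorem phi_spec (a : (kap hB).range) : s * a.1.1 = (phi hB a).1.1 * s := by
  obtain ⟨_, b, rfl⟩ := a
  rw [phi_kap]
  change s * (s⁻¹ * b.1.1 * s) = b.1.1 * s
  group

/-- the HNN extension -/
abbrev LR : Type u := HNNExtension H₁ (kap hB).range (Bz S H H₁ z) (phi hB)

theorem t_kap (b : Bz S H H₁ z) :
    (t : LR hB) * of (kap hB b) = of (b : H₁) * t := by
  have h := t_mul_of (φ := phi hB) ⟨kap hB b, ⟨b, rfl⟩⟩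
  rw [phi_kap] at h
  exact h

/-- wreath recursion on the base -/
noncomputable def recB : H₁ →* Wr (LR hB) Y where
  toFun := fun h => ⟨S.σ h, fun y' => of ⟨S.sec h y', hB.hc1 h h.2 y'⟩⟩
  map_one' := by
    ext y'
    · simp
    · change (of (⟨S.sec 1 y', _⟩ : H₁) : LR hB) = 1
      rw [← map_one (of : H₁ →* LR hB)]
      congr 1
      exact Subtype.ext (S.sec_one _)
  map_mul' := fun a b => by
    ext y'
    · simp
    · change (of (⟨S.sec (a.1 * b.1) y', _⟩ : H₁) : LR hB) = of _ * of _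
      rw [← map_mul (of : H₁ →* LR hB)]
      congr 1
      exact Subtype.ext (S.sec_mul _ _ _)

open Classical in
/-- wreath recursion of the stable letter -/
noncomputable def recT : Wr (LR hB) Y :=
  ⟨S.σ s, fun y' => if h : y' = y then t else of ⟨S.sec s y', hB.hle (hB.h3 y' h)⟩⟩

/-- the wreath recursion on the HNN extension -/
noncomputable def Φ : LR hB →* Wr (LR hB) Y :=
  HNNExtension.lift (recB hB) (recT hB) (by
    intro a
    have hs := phi_spec hB a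
    obtain ⟨b, hb⟩ : ∃ b : Bz S H H₁ z, kap hB b = a.1 := a.2
    have hab : phi hB a = b := by
      have : a = ⟨kap hB b, ⟨b, rfl⟩⟩ := Subtype.ext hb.symm
      rw [this, phi_kap]
    have hval : a.1.1 = s⁻¹ * b.1.1 * s := by rw [← hb]; rfl
    have hout : S.σ a.1.1 y = y := by
      rw [hval]
      exact mp_out (conj_mp hB b.2.2)
    rw [hab] at hs ⊢
    ext y'
    · change (S.σ s * S.σ a.1.1) _ = (S.σ b.1.1 * S.σ s) _
      rw [← map_mul, ← map_mul, hs]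
    · by_cases h : y' = y
      · subst h
        simp only [Wr.mul_f, recB, recT, MonoidHom.coe_mk, OneHom.coe_mk, hout, dif_pos]
        have hbz : S.Mp z z b.1.1 := b.2.2
        let b' : Bz S H H₁ z := ⟨⟨S.sec b.1.1 z, hB.hc1 _ b.1.2 z⟩,
          ⟨hB.hc _ b.2.1 z, hbz.sec⟩⟩
        have e1 : (⟨S.sec a.1.1 y', hB.hc1 _ a.1.2 y'⟩ : H₁) = kap hB b' := by
          apply Subtype.ext
          change S.sec a.1.1 y' = s⁻¹ * S.sec b.1.1 z * s
          rw [hval, conj_sec hB hbz]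
        have e2 : (⟨S.sec b.1.1 (S.σ s y'), hB.hc1 _ b.1.2 _⟩ : H₁) = b'.1 := by
          apply Subtype.ext
          change S.sec b.1.1 (S.σ s y') = S.sec b.1.1 z
          rw [hB.h1]
        rw [e1, e2]
        exact t_kap hB b'
      · have h' : ¬ S.σ a.1.1 y' = y := by
          intro h3
          exact h ((S.σ a.1.1).injective (h3.trans hout.symm))
        simp only [Wr.mul_f, recB, recT, MonoidHom.coe_mk, OneHom.coe_mk, dif_neg h, dif_neg h']
        rw [← map_mul (of : H₁ →* LR hB), ← map_mul (of : H₁ →* LR hB)]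
        congr 1
        apply Subtype.ext
        change S.sec s (S.σ a.1.1 y') * S.sec a.1.1 y' =
          S.sec b.1.1 (S.σ s y') * S.sec s y'
        rw [← S.sec_mul, ← S.sec_mul, hs])

theorem Φ_of (h : H₁) : Φ hB (of h) = recB hB h := HNNExtension.lift_of _ _ _ _

theorem Φ_t : Φ hB t = recT hB := HNNExtension.lift_t _ _ _

/-- the projection -/
noncomputable def π : LR hB →* T := HNNExtension.lift H₁.subtype s (fun a => phi_spec hB a)

theorem π_of (h : H₁) : π hB (of h) = h := HNNExtension.lift_of _ _ _ _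

theorem π_t : π hB t = s := HNNExtension.lift_t _ _ _

/-- the self-similar structure on the HNN extension -/
noncomputable def SR : SS (LR hB) Y := SS.ofHom (Φ hB)

theorem sec_of (h : H₁) (y' : Y) :
    (SR hB).sec (of h) y' = of ⟨S.sec h y', hB.hc1 h h.2 y'⟩ := by
  change ((Φ hB) (of h)).f y' = _
  rw [Φ_of]; rfl

theorem sec_t : (SR hB).sec t y = t := by
  change ((Φ hB) t).f y = _
  rw [Φ_t]
  simp [recT]

theorem sec_t' (y' : Y) (h : y' ≠ y) :
    (SR hB).sec t y' = of ⟨S.sec s y', hB.hle (hB.h3 y' h)⟩ := by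
  change ((Φ hB) t).f y' = _
  rw [Φ_t]
  simp [recT, h]

/-- compatibility of the recursions -/
theorem both (g : LR hB) : (SR hB).σ g = S.σ (π hB g) ∧
    ∀ y', π hB ((SR hB).sec g y') = S.sec (π hB g) y' := by
  induction g using HNNExtension.induction_on with
  | of h =>
    refine ⟨?_, fun y' => ?_⟩
    · change ((Φ hB) (of h)).p = _
      rw [Φ_of, π_of]; rfl
    · rw [sec_of, π_of, π_of]
  | t =>
    refine ⟨?_, fun y' => ?_⟩
    · change ((Φ hB) t).p = _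
      rw [Φ_t, π_t]; rfl
    · by_cases h : y' = y
      · subst h
        rw [sec_t, π_t, hB.h2]
      · rw [sec_t' hB y' h, π_t, π_of]
  | mul a b ha hb =>
    refine ⟨by rw [map_mul, ha.1, hb.1, map_mul, map_mul], fun y' => ?_⟩
    rw [(SR hB).sec_mul, map_mul, ha.2, hb.2, map_mul, S.sec_mul, hb.1]
  | inv a ha =>
    refine ⟨by rw [map_inv, ha.1, map_inv, map_inv], fun y' => ?_⟩
    rw [(SR hB).sec_inv, map_inv (π hB), ha.2, map_inv (π hB), S.sec_inv, map_inv, ha.1,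
      map_inv]

/-- the copy of the small group `H` -/
noncomputable def HL : Subgroup (LR hB) := (H.subgroupOf H₁).map of

theorem mem_HL {h : H₁} (hh : h.1 ∈ H) : of h ∈ HL hB :=
  ⟨h, hh, rfl⟩

theorem HL_sec {g : LR hB} (hg : g ∈ HL hB) (x : Y) : (SR hB).sec g x ∈ HL hB := by
  obtain ⟨h, hh, rfl⟩ := hg
  rw [sec_of]
  exact mem_HL hB (hB.hc _ hh x)

/-- the letters `y` and `z` -/
def pt (y z : Y) : Bool → Y
  | false => y
  | true => z

/-- `1` and the stable letter -/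
noncomputable def tt : Bool → LR hB
  | false => 1
  | true => t

theorem tt_sec (p : Bool) : (SR hB).sec (tt hB p) y = tt hB p := by
  cases p
  · exact (SR hB).sec_one y
  · exact sec_t hB

theorem tt_out (p : Bool) : (SR hB).σ (tt hB p) y = pt y z p := by
  cases p
  · change (SR hB).σ 1 y = y
    rw [map_one]; rfl
  · change (SR hB).σ t y = z
    rw [(both hB t).1, π_t, hB.h1]

theorem tt_sec' (p : Bool) (y' : Y) (h : y' ≠ y) :
    (SR hB).sec (tt hB p) y' ∈ HL hB := by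
  cases p
  · change (SR hB).sec 1 y' ∈ _
    rw [(SR hB).sec_one]
    exact one_mem _
  · change (SR hB).sec t y' ∈ _
    rw [sec_t' hB y' h]
    exact mem_HL hB (hB.h3 y' h)

/-- products `a * tt q * c * (tt p)⁻¹` -/
def Lf (p : Bool) (g : LR hB) : Prop :=
  ∃ (q : Bool) (a : LR hB) (c : H₁), a ∈ HL hB ∧ c.1 ∈ S.vr H y ∧
    g = a * tt hB q * of c * (tt hB p)⁻¹

theorem Lf_sec {p : Bool} {g : LR hB} (hg : Lf hB p g) :
    Lf hB p ((SR hB).sec g (pt y z p)) := by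
  obtain ⟨q, a, c, ha, hc, rfl⟩ := hg
  refine ⟨q, _, ⟨S.sec c y, hB.hc1 _ c.2 y⟩, HL_sec hB ha (pt y z q), vr_sec hc, ?_⟩
  have h1 : (SR hB).σ (tt hB p)⁻¹ (pt y z p) = y := (SR hB).σ_inv_apply _ (tt_out hB p)
  have h2 : (SR hB).σ (of c) y = y := by rw [(both hB _).1, π_of]; exact vr_out hc
  rw [(SR hB).sec_mul, (SR hB).sec_mul, (SR hB).sec_mul, h1, h2, tt_out,
    (SR hB).sec_inv' _ (tt_out hB p), tt_sec, tt_sec, sec_of]

theorem Lf_sec' {p : Bool} {g : LR hB} (hg : Lf hB p g) {x : Y} (hx : x ≠ pt y z p) :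
    (SR hB).sec g x ∈ HL hB := by
  obtain ⟨q, a, c, ha, hc, rfl⟩ := hg
  have h2 : (SR hB).σ (tt hB p)⁻¹ x ≠ y := fun h =>
    hx (((SR hB).σ (tt hB p)⁻¹).injective (h.trans ((SR hB).σ_inv_apply _ (tt_out hB p)).symm))
  have hcy : (SR hB).σ (of c) y = y := by rw [(both hB _).1, π_of]; exact vr_out hc
  have h3 : (SR hB).σ (of c) ((SR hB).σ (tt hB p)⁻¹ x) ≠ y := fun h =>
    h2 (((SR hB).σ (of c)).injective (h.trans hcy.symm))
  rw [(SR hB).sec_mul, (SR hB).sec_mul, (SR hB).sec_mul]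
  refine mul_mem (mul_mem (mul_mem (HL_sec hB ha _) (tt_sec' hB q _ h3)) ?_) ?_
  · rw [sec_of]
    exact mem_HL hB (vr_sec' hc h2)
  · rw [(SR hB).sec_inv]
    exact inv_mem (tt_sec' hB p _ h2)

theorem Lf_left {p : Bool} {g a : LR hB} (ha : a ∈ HL hB) (hg : Lf hB p g) :
    Lf hB p (a * g) := by
  obtain ⟨q, a', c, ha', hc, rfl⟩ := hg
  exact ⟨q, a * a', c, mul_mem ha ha', hc, by simp only [mul_assoc]⟩

/-- the special elements -/
def Ws : Set (LR hB) := {g | ∃ p u b, Lf hB p u ∧ b ∈ HL hB ∧ g = u * b}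

theorem Lf_one : Lf hB false 1 :=
  ⟨false, 1, 1, one_mem _, one_mem _, by simp [tt]⟩

theorem HL_Ws {g : LR hB} (hg : g ∈ HL hB) : g ∈ Ws hB :=
  ⟨false, 1, g, Lf_one hB, hg, (one_mul g).symm⟩

theorem Ws_sec (g : LR hB) (hg : g ∈ Ws hB) (x : Y) : (SR hB).sec g x ∈ Ws hB := by
  obtain ⟨p, u, b, hu, hb, rfl⟩ := hg
  rw [(SR hB).sec_mul]
  by_cases h : (SR hB).σ b x = pt y z p
  · rw [h]
    exact ⟨p, _, _, Lf_sec hB hu, HL_sec hB hb x, rfl⟩
  · exact HL_Ws hB (mul_mem (Lf_sec' hB hu h) (HL_sec hB hb x))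

theorem Ws_inv (g : LR hB) (hg : g ∈ Ws hB) : g⁻¹ ∈ Ws hB := by
  obtain ⟨p, u, b, ⟨q, a, c, ha, hc, rfl⟩, hb, rfl⟩ := hg
  refine ⟨q, b⁻¹ * tt hB p * of c⁻¹ * (tt hB q)⁻¹, a⁻¹,
    ⟨p, b⁻¹, c⁻¹, inv_mem hb, inv_mem hc, rfl⟩, inv_mem ha, ?_⟩
  rw [map_inv]
  group

include hB in
theorem no_cross {p q : Bool} {d : T} (hdH : d ∈ H) (hd : S.Mp (pt y z p) (pt y z q) d) :
    p = q := by
  cases p <;> cases q
  · rfl
  · exact absurd ⟨d, hdH, hd⟩ hB.hno
  · exact absurd ⟨d⁻¹, inv_mem hdH, mp_inv hd⟩ hB.hno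
  · rfl

/-- conjugates of the elements fixing the ray at `pt q` -/
theorem conj_tt (q : Bool) (d : H₁) (hdH : d.1 ∈ H) (hd : S.Mp (pt y z q) (pt y z q) d) :
    ∃ c : H₁, c.1 ∈ S.vr H y ∧ (tt hB q)⁻¹ * of d * tt hB q = of c := by
  cases q
  · exact ⟨d, mem_vr hB hdH hd, by simp [tt]⟩
  · refine ⟨kap hB ⟨d, hdH, hd⟩, conj_vr hB hdH hd, ?_⟩
    have h := t_kap hB ⟨d, hdH, hd⟩
    change t⁻¹ * of d * t = _
    rw [mul_assoc, ← h]
    group

theorem Lf_mul {p q : Bool} {u v : LR hB} (hu : Lf hB p u) (hv : Lf hB q v⁻¹) {h : H₁}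
    (hh : h.1 ∈ H) (hm : S.Mp (pt y z q) (pt y z p) h.1) : u * of h * v ∈ Ws hB := by
  obtain rfl := no_cross hB hh hm
  obtain ⟨e, he, hee⟩ := conj_tt hB q h hh hm
  obtain ⟨q₁, a₁, c₁, ha₁, hc₁, rfl⟩ := hu
  obtain ⟨q₂, a₂, c₂, ha₂, hc₂, hv⟩ := hv
  refine ⟨q₂, a₁ * tt hB q₁ * of (c₁ * e * c₂⁻¹) * (tt hB q₂)⁻¹, a₂⁻¹,
    ⟨q₁, a₁, c₁ * e * c₂⁻¹, ha₁, mul_mem (mul_mem hc₁ he) (inv_mem hc₂), rfl⟩,
    inv_mem ha₂, ?_⟩
  rw [inv_eq_iff_eq_inv] at hv
  rw [hv, map_mul, map_mul, map_inv, ← hee]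
  group

theorem triple_sec {p q : Bool} {u v : LR hB} (hu : Lf hB p u) (hv : Lf hB q v⁻¹)
    {h : H₁} (hh : h.1 ∈ H) (x : Y) : (SR hB).sec (u * of h * v) x ∈ Ws hB ∨
      (S.σ h.1 (pt y z q) = pt y z p ∧ ∃ u' v', Lf hB p u' ∧ Lf hB q v'⁻¹ ∧
        (SR hB).sec (u * of h * v) x =
          u' * of ⟨S.sec h.1 (pt y z q), hB.hc1 _ h.2 _⟩ * v') := by
  have hof : ∀ w, (SR hB).σ (of h) w = S.σ h.1 w := by
    intro w
    rw [(both hB _).1, π_of]
  have hHL := mem_HL hB hh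
  have hvs : (SR hB).sec v x = ((SR hB).sec v⁻¹ ((SR hB).σ v x))⁻¹ := by
    rw [(SR hB).sec_inv' v rfl, inv_inv]
  have e : (SR hB).sec (u * of h * v) x =
      (SR hB).sec u (S.σ h.1 ((SR hB).σ v x)) * (SR hB).sec (of h) ((SR hB).σ v x) *
        (SR hB).sec v x := by
    rw [(SR hB).sec_mul, (SR hB).sec_mul, hof]
  rw [e]
  by_cases hw : (SR hB).σ v x = pt y z q
  · have hv' : Lf hB q ((SR hB).sec v x)⁻¹ := by
      rw [hvs, inv_inv, hw]
      exact Lf_sec hB hv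
    rw [hw]
    by_cases hx : S.σ h.1 (pt y z q) = pt y z p
    · right
      refine ⟨hx, _, _, Lf_sec hB hu, hv', ?_⟩
      rw [hx, sec_of]
    · left
      have hu' := Lf_sec' hB hu hx
      have := Ws_inv hB _ (⟨q, _, _, hv', inv_mem (mul_mem hu' (HL_sec hB hHL (pt y z q))), rfl⟩ :
        ((SR hB).sec v x)⁻¹ * ((SR hB).sec u (S.σ h.1 (pt y z q)) *
          (SR hB).sec (of h) (pt y z q))⁻¹ ∈ Ws hB)
      rwa [mul_inv_rev, inv_inv, inv_inv] at this
  · left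
    have hv' : (SR hB).sec v x ∈ HL hB := by
      rw [hvs]
      exact inv_mem (Lf_sec' hB hv hw)
    by_cases hx : S.σ h.1 ((SR hB).σ v x) = pt y z p
    · rw [hx]
      exact ⟨p, _, _, Lf_sec hB hu, mul_mem (HL_sec hB hHL _) hv', by rw [mul_assoc]⟩
    · exact HL_Ws hB (mul_mem (mul_mem (Lf_sec' hB hu hx) (HL_sec hB hHL _)) hv')

theorem EW_of_mem (n : ℕ) {g : LR hB} (hg : g ∈ Ws hB) : EW (SR hB) (Ws hB) n g := by
  induction n generalizing g with
  | zero => exact hg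
  | succ n ih => exact fun x => ih (Ws_sec hB g hg x)

theorem Lf_triple (n : ℕ) {p q : Bool} {u v : LR hB} (hu : Lf hB p u) (hv : Lf hB q v⁻¹)
    {h : H₁} (hh : h.1 ∈ H) (hm : S.σ (S.it (pt y z q) n h.1) (pt y z q) ≠ pt y z p) :
    EW (SR hB) (Ws hB) (n + 1) (u * of h * v) := by
  induction n generalizing u v h with
  | zero =>
    intro x
    rcases triple_sec hB hu hv hh x with h1 | ⟨h1, -⟩
    · exact h1
    · exact absurd h1 hm
  | succ n ih =>
    intro x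
    rcases triple_sec hB hu hv hh x with h1 | ⟨-, u', v', hu', hv', h2⟩
    · exact EW_of_mem hB _ h1
    · rw [h2]
      exact ih hu' hv' (hB.hc _ hh _) hm

theorem Ws_mul (a : LR hB) (ha : a ∈ Ws hB) (b : LR hB) (hb : b ∈ Ws hB) :
    ∃ n, EW (SR hB) (Ws hB) n (a * b) := by
  obtain ⟨p, u, b₁, hu, hb₁, rfl⟩ := ha
  obtain ⟨p', u', b₂, ⟨q, a', c, ha', hc, rfl⟩, hb₂, rfl⟩ := hb
  obtain ⟨h, hh, hhe⟩ := mul_mem hb₁ ha'
  have hv : Lf hB q (tt hB q * of c * (tt hB p')⁻¹ * b₂)⁻¹ := by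
    refine ⟨p', b₂⁻¹, c⁻¹, inv_mem hb₂, inv_mem hc, ?_⟩
    rw [map_inv]
    group
  have e : u * b₁ * (a' * tt hB q * of c * (tt hB p')⁻¹ * b₂) =
      u * of h * (tt hB q * of c * (tt hB p')⁻¹ * b₂) := by
    rw [hhe]
    simp only [mul_assoc]
  rw [e]
  by_cases hm : S.Mp (pt y z q) (pt y z p) h.1
  · exact ⟨0, Lf_mul hB hu hv hh hm⟩
  · have hm' : ∃ n, S.σ (S.it (pt y z q) n h.1) (pt y z q) ≠ pt y z p := by
      by_contra h0
      apply hm
      intro n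
      by_contra h2
      exact h0 ⟨n, h2⟩
    obtain ⟨n, hn⟩ := hm'
    exact ⟨n + 1, Lf_triple hB n hu hv hh hn⟩

theorem tt_conj_mem (p q : Bool) (c : H₁) (hc : c.1 ∈ S.vr H y)
    (h : π hB (tt hB q * of c * (tt hB p)⁻¹) ∈ H) :
    tt hB q * of c * (tt hB p)⁻¹ ∈ (of : H₁ →* LR hB).range := by
  have hs := mp_rec hB.h1 hB.h2
  cases p <;> cases q
  · exact ⟨c, by simp [tt]⟩
  · exfalso
    have e : π hB (tt hB true * of c * (tt hB false)⁻¹) = s * c := by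
      change π hB (t * of c * 1⁻¹) = _
      rw [inv_one, mul_one, map_mul, π_t, π_of]
    rw [e] at h
    exact hB.hno ⟨_, h, mp_mul hc.2.1 hs⟩
  · exfalso
    have e : π hB (tt hB false * of c * (tt hB true)⁻¹) = c * s⁻¹ := by
      change π hB (1 * of c * t⁻¹) = _
      rw [one_mul, map_mul, map_inv, π_t, π_of]
    rw [e] at h
    exact hB.hno ⟨_, inv_mem h, mp_inv (mp_mul (mp_inv hs) hc.2.1)⟩
  · have e : π hB (tt hB true * of c * (tt hB true)⁻¹) = s * c * s⁻¹ := by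
      change π hB (t * of c * t⁻¹) = _
      rw [map_mul, map_mul, map_inv, π_t, π_of]
    rw [e] at h
    have hm : S.Mp z z (s * c * s⁻¹) := mp_mul (mp_inv hs) (mp_mul hc.2.1 hs)
    let b : Bz S H H₁ z := ⟨⟨s * c * s⁻¹, hB.hle h⟩, ⟨h, hm⟩⟩
    refine ⟨b.1, ?_⟩
    have hk : kap hB b = c := by
      apply Subtype.ext
      change s⁻¹ * (s * c.1 * s⁻¹) * s = c.1
      group
    have h5 := t_kap hB b
    rw [hk] at h5
    change _ = t * of c * t⁻¹
    rw [h5, mul_inv_cancel_right]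

theorem Ws_one (g : LR hB) (hg : g ∈ Ws hB) (h1 : π hB g = 1) : g = 1 := by
  obtain ⟨p, u, b, ⟨q, a, c, ⟨a₀, ha, rfl⟩, hc, rfl⟩, ⟨b₀, hb, rfl⟩, rfl⟩ := hg
  have e : of a₀ * tt hB q * of c * (tt hB p)⁻¹ * of b₀ =
      of a₀ * (tt hB q * of c * (tt hB p)⁻¹) * of b₀ := by group
  rw [e] at h1 ⊢
  have hmid : tt hB q * of c * (tt hB p)⁻¹ ∈ (of : H₁ →* LR hB).range := by
    apply tt_conj_mem hB p q c hc
    rw [map_mul, map_mul, π_of, π_of] at h1
    have e2 : π hB (tt hB q * of c * (tt hB p)⁻¹) = a₀.1⁻¹ * b₀.1⁻¹ :=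
      eq_inv_mul_iff_mul_eq.2 (mul_eq_one_iff_eq_inv.1 h1)
    rw [e2]
    exact mul_mem (inv_mem ha) (inv_mem hb)
  obtain ⟨m, hm⟩ := hmid
  rw [← hm, ← map_mul, ← map_mul] at h1 ⊢
  rw [π_of] at h1
  have : a₀ * m * b₀ = 1 := Subtype.ext h1
  rw [this, map_one]

theorem EW_iff (n : ℕ) (g : LR hB) :
    EW (SR hB) (Ws hB) n g ↔ ∀ v : List Y, v.length = n → (SR hB).secL g v ∈ Ws hB := by
  induction n generalizing g with
  | zero =>
    constructor
    · intro h v hv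
      rw [List.length_eq_zero_iff.1 hv]
      exact h
    · intro h
      exact h [] rfl
  | succ n ih =>
    constructor
    · intro h v hv
      cases v with
      | nil => simp at hv
      | cons x v => exact (ih _).1 (h x) v (by simpa using hv)
    · intro h x
      exact (ih _).2 (fun v hv => h (x :: v) (by simp [hv]))

theorem secL_of (h : H₁) (v : List Y) : ∃ k : H₁, k.1 = S.secL h.1 v ∧
    (SR hB).secL (of h) v = of k := by
  induction v generalizing h with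
  | nil => exact ⟨h, rfl, rfl⟩
  | cons x v ih =>
    obtain ⟨k, hk1, hk2⟩ := ih ⟨S.sec h x, hB.hc1 h h.2 x⟩
    refine ⟨k, hk1, ?_⟩
    change (SR hB).secL ((SR hB).sec (of h) x) v = of k
    rw [sec_of, hk2]

theorem of_deep (h : H₁) : ∃ n, EW (SR hB) (Ws hB) n (of h) := by
  obtain ⟨n, hn⟩ := hB.hdeep h.1 h.2
  refine ⟨n, (EW_iff hB n _).2 fun v hv => ?_⟩
  obtain ⟨a, ha, c, hc, b, hb, he⟩ := hn v hv
  obtain ⟨k, hk1, hk2⟩ := secL_of hB h v
  rw [hk2]
  refine ⟨false, of ⟨a, hB.hle ha⟩ * tt hB false * of ⟨c, hB.hvr hc⟩ * (tt hB false)⁻¹,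
    of ⟨b, hB.hle hb⟩, ⟨false, _, _, mem_HL hB ha, hc, rfl⟩, mem_HL hB hb, ?_⟩
  have e : k = ⟨a, hB.hle ha⟩ * ⟨c, hB.hvr hc⟩ * ⟨b, hB.hle hb⟩ := by
    apply Subtype.ext
    rw [hk1, he]
    rfl
  rw [e, map_mul, map_mul]
  simp [tt]

/-- the data of the HNN case -/
noncomputable def dataR : WData S (LR hB) where
  SL := SR hB
  π := π hB
  σ_eq := fun g => (both hB g).1
  sec_eq := fun g => (both hB g).2
  W := Ws hB
  one_W := HL_Ws hB (one_mem _)
  W_sec := Ws_sec hB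
  W_inv := Ws_inv hB
  W_mul := Ws_mul hB
  W_one := Ws_one hB
  gen := by
    rw [eq_top_iff]
    intro g _
    induction g using HNNExtension.induction_on with
    | of h => exact Subgroup.subset_closure (of_deep hB h)
    | t =>
      refine Subgroup.subset_closure ⟨0, false, t, 1, ⟨true, 1, 1, one_mem _, one_mem _, ?_⟩,
        one_mem _, (mul_one _).symm⟩
      simp [tt]
    | mul a b ha hb => exact mul_mem (ha trivial) (hb trivial)
    | inv a ha => exact inv_mem (ha trivial)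

end B

end RB

variable {T : Type u} {Y : Type v} [Group T]

open RB in
/-- **The HNN case of the relative theorem**: `H₁` is the group of the amalgam case. -/
theorem rayB_of [Finite Y] {S : SS T Y} (hf : S.Faithful) {H H₁ : Subgroup T}
    (hH : S.GoodF H) {y z : Y} (hG : S.GoodF H₁) (hle : H ≤ H₁) (hvr : S.vr H y ≤ H₁)
    (hdeep : ∀ g ∈ H₁, ∃ n, ∀ v : List Y, v.length = n →
      ∃ a ∈ H, ∃ c ∈ S.vr H y, ∃ b ∈ H, S.secL g v = a * c * b)
    {s : T} (h1 : S.σ s y = z) (h2 : S.sec s y = s) (h3 : ∀ y', y' ≠ y → S.sec s y' ∈ H)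
    (hno : ¬ ∃ d ∈ H, S.Mp y z d) : ∃ H', S.GoodF H' ∧ H₁ ≤ H' ∧ s ∈ H' := by
  have hs : s ∈ S.fs := by
    apply S.fs_of_sec
    intro y'
    by_cases h : y' = y
    · left
      rw [h, h2]
    · right
      exact hH.fs (h3 y' h)
  have hB : RHyp S H H₁ y z s :=
    ⟨hH.closed, hG.closed, hle, hH.fs, hs, h1, h2, h3, hno, hvr, hdeep⟩
  refine ⟨(dataR hB).π.range, (dataR hB).goodF_range hf (H260.fpb_hnn _ hG.fpb) ?_,
    fun h hh => ⟨of ⟨h, hh⟩, π_of hB _⟩, ⟨t, π_t hB⟩⟩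
  rintro _ ⟨g, rfl⟩
  change π hB g ∈ S.fs
  induction g using HNNExtension.induction_on with
  | of h => rw [π_of]; exact hG.fs h.2
  | t => rw [π_t]; exact hs
  | mul a b ha hb => rw [map_mul]; exact mul_mem ha hb
  | inv a ha => rw [map_inv]; exact inv_mem ha

end SS

end Vale.Agent.P192
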