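import Vale.Agent.P192.H826.RayOne
import Vale.Agent.P192.H491.Final

/-!
# P192: automata of polynomial activity relative to a finite-state self-similar group

`H` is a group of finite-state automorphisms of the tree of words over a finite alphabet, closed
under sections and in the class.  The group of all finite-state `g` such that the number of words
`v` of length `n` with `sect g v ∉ H` is polynomially bounded is in the class.
-/

namespace Vale.Agent.P192

variable {X : Type*}

/-- The number of words of length `n` with section outside of `H` is polynomially bounded. -/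
def RelActivity (H : Subgroup (TreeAut X)) (g : TreeAut X) : Prop :=
  ∃ C k : ℕ, ∀ n : ℕ, {v : List X | v.length = n ∧ sect g v ∉ H}.ncard ≤ C * (n + 1) ^ k

/-- A state outside of `H` has at most one return word of each length. -/
theorem return_unique_rel [Finite X] (H : Subgroup (TreeAut X)) (g : TreeAut X)
    (hg : RelActivity H g) (u : List X) (hu : sect g u ∉ H) (a b : List X)
    (hab : a.length = b.length) (ha : sect (sect g u) a = sect g u)
    (hb : sect (sect g u) b = sect g u) : a = b := by
  by_contra hne
  obtain ⟨C, k, hC⟩ := hg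
  obtain ⟨n, hn⟩ := growth C k u.length a.length
  have h1 := returns_card (sect g u) a.length a b rfl hab.symm hne ha hb n
  have h2 := hC (u.length + a.length * n)
  have h3 : {v : List X | v.length = a.length * n ∧ sect (sect g u) v = sect g u}.ncard ≤
      {v : List X | v.length = u.length + a.length * n ∧ sect g v ∉ H}.ncard := by
    refine Set.ncard_le_ncard_of_injOn (fun v => u ++ v) ?_ ?_
      ((List.finite_length_eq X _).subset fun v hv => hv.1)
    · intro v hv
      refine ⟨?_, ?_⟩
      · simp only [List.length_append, hv.1]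
      · show sect g (u ++ v) ∉ H
        rw [sect_append, hv.2]
        exact hu
    · intro v _ w _ h
      exact List.append_cancel_left h
  exact absurd (h1.trans (h3.trans h2)) (not_le.2 hn)

/-- Finitely many finite-state automorphisms of relative polynomial activity are contained in a
triangular list of states, over the alphabet of words of a suitable length `m`. -/
theorem exists_triRel [Finite X] (H : Subgroup (TreeAut X)) (hcl : ∀ h ∈ H, ∀ v, sect h v ∈ H)
    (A : Set (TreeAut X)) (hA : A.Finite)
    (hfs : ∀ g ∈ A, FiniteState g) (hpa : ∀ g ∈ A, RelActivity H g) :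
    ∃ m : ℕ, 1 ≤ m ∧ ∃ l : List (TreeAut X), (∀ g ∈ A, g ∈ l) ∧ (ssPow X m).TriRel H l := by
  classical
  -- the finite set of all states
  set Q : Set (TreeAut X) := ⋃ g ∈ A, Set.range (sect g) with hQ
  have hQf : Q.Finite := hA.biUnion hfs
  have hAQ : ∀ g ∈ A, g ∈ Q := fun g hg =>
    Set.mem_biUnion hg ⟨[], sect_nil g⟩
  have hQs : ∀ q ∈ Q, ∀ v, sect q v ∈ Q := by
    intro q hq v
    obtain ⟨g, hg, u, rfl⟩ := Set.mem_iUnion₂.1 hq
    exact Set.mem_biUnion hg ⟨u ++ v, sect_append g u v⟩
  have hQfs : ∀ q ∈ Q, FiniteState q := by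
    intro q hq
    obtain ⟨g, hg, u, rfl⟩ := Set.mem_iUnion₂.1 hq
    exact (hfs g hg).sect u
  have huniq : ∀ q ∈ Q, q ∉ H → ∀ a b : List X, a.length = b.length → sect q a = q →
      sect q b = q → a = b := by
    intro q hq h1 a b hab ha hb
    obtain ⟨g, hg, u, rfl⟩ := Set.mem_iUnion₂.1 hq
    exact return_unique_rel H g (hpa g hg) u h1 a b hab ha hb
  -- the length
  set r : TreeAut X → ℕ := fun q =>
    if h : ∃ u : List X, u ≠ [] ∧ sect q u = q then h.choose.length else 1 with hr
  have hr1 : ∀ q, 1 ≤ r q := by
    intro q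
    by_cases h : ∃ u : List X, u ≠ [] ∧ sect q u = q
    · have : r q = h.choose.length := dif_pos h
      rw [this]
      exact List.length_pos_iff.2 h.choose_spec.1
    · have : r q = 1 := dif_neg h
      rw [this]
  set m : ℕ := ∏ q ∈ hQf.toFinset, r q with hm
  have hm1 : 1 ≤ m := Finset.one_le_prod' fun q _ => hr1 q
  have hret : ∀ q ∈ Q, (∃ u : List X, u ≠ [] ∧ sect q u = q) →
      ∃ w : List X, w.length = m ∧ sect q w = q := by
    intro q hq h
    have h1 : r q = h.choose.length := dif_pos h
    have h2 : r q ∣ m := Finset.dvd_prod_of_mem r (hQf.mem_toFinset.2 hq)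
    obtain ⟨t, ht⟩ := h2
    obtain ⟨w, hw, hw2⟩ := exists_return_mul q h.choose h.choose_spec.2 t
    exact ⟨w, by rw [hw, ht, h1], hw2⟩
  -- sections at words of length `m`
  have hsec : ∀ q ∈ Q, q ∉ H → ∀ y : List X, y.length = m → sect q y ≠ q →
      rank (sect q y) < rank q := by
    intro q hq h1 y hy hne
    by_contra hlt
    obtain ⟨w, hw⟩ := exists_return (hQfs q hq) y hlt
    have hyw : sect q (y ++ w) = q := by rw [sect_append, hw]
    have hyw0 : y ++ w ≠ [] := by
      intro h0
      have := congrArg List.length h0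
      rw [List.length_append, hy, List.length_nil] at this
      omega
    obtain ⟨u, hu, hqu⟩ := hret q hq ⟨y ++ w, hyw0, hyw⟩
    have h2 : u ++ (y ++ w) = (y ++ w) ++ u := by
      apply huniq q hq h1
      · simp only [List.length_append]
        omega
      · rw [sect_append, hqu, hyw]
      · rw [sect_append, hyw, hqu]
    rw [List.append_assoc] at h2
    have h3 : u = y := (List.append_inj h2 (by rw [hu, hy])).1
    exact hne (h3 ▸ hqu)
  refine ⟨m, hm1, ?_⟩
  have main : ∀ F : Finset (TreeAut X), (∀ q ∈ F, q ∈ Q) →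
      (∀ q ∈ F, ∀ p ∈ Q, rank p < rank q → p ∈ F) →
      ∃ l : List (TreeAut X), (∀ x, x ∈ l ↔ x ∈ F) ∧ (ssPow X m).TriRel H l := by
    intro F
    induction F using Finset.induction_on_max_value (rank : TreeAut X → ℕ) with
    | empty =>
      intro _ _
      exact ⟨[], by simp, trivial⟩
    | insert a s has hmax ih =>
      intro hsQ hcl'
      obtain ⟨l, hl, htri⟩ := ih (fun q hq => hsQ q (Finset.mem_insert_of_mem hq)) (by
        intro q hq p hp hlt
        rcases Finset.mem_insert.1 (hcl' q (Finset.mem_insert_of_mem hq) p hp hlt) with h | h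
        · rw [h] at hlt
          exact absurd (hmax q hq) (not_le.2 hlt)
        · exact h)
      refine ⟨a :: l, ?_, htri, ?_⟩
      · intro x
        rw [List.mem_cons, hl, Finset.mem_insert]
      · have haQ : a ∈ Q := hsQ a (Finset.mem_insert_self a s)
        have hlow : ∀ v : List X, rank (sect a v) < rank a →
            sect a v ∈ H ⊔ Subgroup.closure {x | x ∈ l} := by
          intro v hv
          apply (le_sup_right : Subgroup.closure {x | x ∈ l} ≤ H ⊔ Subgroup.closure {x | x ∈ l})
          apply Subgroup.subset_closure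
          show sect a v ∈ l
          rw [hl]
          rcases Finset.mem_insert.1
            (hcl' a (Finset.mem_insert_self a s) _ (hQs a haQ v) hv) with h | h
          · rw [h] at hv
            exact absurd hv (lt_irrefl _)
          · exact h
        by_cases ha1 : a ∈ H
        · left
          intro y
          rw [ssPow_sec]
          exact (le_sup_left : H ≤ H ⊔ Subgroup.closure {x | x ∈ l}) (hcl a ha1 _)
        · by_cases hy : ∃ y : {v : List X // v.length = m}, sect a y.1 = a
          · right
            obtain ⟨y, hy⟩ := hy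
            refine ⟨y, hy, ?_⟩
            intro y' hne
            rw [ssPow_sec]
            apply hlow
            apply hsec a haQ ha1 y'.1 y'.2
            intro h
            exact hne (Subtype.ext (huniq a haQ ha1 y'.1 y.1 (by rw [y'.2, y.2]) h hy))
          · left
            intro y
            rw [ssPow_sec]
            apply hlow
            apply hsec a haQ ha1 y.1 y.2
            intro h
            exact hy ⟨y, h⟩
  obtain ⟨l, hl, htri⟩ := main hQf.toFinset (fun q hq => hQf.mem_toFinset.1 hq)
    (fun q _ p hp _ => hQf.mem_toFinset.2 hp)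
  exact ⟨l, fun g hg => (hl g).2 (hQf.mem_toFinset.2 (hAQ g hg)), htri⟩

/-- The finite-state automorphisms of polynomial activity relative to `H`. -/
def RelAut [Finite X] (H : Subgroup (TreeAut X)) (hcl : ∀ h ∈ H, ∀ v, sect h v ∈ H) :
    Subgroup (TreeAut X) where
  carrier := {g | FiniteState g ∧ RelActivity H g}
  one_mem' := by
    refine ⟨?_, 0, 0, fun n => ?_⟩
    · apply (Set.finite_singleton (1 : TreeAut X)).subset
      rintro _ ⟨v, rfl⟩
      exact sect_one v
    · have : {v : List X | v.length = n ∧ sect (1 : TreeAut X) v ∉ H} = ∅ := by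
        apply Set.eq_empty_iff_forall_notMem.2
        intro v hv
        exact hv.2 (hcl 1 (one_mem _) v)
      rw [this, Set.ncard_empty]
      exact Nat.zero_le _
  mul_mem' := by
    rintro g h ⟨hg, C, k, hC⟩ ⟨hh, D, l, hD⟩
    refine ⟨?_, C + D, k + l, fun n => ?_⟩
    · apply (Set.Finite.mul hg hh).subset
      rintro _ ⟨v, rfl⟩
      rw [sect_mul]
      exact Set.mul_mem_mul ⟨_, rfl⟩ ⟨_, rfl⟩
    · have h1 : {v : List X | v.length = n ∧ sect (g * h) v ∉ H} ⊆
          {v : List X | v.length = n ∧ sect g ((h : Equiv.Perm (List X)) v) ∉ H} ∪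
            {v : List X | v.length = n ∧ sect h v ∉ H} := by
        rintro v ⟨hv, hne⟩
        by_cases h2 : sect g ((h : Equiv.Perm (List X)) v) ∈ H
        · right
          refine ⟨hv, fun h3 => hne ?_⟩
          rw [sect_mul]
          exact mul_mem h2 h3
        · left
          exact ⟨hv, h2⟩
      have h2 : {v : List X | v.length = n ∧ sect g ((h : Equiv.Perm (List X)) v) ∉ H}.ncard ≤
          {v : List X | v.length = n ∧ sect g v ∉ H}.ncard := by
        refine Set.ncard_le_ncard_of_injOn (fun v => (h : Equiv.Perm (List X)) v) ?_ ?_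
          (words_finite n _)
        · intro v hv
          exact ⟨by rw [ta_length]; exact hv.1, hv.2⟩
        · intro v _ w _ hvw
          exact (h : Equiv.Perm (List X)).injective hvw
      have h3 : (n + 1) ^ k ≤ (n + 1) ^ (k + l) :=
        Nat.pow_le_pow_right (Nat.succ_pos n) (Nat.le_add_right k l)
      have h4 : (n + 1) ^ l ≤ (n + 1) ^ (k + l) :=
        Nat.pow_le_pow_right (Nat.succ_pos n) (Nat.le_add_left l k)
      calc {v : List X | v.length = n ∧ sect (g * h) v ∉ H}.ncard
          ≤ _ := Set.ncard_le_ncard h1 ((words_finite n _).union (words_finite n _))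
        _ ≤ _ := Set.ncard_union_le _ _
        _ ≤ C * (n + 1) ^ k + D * (n + 1) ^ l := Nat.add_le_add (h2.trans (hC n)) (hD n)
        _ ≤ C * (n + 1) ^ (k + l) + D * (n + 1) ^ (k + l) :=
            Nat.add_le_add (Nat.mul_le_mul_left C h3) (Nat.mul_le_mul_left D h4)
        _ = (C + D) * (n + 1) ^ (k + l) := (add_mul _ _ _).symm
  inv_mem' := by
    rintro g ⟨hg, C, k, hC⟩
    refine ⟨?_, C, k, fun n => ?_⟩
    · apply (Set.Finite.inv hg).subset
      rintro _ ⟨v, rfl⟩
      refine ⟨((g⁻¹ : TreeAut X) : Equiv.Perm (List X)) v, ?_⟩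
      have h2 := sect_inv g (((g⁻¹ : TreeAut X) : Equiv.Perm (List X)) v)
      rw [Subgroup.coe_inv, app_inv] at h2
      rw [Subgroup.coe_inv, h2, inv_inv]
    · refine le_trans ?_ (hC n)
      refine Set.ncard_le_ncard_of_injOn
        (fun v => ((g⁻¹ : TreeAut X) : Equiv.Perm (List X)) v) ?_ ?_ (words_finite n _)
      · rintro v ⟨hv, hne⟩
        refine ⟨by rw [ta_length]; exact hv, fun h => hne ?_⟩
        have h2 := sect_inv g (((g⁻¹ : TreeAut X) : Equiv.Perm (List X)) v)
        rw [Subgroup.coe_inv, app_inv] at h2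
        rw [h2]
        rw [Subgroup.coe_inv] at h
        exact inv_mem h
      · intro v _ w _ hvw
        exact ((g⁻¹ : TreeAut X) : Equiv.Perm (List X)).injective hvw

theorem ssPow_secL (m : ℕ) (g : TreeAut X) (v : List {v : List X // v.length = m}) :
    ∃ w : List X, (ssPow X m).secL g v = sect g w := by
  induction v generalizing g with
  | nil => exact ⟨[], (sect_nil g).symm⟩
  | cons y v ih =>
    obtain ⟨w, hw⟩ := ih (sect g y.1)
    refine ⟨y.1 ++ w, ?_⟩
    rw [sect_append]
    exact hw

theorem goodF_ssPow (m : ℕ) (H : Subgroup (TreeAut X)) (hcl : ∀ h ∈ H, ∀ v, sect h v ∈ H)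
    (hfs : ∀ h ∈ H, FiniteState h) (hF : FPB H) : (ssPow X m).GoodF H where
  closed := fun h hh y => hcl h hh y.1
  fs := by
    intro h hh
    refine (hfs h hh).subset ?_
    rintro _ ⟨v, rfl⟩
    obtain ⟨w, hw⟩ := ssPow_secL m h v
    exact ⟨w, hw.symm⟩
  fpb := hF

/-- **The relative theorem.** -/
theorem fpb_relAut [Finite X] (H : Subgroup (TreeAut X)) (hcl : ∀ h ∈ H, ∀ v, sect h v ∈ H)
    (hfs : ∀ h ∈ H, FiniteState h) (hF : FPB H) : FPB (RelAut H hcl) := by
  have h1 : FPB (Subgroup.closure (RelAut H hcl : Set (TreeAut X))) := by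
    apply fpb_closure_of_finite
    intro A hA hAf
    obtain ⟨m, hm, l, hl, htri⟩ := exists_triRel H hcl A hAf (fun g hg => (hA hg).1)
      (fun g hg => (hA hg).2)
    obtain ⟨H', hH', -, hl'⟩ := (ssPow X m).exists_goodF (ssPow_faithful m hm)
      (goodF_ssPow m H hcl hfs hF) l htri
    exact fpb_mono ((Subgroup.closure_le H').2 fun g hg => hl' g (hl g hg)) hH'.fpb
  exact fpb_mono Subgroup.subset_closure h1

end Vale.Agent.P192
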