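import Vale.Agent.P192.H826.RaysA
import Vale.Agent.P192.H663.Contracting

/-!
# P192: the all-rays theorem, maximal form

Above every self-similar group `H` in the class all of whose elements have finitely many sections
off every ray, there is a group `R` with the same properties which contains every `g` having, for
some ray, finitely many off-ray sections, all in `R`.
-/

namespace Vale.Agent.P192

universe u v

/-- unions of nonempty chains of subgroups in the class -/
theorem fpb_sSup_chain {G : Type u} [Group G] {c : Set (Subgroup G)}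
    (hc : IsChain (· ≤ ·) c) (hne : c.Nonempty) (h : ∀ K ∈ c, FPB K) :
    FPB (sSup c : Subgroup G) := by
  have hd : DirectedOn (· ≤ ·) c := hc.directedOn
  apply fpb_of_local
  intro A hA
  have key : ∃ K ∈ c, ∀ a ∈ A, (a : G) ∈ K := by
    induction A, hA using Set.Finite.induction_on with
    | empty =>
      obtain ⟨K, hK⟩ := hne
      exact ⟨K, hK, fun a ha => absurd ha (Set.notMem_empty a)⟩
    | @insert a A _ _ ih =>
      obtain ⟨K, hK, hAK⟩ := ih
      obtain ⟨L, hL, haL⟩ := (Subgroup.mem_sSup_of_directedOn hne hd).1 a.2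
      rcases hc.total hK hL with hKL | hLK
      · refine ⟨L, hL, fun b hb => ?_⟩
        rcases hb with rfl | hb
        · exact haL
        · exact hKL (hAK b hb)
      · refine ⟨K, hK, fun b hb => ?_⟩
        rcases hb with rfl | hb
        · exact hLK haL
        · exact hAK b hb
  obtain ⟨K, hK, hAK⟩ := key
  have hle : Subgroup.closure A ≤ K.comap (sSup c : Subgroup G).subtype :=
    (Subgroup.closure_le _).2 fun a ha => hAK a ha
  refine fpb_of_injective (H := K)
    (((sSup c : Subgroup G).subtype.comp (Subgroup.closure A).subtype).codRestrict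
      K fun x => hle x.2) ?_ (h K hK)
  intro x y hxy
  have h1 := congrArg Subtype.val hxy
  exact Subtype.ext (Subtype.ext h1)

namespace SS

variable {T : Type u} {Y : Type v} [Group T] (S : SS T Y)

/-- unions of nonempty chains of good groups -/
theorem goodR_sSup {c : Set (Subgroup T)} (hc : IsChain (· ≤ ·) c) (hne : c.Nonempty)
    (h : ∀ K ∈ c, S.GoodR K) : S.GoodR (sSup c) where
  closed := by
    intro g hg y
    obtain ⟨K, hK, hgK⟩ := (Subgroup.mem_sSup_of_directedOn hne hc.directedOn).1 hg
    exact (Subgroup.mem_sSup_of_directedOn hne hc.directedOn).2 ⟨K, hK, (h K hK).closed g hgK y⟩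
  fin := by
    intro g hg
    obtain ⟨K, hK, hgK⟩ := (Subgroup.mem_sSup_of_directedOn hne hc.directedOn).1 hg
    exact (h K hK).fin hgK
  fpb := fpb_sSup_chain hc hne fun K hK => (h K hK).fpb

/-- **The all-rays theorem, maximal form**, given the one-step extension. -/
theorem rays_max_of
    (hR : ∀ H : Subgroup T, S.GoodR H → ∃ H', S.GoodR H' ∧ H ≤ H' ∧ ∀ xi, S.Vr H xi ⊆ H')
    {H : Subgroup T} (hH : S.GoodR H) :
    ∃ R, S.GoodR R ∧ H ≤ R ∧
      ∀ (g : T) (xi : ℕ → Y), S.off xi g ⊆ R → (S.off xi g).Finite → g ∈ R := by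
  obtain ⟨R, hHR, hmax⟩ := zorn_le_nonempty₀ {K : Subgroup T | S.GoodR K}
    (fun c hc hch K hK => ⟨sSup c, S.goodR_sSup hch ⟨K, hK⟩ fun L hL => hc hL,
      fun L hL => le_sSup hL⟩) H hH
  have hGR : S.GoodR R := hmax.prop
  refine ⟨R, hGR, hHR, ?_⟩
  intro g xi h1 h2
  obtain ⟨R', hR', hle, hV⟩ := hR R hGR
  have h3 : R' ≤ R := hmax.le_of_ge hR' hle
  exact h3 (hV xi ⟨h1, h2⟩)

/-- the elements of depth `≤ n` form a finite group -/
theorem finite_up [Finite Y] (hf : S.Faithful) (K : Subgroup T) [Finite K] :
    Finite (S.up K) := by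
  have hinj : Function.Injective (fun g : S.up K =>
      ((S.σ g.1, fun y => ⟨S.sec g.1 y, g.2 y⟩) : Equiv.Perm Y × (Y → K))) := by
    intro a b hab
    have h1 : S.σ a.1 = S.σ b.1 := congrArg Prod.fst hab
    have h2 : ∀ y, S.sec a.1 y = S.sec b.1 y := fun y =>
      congrArg Subtype.val (congrFun (congrArg Prod.snd hab) y)
    apply Subtype.ext
    have h3 : a.1 * b.1⁻¹ = 1 := by
      apply hf
      intro v
      cases v with
      | nil =>
        change S.σ (a.1 * b.1⁻¹) = 1
        rw [map_mul, map_inv, h1, mul_inv_cancel]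
      | cons y v =>
        change S.σ (S.secL (S.sec (a.1 * b.1⁻¹) y) v) = 1
        rw [S.sec_mul, S.sec_inv, h2, mul_inv_cancel]
        exact S.Kn_secL (n := 0) (one_mem _) v
    exact mul_inv_eq_one.1 h3
  exact Finite.of_injective _ hinj

theorem finite_upn [Finite Y] (hf : S.Faithful) (n : ℕ) : Finite (S.upn ⊥ n) := by
  induction n with
  | zero =>
    change Finite (⊥ : Subgroup T)
    infer_instance
  | succ n ih => exact S.finite_up hf (S.upn ⊥ n)

theorem mem_upn_bot (n : ℕ) (g : T) :
    g ∈ S.upn ⊥ n ↔ ∀ v : List Y, v.length = n → S.secL g v = 1 := by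
  induction n generalizing g with
  | zero =>
    change g ∈ (⊥ : Subgroup T) ↔ _
    rw [Subgroup.mem_bot]
    constructor
    · rintro rfl v hv
      rw [List.length_eq_zero_iff.1 hv]
      rfl
    · intro h
      exact h [] rfl
  | succ n ih =>
    constructor
    · intro h v hv
      cases v with
      | nil => simp at hv
      | cons y v => exact (ih _).1 (h y) v (by simpa using hv)
    · intro h y
      exact (ih _).2 (fun v hv => h (y :: v) (by simp [hv]))

/-- the maximal groups contain the elements with all sections in the group -/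
theorem up_le_max {R : Subgroup T} [Finite Y] [Nonempty Y] (hR : S.GoodR R)
    (hmax : ∀ (g : T) (xi : ℕ → Y), S.off xi g ⊆ R → (S.off xi g).Finite → g ∈ R) :
    S.up R ≤ R := by
  intro g hg
  have h := S.up_sub_Vr hR.closed hR.fin (fun _ => Classical.arbitrary Y) hg
  exact hmax g _ h.1 h.2

theorem upn_le_max {R : Subgroup T} [Finite Y] [Nonempty Y] (hR : S.GoodR R)
    (hmax : ∀ (g : T) (xi : ℕ → Y), S.off xi g ⊆ R → (S.off xi g).Finite → g ∈ R) (n : ℕ) :
    S.upn ⊥ n ≤ R := by
  induction n with
  | zero => exact bot_le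
  | succ n ih => exact fun g hg => S.up_le_max hR hmax (fun y => ih (hg y))

/-- **Spinal elements**: directed along some ray, with off-ray sections of bounded depth. -/
theorem spinal_mem_max {R : Subgroup T} [Finite Y] [Nonempty Y] (hf : S.Faithful)
    (hR : S.GoodR R)
    (hmax : ∀ (g : T) (xi : ℕ → Y), S.off xi g ⊆ R → (S.off xi g).Finite → g ∈ R)
    (g : T) (xi : ℕ → Y) (d : ℕ)
    (h : ∀ k ∈ S.off xi g, ∀ v : List Y, v.length = d → S.secL k v = 1) : g ∈ R := by
  have h1 : S.off xi g ⊆ (S.upn ⊥ d : Set T) := fun k hk => (S.mem_upn_bot d k).2 (h k hk)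
  have hfin : Finite (S.upn ⊥ d) := S.finite_upn hf d
  exact hmax g xi (fun k hk => S.upn_le_max hR hmax d (h1 hk)) ((Set.toFinite _).subset h1)

end SS

end Vale.Agent.P192
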