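import Vale.Agent.P192.H124.RayTri

/-!
# P192: groups closed under rays contain all finite-state elements of relative polynomial activity
-/

namespace Vale.Agent.P192

variable {X : Type*}

theorem RelActivity.sect [Finite X] {H : Subgroup (TreeAut X)} {g : TreeAut X}
    (hg : RelActivity H g) (v : List X) : RelActivity H (sect g v) := by
  obtain ⟨C, k, hC⟩ := hg
  refine ⟨C * (v.length + 1) ^ k, k, fun n => ?_⟩
  have h1 : {w : List X | w.length = n ∧ Vale.Agent.P192.sect (Vale.Agent.P192.sect g v) w ∉ H}.ncard ≤
      {w : List X | w.length = v.length + n ∧ Vale.Agent.P192.sect g w ∉ H}.ncard := by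
    refine Set.ncard_le_ncard_of_injOn (fun w => v ++ w) ?_ ?_ (words_finite _ _)
    · rintro w ⟨hw, hne⟩
      refine ⟨by rw [List.length_append, hw], ?_⟩
      rw [sect_append]
      exact hne
    · intro w _ w' _ h
      exact List.append_cancel_left h
  have h2 : v.length + n + 1 ≤ (v.length + 1) * (n + 1) := by
    have : (v.length + 1) * (n + 1) = v.length * n + v.length + n + 1 := by ring
    rw [this]
    have : 0 ≤ v.length * n := Nat.zero_le _
    omega
  calc _ ≤ _ := h1
    _ ≤ C * (v.length + n + 1) ^ k := hC _
    _ ≤ C * ((v.length + 1) * (n + 1)) ^ k :=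
        Nat.mul_le_mul_left C (Nat.pow_le_pow_left h2 k)
    _ = C * (v.length + 1) ^ k * (n + 1) ^ k := by rw [mul_pow, mul_assoc]

/-- commuting words -/
theorem getElem_of_comm (u p : List X) (hu : u ≠ []) (h : u ++ p = p ++ u) (i : ℕ)
    (hi : i < p.length) : p[i] = u[i % u.length]'(Nat.mod_lt _ (List.length_pos_iff.2 hu)) := by
  have hlen : 0 < u.length := List.length_pos_iff.2 hu
  induction i using Nat.strong_induction_on with
  | _ i ih =>
    have hi1 : i < (p ++ u).length := by rw [List.length_append]; omega
    have hi2 : i < (u ++ p).length := by rw [List.length_append]; omega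
    have e1 : (p ++ u)[i] = p[i] := List.getElem_append_left hi
    have e2 : (u ++ p)[i] = (p ++ u)[i] := by
      simp only [h]
    by_cases hiu : i < u.length
    · have e3 : (u ++ p)[i] = u[i] := List.getElem_append_left hiu
      rw [← e1, ← e2, e3]
      congr 1
      exact (Nat.mod_eq_of_lt hiu).symm
    · have e3 : (u ++ p)[i] = p[i - u.length] := List.getElem_append_right (not_lt.1 hiu)
      rw [← e1, ← e2, e3, ih (i - u.length) (by omega) (by omega)]
      congr 1
      exact (Nat.mod_eq_sub_mod (not_lt.1 hiu)).symm

/-- A group closed under sections which contains the elements with all sections in the group and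
the elements having finitely many sections off some ray, all in the group, contains all
finite-state elements of relative polynomial activity. -/
theorem mem_of_relActivity [Finite X] {R : Subgroup (TreeAut X)}
    (hup : ∀ g, (∀ x, sect g [x] ∈ R) → g ∈ R)
    (hray : ∀ (g : TreeAut X) (xi : ℕ → X),
      (∀ n x, x ≠ xi n → sect g ((List.range n).map xi ++ [x]) ∈ R) →
      {k | ∃ n x, x ≠ xi n ∧ k = sect g ((List.range n).map xi ++ [x])}.Finite →
      g ∈ R)
    (g : TreeAut X) (hfs : FiniteState g) (hpa : RelActivity R g) : g ∈ R := by
  classical
  obtain ⟨r, hr⟩ : ∃ r, rank g = r := ⟨_, rfl⟩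
  induction r using Nat.strong_induction_on generalizing g with
  | _ r ih =>
    have hlow : ∀ v, rank (sect g v) < rank g → sect g v ∈ R := by
      intro v hv
      rw [hr] at hv
      exact ih _ hv (sect g v) (hfs.sect v) (hpa.sect v) rfl
    by_contra hg
    by_cases hret : ∃ u : List X, u ≠ [] ∧ sect g u = g
    · obtain ⟨u, hu, hgu⟩ := hret
      have hlen : 0 < u.length := List.length_pos_iff.2 hu
      set xi : ℕ → X := fun n => u[n % u.length]'(Nat.mod_lt _ hlen) with hxi
      have key : ∀ n x, x ≠ xi n →
          sect g ((List.range n).map xi ++ [x]) ∈ R := by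
        intro n x hx
        apply hlow
        by_contra hlt
        obtain ⟨w, hw⟩ := exists_return hfs _ hlt
        rw [← sect_append] at hw
        set p := (List.range n).map xi ++ [x] ++ w with hp
        have hcomm : u ++ p = p ++ u := by
          apply return_unique_rel R g hpa [] (by rw [sect_nil]; exact hg)
          · simp only [List.length_append]
            omega
          · rw [sect_nil, sect_append, hgu, hw]
          · rw [sect_nil, sect_append, hw, hgu]
        have hn : n < p.length := by
          rw [hp]
          simp only [List.length_append, List.length_map, List.length_range, List.length_cons,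
            List.length_nil]
          omega
        have h1 := getElem_of_comm u p hu hcomm n hn
        have h2 : p[n] = x := by
          have e : p[n]? = some x := by
            rw [hp, List.append_assoc, List.getElem?_append_right (by simp)]
            simp
          rw [List.getElem?_eq_getElem hn] at e
          exact Option.some.inj e
        exact hx (h2 ▸ h1)
      apply hg
      refine hray g xi key (hfs.subset ?_)
      rintro _ ⟨n, x, -, rfl⟩
      exact ⟨_, rfl⟩
    · apply hg
      apply hup
      intro x
      apply hlow
      by_contra hlt
      obtain ⟨w, hw⟩ := exists_return hfs _ hlt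
      rw [← sect_append] at hw
      exact hret ⟨[x] ++ w, by simp, hw⟩

end Vale.Agent.P192
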