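import Vale.Agent.P192.H826.RaysC
import Vale.Agent.P192.H124.RaysMax
import Vale.Agent.P192.H124.RaysPoly
import Vale.Agent.P192.H124.RayExplicit
import Vale.Agent.P192.H124.Letter

/-!
# P192: the all-rays theorem, explicit form
-/

namespace Vale.Agent.P192

/-- The all-rays theorem for automorphisms of the tree of words. -/
theorem rays_tree (X : Type*) [Finite X] [Nonempty X] (H : Subgroup (TreeAut X))
    (hcl : ∀ h ∈ H, ∀ v, sect h v ∈ H)
    (hfin : ∀ h ∈ H, ∀ ξ : ℕ → X,
      {k | ∃ n x, x ≠ ξ n ∧ k = sect h ((List.range n).map ξ ++ [x])}.Finite)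
    (hF : FPB H) :
    ∃ R : Subgroup (TreeAut X), H ≤ R ∧ FPB R ∧ (∀ h ∈ R, ∀ v, sect h v ∈ R) ∧
      (∀ h ∈ R, ∀ ξ : ℕ → X,
        {k | ∃ n x, x ≠ ξ n ∧ k = sect h ((List.range n).map ξ ++ [x])}.Finite) ∧
      (∀ (g : TreeAut X) (ξ : ℕ → X),
        (∀ n x, x ≠ ξ n → sect g ((List.range n).map ξ ++ [x]) ∈ R) →
        {k | ∃ n x, x ≠ ξ n ∧ k = sect g ((List.range n).map ξ ++ [x])}.Finite → g ∈ R) ∧
      ∀ g : TreeAut X, FiniteState g → RelActivity R g → g ∈ R := by
  have hG : (ssX X).GoodR H := by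
    refine ⟨fun h hh x => hcl h hh [x], fun h hh ξ => ?_, hF⟩
    rw [ssX_off]
    exact hfin h hh ξ
  obtain ⟨R, hR, hHR, hmax⟩ := (ssX X).rays_max_of (fun K hK => by
    obtain ⟨K', h1, h2, -, h3⟩ := (ssX X).rays ssX_faithful ssX_conn hK
    exact ⟨K', h1, h2, h3⟩) hG
  have hup := (ssX X).up_le_max hR hmax
  have hray : ∀ (g : TreeAut X) (ξ : ℕ → X),
      (∀ n x, x ≠ ξ n → sect g ((List.range n).map ξ ++ [x]) ∈ R) →
      {k | ∃ n x, x ≠ ξ n ∧ k = sect g ((List.range n).map ξ ++ [x])}.Finite → g ∈ R := by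
    intro g ξ h1 h2
    apply hmax g ξ
    · rw [ssX_off]
      rintro _ ⟨n, x, hx, rfl⟩
      exact h1 n x hx
    · rw [ssX_off]
      exact h2
  refine ⟨R, hHR, hR.fpb, ?_, ?_, hray, ?_⟩
  · intro h hh v
    rw [← ssX_secL]
    exact (ssX X).secL_mem hR.closed v hh
  · intro h hh ξ
    rw [← ssX_off]
    exact hR.fin hh ξ
  · intro g hfs hpa
    exact mem_of_relActivity (fun g hg => hup hg) hray g hfs hpa

/-- **The all-rays theorem, explicit form.** -/
theorem rays_explicit (X : Type) [Finite X] (H : Subgroup (Equiv.Perm (List X)))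
    (k1 : ∀ h ∈ H, ∀ w, (h w).length = w.length)
    (k2 : ∀ h ∈ H, ∀ v, ∃ k ∈ H, ∀ w, h (v ++ w) = h v ++ k w)
    (k3 : ∀ h ∈ H, ∀ ξ : ℕ → X, {f : List X → List X | ∃ n x, x ≠ ξ n ∧ ∀ w,
      h ((List.range n).map ξ ++ x :: w) = h ((List.range n).map ξ ++ [x]) ++ f w}.Finite)
    (k4 : FPB H) :
    ∃ R : Subgroup (Equiv.Perm (List X)), H ≤ R ∧ FPB R ∧
      (∀ h ∈ R, ∀ w, (h w).length = w.length) ∧
      (∀ h ∈ R, ∀ v, ∃ k ∈ R, ∀ w, h (v ++ w) = h v ++ k w) ∧
      (∀ h ∈ R, ∀ ξ : ℕ → X, {f : List X → List X | ∃ n x, x ≠ ξ n ∧ ∀ w,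
        h ((List.range n).map ξ ++ x :: w) = h ((List.range n).map ξ ++ [x]) ++ f w}.Finite) ∧
      ∀ g : Equiv.Perm (List X), (∀ w, (g w).length = w.length) →
        (∀ v w, g v <+: g (v ++ w)) →
        ((∃ (ξ : ℕ → X) (N : Set (Equiv.Perm (List X))), N.Finite ∧ N ⊆ R ∧
          ∀ n x, x ≠ ξ n → ∃ r ∈ N, ∀ w,
            g ((List.range n).map ξ ++ x :: w) = g ((List.range n).map ξ ++ [x]) ++ r w) →
          g ∈ R) ∧
        ({f : List X → List X | ∃ v, ∀ w, g (v ++ w) = g v ++ f w}.Finite →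
          (∃ C k : ℕ, ∀ n, {v : List X | v.length = n ∧
            ¬ ∃ h ∈ R, ∀ w, g (v ++ w) = g v ++ h w}.ncard ≤ C * (n + 1) ^ k) → g ∈ R) := by
  have hHT : H ≤ TreeAut X := mem_treeAut_of H k1 (fun h hh v w => by
    obtain ⟨k, -, hk⟩ := k2 h hh v
    rw [hk]
    exact List.prefix_append _ _)
  rcases isEmpty_or_nonempty X with hX | hX
  · -- only the empty word
    have hone : ∀ g : Equiv.Perm (List X), g = 1 := by
      intro g
      apply Equiv.ext
      intro w
      have h1 : ∀ w : List X, w = [] := by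
        intro w
        cases w with
        | nil => rfl
        | cons x w => exact hX.elim x
      rw [h1 (g w), h1 w]
      rfl
    refine ⟨H, le_rfl, k4, k1, k2, k3, ?_⟩
    intro g _ _
    rw [hone g]
    exact ⟨fun _ => one_mem _, fun _ _ => one_mem _⟩
  let K : Subgroup (TreeAut X) := H.subgroupOf (TreeAut X)
  have hK : ∀ g : TreeAut X, g ∈ K ↔ (g : Equiv.Perm (List X)) ∈ H := fun g => Iff.rfl
  have hcl : ∀ h ∈ K, ∀ v, sect h v ∈ K := by
    intro h hh v
    obtain ⟨k, hk, hk2⟩ := k2 h.1 hh v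
    rw [hK, sect_eq_of hk2]
    exact hk
  have hinj : Function.Injective
      (fun s : TreeAut X => ((s : Equiv.Perm (List X)) : List X → List X)) := by
    intro a b hab
    exact ta_ext fun w => congrFun hab w
  have hspec : ∀ (g : TreeAut X) (ξ : ℕ → X) n x w,
      (g : Equiv.Perm (List X)) ((List.range n).map ξ ++ x :: w) =
        (g : Equiv.Perm (List X)) ((List.range n).map ξ ++ [x]) ++
          (sect g ((List.range n).map ξ ++ [x]) : Equiv.Perm (List X)) w := by
    intro g ξ n x w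
    have h := sect_spec g ((List.range n).map ξ ++ [x]) w
    rw [List.append_assoc] at h
    exact h
  have hoff : ∀ (g : TreeAut X) (ξ : ℕ → X),
      {f : List X → List X | ∃ n x, x ≠ ξ n ∧ ∀ w,
        (g : Equiv.Perm (List X)) ((List.range n).map ξ ++ x :: w) =
          (g : Equiv.Perm (List X)) ((List.range n).map ξ ++ [x]) ++ f w} =
      (fun s : TreeAut X => ((s : Equiv.Perm (List X)) : List X → List X)) ''
        {k | ∃ n x, x ≠ ξ n ∧ k = sect g ((List.range n).map ξ ++ [x])} := by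
    intro g ξ
    ext f
    constructor
    · rintro ⟨n, x, hx, hf⟩
      refine ⟨_, ⟨n, x, hx, rfl⟩, ?_⟩
      funext w
      have h := hspec g ξ n x w
      rw [hf w] at h
      exact (List.append_cancel_left h).symm
    · rintro ⟨_, ⟨n, x, hx, rfl⟩, rfl⟩
      exact ⟨n, x, hx, fun w => hspec g ξ n x w⟩
  have hfin : ∀ h ∈ K, ∀ ξ : ℕ → X,
      {k | ∃ n x, x ≠ ξ n ∧ k = sect h ((List.range n).map ξ ++ [x])}.Finite := by
    intro h hh ξ
    have h1 := k3 h.1 hh ξ
    rw [hoff] at h1
    exact Set.Finite.of_finite_image h1 hinj.injOn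
  have hF : FPB K := by
    refine fpb_of_injective (H := H)
      (((TreeAut X).subtype.comp K.subtype).codRestrict H fun x => x.2) ?_ k4
    intro x y hxy
    have h5 := congrArg Subtype.val hxy
    exact Subtype.ext (Subtype.ext h5)
  obtain ⟨R, hKR, hRF, hRc, hRfin, hRray, hRpoly⟩ := rays_tree X K hcl hfin hF
  have hRm : ∀ g : TreeAut X, (g : Equiv.Perm (List X)) ∈ R.map (TreeAut X).subtype ↔ g ∈ R := by
    intro g
    constructor
    · rintro ⟨g', hg', he⟩
      have : g' = g := Subtype.ext he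
      rwa [← this]
    · intro hg
      exact ⟨g, hg, rfl⟩
  refine ⟨R.map (TreeAut X).subtype, ?_, ?_, ?_, ?_, ?_, ?_⟩
  · intro h hh
    exact ⟨⟨h, hHT hh⟩, hKR hh, rfl⟩
  · refine fpb_of_equiv ((R.equivMapOfInjective (TreeAut X).subtype
      (TreeAut X).subtype_injective).symm) hRF
  · rintro _ ⟨h, hh, rfl⟩ w
    exact ta_length h w
  · rintro _ ⟨h, hh, rfl⟩ v
    exact ⟨_, ⟨sect h v, hRc h hh v, rfl⟩, fun w => sect_spec h v w⟩
  · rintro _ ⟨h, hh, rfl⟩ ξ
    have h1 := (hRfin h hh ξ).image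
      (fun s : TreeAut X => ((s : Equiv.Perm (List X)) : List X → List X))
    rw [← hoff] at h1
    exact h1
  · intro g g1 g2
    have hgT : g ∈ TreeAut X := by
      refine ⟨g1, fun v w => ⟨?_, ?_⟩⟩
      · rintro ⟨t, ht⟩
        -- `v` and `w` agree up to the length of `v`
        have hlen : v.length ≤ w.length := by
          have := congrArg List.length ht
          rw [List.length_append, g1, g1] at this
          omega
        have h3 : g (w.take v.length) <+: g w := by
          have := g2 (w.take v.length) (w.drop v.length)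
          rwa [List.take_append_drop] at this
        have h4 : g v = g (w.take v.length) := by
          have h5 : g v <+: g w := ⟨t, ht⟩
          have h6 : (g v).length = (g (w.take v.length)).length := by
            rw [g1, g1, List.length_take, min_eq_left hlen]
          exact (List.prefix_of_prefix_length_le h5 h3 h6.le).eq_of_length h6
        rw [g.injective h4]
        exact List.take_prefix _ _
      · rintro ⟨t, rfl⟩
        exact g2 v t
    let g' : TreeAut X := ⟨g, hgT⟩
    have hg' : g' ∈ R → g ∈ R.map (TreeAut X).subtype := fun h => ⟨g', h, rfl⟩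
    refine ⟨?_, ?_⟩
    · rintro ⟨ξ, N, hN, hNR, hgN⟩
      have hsec : ∀ n x, x ≠ ξ n → ∃ r ∈ N,
          (sect g' ((List.range n).map ξ ++ [x]) : Equiv.Perm (List X)) = r := by
        intro n x hx
        obtain ⟨r, hr, he⟩ := hgN n x hx
        refine ⟨r, hr, sect_eq_of (g := g') (k := r) (fun w => ?_)⟩
        rw [List.append_assoc]
        exact he w
      apply hg'
      apply hRray g' ξ
      · intro n x hx
        obtain ⟨r, hr, he⟩ := hsec n x hx
        rw [← hRm, he]
        exact hNR hr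
      · have hpre := hN.preimage
          ((Subtype.val_injective : Function.Injective
            (fun s : TreeAut X => (s : Equiv.Perm (List X)))).injOn
            (s := (fun s : TreeAut X => (s : Equiv.Perm (List X))) ⁻¹' N))
        refine hpre.subset ?_
        rintro _ ⟨n, x, hx, rfl⟩
        obtain ⟨r, hr, he⟩ := hsec n x hx
        change (sect g' ((List.range n).map ξ ++ [x]) : Equiv.Perm (List X)) ∈ N
        rw [he]
        exact hr
    · rintro hfs ⟨C, k, hC⟩
      apply hg'
      apply hRpoly g' (finiteState_of (g := g') hfs)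
      refine ⟨C, k, fun n => ?_⟩
      refine le_trans (Set.ncard_le_ncard ?_ (words_finite n _)) (hC n)
      rintro v ⟨hv, hne⟩
      refine ⟨hv, ?_⟩
      rintro ⟨h, hh, he⟩
      apply hne
      rw [← hRm, sect_eq_of (g := g') (k := h) he]
      exact hh

end Vale.Agent.P192
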