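import Vale.Agent.P192.H663.Calc

/-!
# P192: triangular presentations
-/

namespace Vale.Agent.P192

/-- A finitely presented group has a finite symmetric generating set `S` such that every map which
is multiplicative on `S` where this makes sense extends to a homomorphism. -/
theorem exists_tri_pres (Γ : Type) [Group Γ] (hΓ : Group.IsFinitelyPresented Γ) :
    ∃ S : Set Γ, S.Finite ∧ 1 ∈ S ∧ (∀ s ∈ S, s⁻¹ ∈ S) ∧ Subgroup.closure S = ⊤ ∧
      ∀ (G : Type) [Group G] (f : Γ → G),
        (∀ s ∈ S, ∀ t ∈ S, s * t ∈ S → f (s * t) = f s * f t) →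
        ∃ F : Γ →* G, ∀ s ∈ S, F s = f s := by
  obtain ⟨n, φ, hφ, R, hR, hRk⟩ := id hΓ
  have hRfin : Finite R := hR
  obtain ⟨ℓ₀, hℓ₀⟩ := Finite.exists_le (fun r : R => (r : FreeGroup (Fin n)).toWord.length)
  let ℓ := ℓ₀ + 1
  let S : Set Γ := {g | ∃ L : List (Fin n × Bool), L.length ≤ ℓ ∧ φ (FreeGroup.mk L) = g}
  have hS1 : ∀ a : Fin n × Bool, φ (FreeGroup.mk [a]) ∈ S := fun a =>
    ⟨[a], by simp [ℓ], rfl⟩
  have h1S : (1 : Γ) ∈ S := ⟨[], by simp, map_one φ⟩
  refine ⟨S, ?_, h1S, ?_, ?_, ?_⟩
  · have hf : {L : List (Fin n × Bool) | L.length ≤ ℓ}.Finite := List.finite_length_le _ _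
    refine (hf.image (fun L => φ (FreeGroup.mk L))).subset ?_
    rintro _ ⟨L, hL, rfl⟩
    exact ⟨L, hL, rfl⟩
  · rintro _ ⟨L, hL, rfl⟩
    refine ⟨FreeGroup.invRev L, ?_, ?_⟩
    · rw [FreeGroup.invRev_length]
      exact hL
    · rw [← FreeGroup.inv_mk, map_inv]
  · rw [eq_top_iff]
    intro g _
    obtain ⟨x, rfl⟩ := hφ g
    induction x using FreeGroup.induction_on with
    | C1 => rw [map_one]; exact one_mem _
    | of a => exact Subgroup.subset_closure (hS1 (a, true))
    | inv_of a ha => rw [map_inv]; exact inv_mem (Subgroup.subset_closure (hS1 (a, true)))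
    | mul x y hx hy => rw [map_mul]; exact mul_mem (hx trivial) (hy trivial)
  · intro G _ f hf
    have hf1 : f 1 = 1 := by
      have := hf 1 h1S 1 h1S (by rwa [mul_one])
      rw [mul_one] at this
      exact mul_eq_left.1 this.symm
    let q : FreeGroup (Fin n) →* G := FreeGroup.lift (fun a => f (φ (FreeGroup.of a)))
    have hq1 : ∀ a : Fin n × Bool, q (FreeGroup.mk [a]) = f (φ (FreeGroup.mk [a])) := by
      rintro ⟨a, b⟩
      cases b with
      | true =>
        change q (FreeGroup.of a) = _
        exact FreeGroup.lift_apply_of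
      | false =>
        have e : FreeGroup.mk [(a, false)] = (FreeGroup.of a)⁻¹ := rfl
        have h2 := hf _ (hS1 (a, false)) _ (hS1 (a, true)) (by
          rw [← map_mul, e]
          change φ ((FreeGroup.of a)⁻¹ * FreeGroup.of a) ∈ S
          rw [inv_mul_cancel, map_one]
          exact h1S)
        rw [← map_mul, e] at h2
        change f (φ ((FreeGroup.of a)⁻¹ * FreeGroup.of a)) = _ * f (φ (FreeGroup.of a)) at h2
        rw [inv_mul_cancel, map_one, hf1] at h2
        rw [e, map_inv]
        change (FreeGroup.lift (fun a => f (φ (FreeGroup.of a))) (FreeGroup.of a))⁻¹ = _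
        rw [FreeGroup.lift_apply_of]
        exact inv_eq_of_mul_eq_one_left h2.symm
    have hq : ∀ L : List (Fin n × Bool), L.length ≤ ℓ →
        q (FreeGroup.mk L) = f (φ (FreeGroup.mk L)) := by
      intro L
      induction L with
      | nil =>
        intro _
        change q 1 = f (φ 1)
        rw [map_one, map_one, hf1]
      | cons a L ih =>
        intro hL
        have hL' : L.length ≤ ℓ := by
          rw [List.length_cons] at hL
          omega
        have e : FreeGroup.mk (a :: L) = FreeGroup.mk [a] * FreeGroup.mk L := by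
          rw [FreeGroup.mul_mk]
          rfl
        rw [e, map_mul, hq1, ih hL', map_mul]
        refine (hf _ (hS1 a) _ ⟨L, hL', rfl⟩ ?_).symm
        rw [← map_mul, ← e]
        exact ⟨_, hL, rfl⟩
    have hker : φ.ker ≤ q.ker := by
      rw [← hRk]
      apply Subgroup.normalClosure_le_normal
      intro r hr
      rw [SetLike.mem_coe, MonoidHom.mem_ker]
      have h2 : r.toWord.length ≤ ℓ := (hℓ₀ ⟨r, hr⟩).trans (Nat.le_succ _)
      have h3 := hq r.toWord h2
      rw [FreeGroup.mk_toWord] at h3
      have h4 : r ∈ φ.ker := by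
        rw [← hRk]; exact Subgroup.subset_normalClosure hr
      rw [h3, MonoidHom.mem_ker.1 h4, hf1]
    refine ⟨(φ.liftOfRightInverse (Function.surjInv hφ)
      (Function.rightInverse_surjInv hφ)) ⟨q, hker⟩, ?_⟩
    rintro _ ⟨L, hL, rfl⟩
    rw [← hq L hL]
    exact MonoidHom.liftOfRightInverse_comp_apply φ _ (Function.rightInverse_surjInv hφ) ⟨q, hker⟩ _

end Vale.Agent.P192
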