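import Vale.Agent.P192.H124.Acyl

/-!
# P192: groups acting on finite-dimensional wall spaces (CAT(0) cube complexes)
-/

namespace Vale.Agent.P192

universe u v

open Pointwise

section

variable {V : Type v} {K : Type u} [Group K] [MulAction K V]

/-- an element of finite order maps no set to a proper subset -/
theorem smul_eq_of_subset {c : K} (hc : IsOfFinOrder c) {k : Set V} (h : c • k ⊆ k) : c • k = k := by
  obtain ⟨n, hn, hcn⟩ := (isOfFinOrder_iff_pow_eq_one).1 hc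
  have hpow : ∀ m : ℕ, c ^ m • k ⊆ k := by
    intro m
    induction m with
    | zero => rw [pow_zero, one_smul]
    | succ m ih =>
      rw [pow_succ', mul_smul]
      exact (Set.smul_set_mono ih).trans h
  apply subset_antisymm h
  obtain ⟨m, rfl⟩ : ∃ m, n = m + 1 := ⟨n - 1, by omega⟩
  calc k = c ^ (m + 1) • k := by rw [hcn, one_smul]
    _ = c • (c ^ m • k) := by rw [pow_succ', mul_smul]
    _ ⊆ c • k := Set.smul_set_mono (hpow m)

/-- **A finitely generated periodic group acting on a finite-dimensional wall space has bounded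
orbits.** -/
theorem walls_bounded (ht : ∀ g : K, IsOfFinOrder g) [hK : Group.FG K] (W : Set (Set V))
    (hW : ∀ g : K, ∀ h ∈ W, g • h ∈ W) (hfin : ∀ x y : V, {h | h ∈ W ∧ x ∉ h ∧ y ∈ h}.Finite)
    (D : ℕ) (hD : ∀ x y : V, ∀ F : Finset (Set V), (∀ h ∈ F, h ∈ W ∧ x ∉ h ∧ y ∈ h) →
      (∀ h ∈ F, ∀ k ∈ F, h ⊆ k → h = k) → F.card ≤ D) (x : V) :
    ∃ r : ℕ, ∀ g : K, {h | h ∈ W ∧ x ∉ h ∧ g • x ∈ h}.encard ≤ r := by
  classical
  obtain ⟨T, hTf, h1, hTi, hTcl⟩ := exists_symm_gen K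
  set H₀ : Set (Set V) := ⋃ s ∈ T, {h | h ∈ W ∧ x ∉ h ∧ s • x ∈ h} with hH₀
  have hH₀f : H₀.Finite := hTf.biUnion fun s _ => hfin x (s • x)
  -- every wall between `x` and `g x` is a translate of one of these
  have key : ∀ n, ∀ g ∈ ballT T n, ∀ h ∈ W, x ∉ h → g • x ∈ h → ∃ k : K, ∃ h₀ ∈ H₀, h = k • h₀ := by
    intro n
    induction n with
    | zero =>
      intro g hg h _ hx hgx
      have hg1 : g = 1 := hg
      rw [hg1, one_smul] at hgx
      exact absurd hgx hx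
    | succ n ih =>
      rintro _ ⟨s, hs, g, hg, rfl⟩ h hh hx hgx
      by_cases hsx : s • x ∈ h
      · exact ⟨1, h, Set.mem_biUnion hs ⟨hh, hx, hsx⟩, (one_smul K h).symm⟩
      · obtain ⟨k, h₀, hh₀, he⟩ := ih g hg (s⁻¹ • h) (hW _ _ hh)
          (by rwa [Set.mem_inv_smul_set_iff])
          (by
            rw [Set.mem_inv_smul_set_iff, ← mul_smul]
            exact hgx)
        refine ⟨s * k, h₀, hh₀, ?_⟩
        rw [mul_smul, ← he, smul_inv_smul]
  refine ⟨hH₀f.toFinset.card * D, fun g => ?_⟩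
  obtain ⟨n, hn⟩ := exists_mem_ballT hTi hTcl g
  have hgf := hfin x (g • x)
  let P : Set V → Finset (Set V) := fun h₀ => hgf.toFinset.filter fun h => ∃ k : K, h = k • h₀
  have hP : ∀ h₀ ∈ hH₀f.toFinset, (P h₀).card ≤ D := by
    intro h₀ _
    apply hD x (g • x)
    · intro h hh
      exact hgf.mem_toFinset.1 (Finset.mem_filter.1 hh).1
    · intro h hh k hk hhk
      obtain ⟨-, a, ha⟩ := Finset.mem_filter.1 hh
      obtain ⟨-, b, hb⟩ := Finset.mem_filter.1 hk
      have hc : (a * b⁻¹) • k = h := by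
        rw [hb, ha, mul_smul, inv_smul_smul]
      have h2 := smul_eq_of_subset (ht (a * b⁻¹)) (k := k) (by rw [hc]; exact hhk)
      rw [← hc, h2]
  have hsub : hgf.toFinset ⊆ hH₀f.toFinset.biUnion P := by
    intro h hh
    have hh' := hgf.mem_toFinset.1 hh
    obtain ⟨k, h₀, hh₀, he⟩ := key n g hn h hh'.1 hh'.2.1 hh'.2.2
    exact Finset.mem_biUnion.2 ⟨h₀, hH₀f.mem_toFinset.2 hh₀, Finset.mem_filter.2 ⟨hh, k, he⟩⟩
  have hcard := (Finset.card_le_card hsub).trans (Finset.card_biUnion_le_card_mul _ _ _ hP)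
  rw [← hgf.coe_toFinset, Set.encard_coe_eq_coe_finsetCard]
  exact_mod_cast hcard

end

/-- **Groups acting on finite-dimensional wall spaces**: if the subgroups with bounded orbits are
in the class, then so is the group. -/
theorem fpb_of_walls {V : Type v} [Nonempty V] {G : Type u} [Group G] [MulAction G V]
    (W : Set (Set V)) (hW : ∀ g : G, ∀ h ∈ W, (fun v => g • v) '' h ∈ W)
    (hfin : ∀ x y : V, {h | h ∈ W ∧ x ∉ h ∧ y ∈ h}.Finite)
    (D : ℕ) (hD : ∀ x y : V, ∀ F : Finset (Set V), (∀ h ∈ F, h ∈ W ∧ x ∉ h ∧ y ∈ h) →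
      (∀ h ∈ F, ∀ k ∈ F, h ⊆ k → h = k) → F.card ≤ D)
    (hb : ∀ K : Subgroup G, (∃ (x : V) (r : ℕ), ∀ g ∈ K,
      {h | h ∈ W ∧ x ∉ h ∧ g • x ∈ h}.encard ≤ r) → FPB K) : FPB G := by
  intro Γ _ hΓ ht f
  obtain ⟨n, φ, hφ, -⟩ := id hΓ
  have hfg : Group.FG Γ := Group.fg_of_surjective hφ
  have hr : Group.FG f.range := Group.fg_range f
  have hto : ∀ k : f.range, IsOfFinOrder k := by
    rintro ⟨_, y, rfl⟩
    have h1 : IsOfFinOrder (f y) := MonoidHom.isOfFinOrder f (ht y)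
    exact (Submonoid.isOfFinOrder_coe (H := f.range.toSubmonoid) (x := ⟨f y, y, rfl⟩)).1 h1
  obtain ⟨r, hx⟩ := walls_bounded (K := f.range) hto W (fun g h hh => hW (g : G) h hh) hfin D hD
    (Classical.arbitrary V)
  have hK : FPB f.range := hb f.range ⟨_, r, fun g hg => hx ⟨g, hg⟩⟩
  have hfin := hK Γ hΓ ht f.rangeRestrict
  rw [MonoidHom.range_eq_top.2 f.rangeRestrict_surjective] at hfin
  exact Finite.of_equiv _ Subgroup.topEquiv.toEquiv

end Vale.Agent.P192
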